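import Vale.Agent.P335.Knabe
import Mathlib.Algebra.Order.Chebyshev
import Mathlib.Analysis.Complex.ExponentialBounds
import Mathlib.Data.Nat.Choose.Bounds

/-! From the energy inequality to the mixing time. -/

namespace Vale.Agent.P335

open Finset

theorem contract {X ι : Type*} {s : Finset X} {I : Finset ι} {τ : ι → X → X} (hI : 0 < I.card)
    (h1 : ∀ i ∈ I, ∀ x ∈ s, τ i x ∈ s) (h2 : ∀ i ∈ I, ∀ x ∈ s, τ i (τ i x) = x) (g : X → ℝ) :
    ∑ x ∈ s, (g x - 1 / (4 * I.card) * ∑ i ∈ I, (g x - g (τ i x))) = ∑ x ∈ s, g x ∧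
    ∑ x ∈ s, (g x - 1 / (4 * I.card) * ∑ i ∈ I, (g x - g (τ i x))) ^ 2 ≤
      ∑ x ∈ s, g x ^ 2 - 1 / (8 * I.card) * ∑ i ∈ I, ∑ x ∈ s, (g x - g (τ i x)) ^ 2 := by
  have hN : (0 : ℝ) < I.card := by exact_mod_cast hI
  constructor
  · rw [sum_sub_distrib, ← mul_sum, sum_comm, sum_eq_zero (s := I) fun i hi => by
      rw [sum_sub_distrib, sum_invol (h1 i hi) (h2 i hi), sub_self]]
    simp
  set D := ∑ i ∈ I, ∑ x ∈ s, (g x - g (τ i x)) ^ 2 with hD
  have hD0 : 0 ≤ D := sum_nonneg fun _ _ => sum_nonneg fun _ _ => sq_nonneg _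
  have e1 : 2 * ∑ x ∈ s, g x * ∑ i ∈ I, (g x - g (τ i x)) = D := by
    simp only [mul_sum (s := I)]
    rw [sum_comm, mul_sum]
    exact sum_congr rfl fun i hi => dir_invol (h1 i hi) (h2 i hi) g
  have e2 : ∑ x ∈ s, (∑ i ∈ I, (g x - g (τ i x))) ^ 2 ≤ I.card * D := by
    rw [hD, sum_comm, mul_sum]
    exact sum_le_sum fun x _ => sq_sum_le_card_mul_sum_sq
  have e3 : ∑ x ∈ s, (g x - 1 / (4 * I.card) * ∑ i ∈ I, (g x - g (τ i x))) ^ 2 =
      ∑ x ∈ s, g x ^ 2 - 1 / (4 * I.card) * (2 * ∑ x ∈ s, g x * ∑ i ∈ I, (g x - g (τ i x))) +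
        (1 / (4 * I.card)) ^ 2 * ∑ x ∈ s, (∑ i ∈ I, (g x - g (τ i x))) ^ 2 := by
    rw [mul_sum, mul_sum, mul_sum, ← sum_sub_distrib, ← sum_add_distrib]
    exact sum_congr rfl fun x _ => by ring
  rw [e3, e1]
  have e4 := mul_le_mul_of_nonneg_left e2 (sq_nonneg (1 / (4 * I.card) : ℝ))
  have e5 : (1 / (4 * I.card) : ℝ) ^ 2 * (I.card * D) = 1 / 16 * (D / I.card) := by
    field_simp; ring
  have e6 : (1 / (4 * I.card) : ℝ) * D = 1 / 4 * (D / I.card) := by field_simp
  have e7 : (1 / (8 * I.card) : ℝ) * D = 1 / 8 * (D / I.card) := by field_simp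
  have := div_nonneg hD0 hN.le
  linarith

theorem pm_det {V : Type} {a b c d : V} (hab : a ≠ b) (hac : a ≠ c) (hbc : b ≠ c)
    (hbd : b ≠ d) {S : Finset V} (hS : ∀ k, k ∈ S ↔ k = a ∨ k = b ∨ k = c ∨ k = d)
    {F : SimpleGraph V} (h : IsPM S F) (h1 : F.Adj a c) : F = mt a c b d := by
  have un : ∀ u v w, F.Adj u v → F.Adj u w → v = w := fun u v w e1 e2 =>
    (h.2 u (h.1 u v e1)).unique e1 e2
  have h2 : F.Adj b d := by
    obtain ⟨q, hq, -⟩ := h.2 b (by simp [hS])
    rcases (hS q).mp (h.1 q b hq.symm) with rfl | rfl | rfl | rfl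
    · exact (hbc (un _ _ _ hq.symm h1)).elim
    · exact (hq.ne rfl).elim
    · exact (hab (un _ _ _ h1.symm hq.symm)).elim
    · exact hq
  refine le_antisymm (fun u w e => ?_) ((mt_le hac hbd).mpr ⟨h1, h2⟩)
  refine mt_adj.mpr ⟨e.ne, ?_⟩
  rcases (hS u).mp (h.1 u w e) with rfl | rfl | rfl | rfl
  · simp [un _ _ _ e h1]
  · simp [un _ _ _ e h2]
  · simp [un _ _ _ e h1.symm]
  · simp [un _ _ _ e h2.symm]

variable {n : ℕ}

theorem card_pmPairs {S : Finset (Fin n)} (hS : S.card = 4) : (pmPairs S).card = 6 := by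
  classical
  obtain ⟨a, t, ha, rfl, ht⟩ := card_eq_succ.mp hS
  obtain ⟨b, c, d, hbc, hbd, hcd, rfl⟩ := card_eq_three.mp ht
  simp only [mem_insert, mem_singleton, not_or] at ha
  obtain ⟨hab, hac, had⟩ := ha
  have k : ∀ F, IsPM {a, b, c, d} F ↔ F ∈ ({mt a b c d, mt a c b d, mt a d b c} : Finset _) := by
    intro F
    simp only [mem_insert, mem_singleton]
    constructor
    · intro h
      obtain ⟨q, hq, -⟩ := h.2 a (by simp)
      have := h.1 q a hq.symm
      simp only [mem_insert, mem_singleton] at this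
      rcases this with rfl | rfl | rfl | rfl
      · exact (hq.ne rfl).elim
      · exact Or.inl (pm_det hac hab hbc.symm hcd (by simp; tauto) h hq)
      · exact Or.inr (Or.inl (pm_det hab hac hbc hbd (by simp) h hq))
      · exact Or.inr (Or.inr (pm_det hab had hbd hbc (by simp; tauto) h hq))
    · rintro (rfl | rfl | rfl)
      · exact isPM_mt hac hab had hbc.symm hcd hbd (by simp; tauto)
      · exact isPM_mt hab hac had hbc hbd hcd (by simp)
      · exact isPM_mt hab had hac hbd hbc hcd.symm (by simp; tauto)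
  have e : pmPairs {a, b, c, d} = ({mt a b c d, mt a c b d, mt a d b c} : Finset _).offDiag := by
    ext p
    simp only [pmPairs, mem_filter, mem_univ, true_and, mem_offDiag, k]
  have c3 : ({mt a b c d, mt a c b d, mt a d b c} : Finset _).card = 3 := by
    refine card_eq_three.mpr ⟨_, _, _, fun e => ?_, fun e => ?_, fun e => ?_, rfl⟩
    · have : (mt a c b d).Adj a b := e ▸ mt_adj.mpr ⟨hab, by simp⟩
      simp [mt_adj, *] at this
    · have : (mt a d b c).Adj a b := e ▸ mt_adj.mpr ⟨hab, by simp⟩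
      simp [mt_adj, *] at this
    · have : (mt a d b c).Adj a c := e ▸ mt_adj.mpr ⟨hac, by simp⟩
      have h1 := hbc.symm
      simp [mt_adj, *] at this
  rw [e, offDiag_card, c3]

theorem Omega_eq (d : Fin n → ℕ) : Omega d = Om d := by
  classical
  ext G
  simp only [Omega, mem_filter, mem_univ, true_and, mem_Om, ← card_nb]
  refine forall_congr' fun i => ?_
  rw [← SimpleGraph.card_neighborFinset_eq_degree]
  congr! 2
  ext k
  simp [mem_nb]

open Classical in
/-- the index set of moves -/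
noncomputable def moves (n : ℕ) :
    Finset (Finset (Fin n) × SimpleGraph (Fin n) × SimpleGraph (Fin n)) :=
  univ.filter fun q => q.1 ∈ powersetCard 4 (univ : Finset (Fin n)) ∧ q.2 ∈ pmPairs q.1

theorem mem_moves {q : Finset (Fin n) × SimpleGraph (Fin n) × SimpleGraph (Fin n)} :
    q ∈ moves n ↔ q.1 ∈ powersetCard 4 (univ : Finset (Fin n)) ∧ q.2 ∈ pmPairs q.1 := by
  simp only [moves, mem_filter, mem_univ, true_and]

theorem mem_pmPairs {S : Finset (Fin n)} {p : SimpleGraph (Fin n) × SimpleGraph (Fin n)} :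
    p ∈ pmPairs S ↔ IsPM S p.1 ∧ IsPM S p.2 ∧ p.1 ≠ p.2 := by simp [pmPairs]

theorem card_moves : (moves n).card = 6 * n.choose 4 := by
  rw [card_eq_sum_ones, sum_finset_product (moves n) _ _ fun _ => mem_moves,
    sum_congr rfl fun S hS => by
      rw [← card_eq_sum_ones, card_pmPairs (mem_powersetCard.mp hS).2]]
  simp [mul_comm]

theorem energy_moves (d : Fin n → ℕ) (g : SimpleGraph (Fin n) → ℝ) (hg : ∑ x ∈ Om d, g x = 0) :
    2 * ∑ x ∈ Om d, g x ^ 2 ≤ ∑ q ∈ moves n, ∑ x ∈ Om d, (g x - g (tau q.2.1 q.2.2 x)) ^ 2 := by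
  classical
  have h := energy g hg
  set T : Finset (Fin n × Fin n × Fin n × Fin n) :=
    univ.filter fun t => Ok t.1 t.2.1 t.2.2.1 t.2.2.2 with hT
  set φ : Fin n × Fin n × Fin n × Fin n →
      Finset (Fin n) × SimpleGraph (Fin n) × SimpleGraph (Fin n) := fun t =>
    ({t.1, t.2.1, t.2.2.1, t.2.2.2}, mt t.1 t.2.2.1 t.2.1 t.2.2.2, mt t.1 t.2.2.2 t.2.1 t.2.2.1)
    with hφ
  set H : Finset (Fin n) × SimpleGraph (Fin n) × SimpleGraph (Fin n) → ℝ := fun q =>
    ∑ x ∈ Om d, (g x - g (tau q.2.1 q.2.2 x)) ^ 2 with hH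
  have e : (∑ a, ∑ b, ∑ c, ∑ e,
      if Ok a b c e then ∑ x ∈ Om d, (g x - g (tq a b c e x)) ^ 2 else 0) = ∑ t ∈ T, H (φ t) := by
    rw [hT, sum_filter]
    simp only [Fintype.sum_prod_type]
    rfl
  have m : ∀ t ∈ T, φ t ∈ moves n := by
    rintro ⟨a, b, c, e⟩ ht
    obtain ⟨hab, hac, had, hbc, hbd, hcd⟩ := (mem_filter.mp ht).2
    dsimp only at hab hac had hbc hbd hcd
    refine mem_moves.mpr ⟨by simp [*], mem_pmPairs.mpr
      ⟨isPM_mt hab hac had hbc hbd hcd (by simp [hφ]),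
        isPM_mt hab had hac hbd hbc hcd.symm (by simp [hφ]; tauto), fun e' => ?_⟩⟩
    have : (mt a e b c).Adj a c := (show mt a c b e = mt a e b c from e') ▸ mt_adj.mpr ⟨hac, by simp⟩
    have h1 := hbc.symm
    simp [mt_adj, hab, hac, hcd, h1, had] at this
  rw [e, ← sum_fiberwise_of_maps_to m] at h
  have : ∑ q ∈ moves n, ∑ t ∈ T with φ t = q, H (φ t) ≤ ∑ q ∈ moves n, 4 * H q := by
    refine sum_le_sum fun q hq => ?_
    rw [sum_congr rfl fun t ht => by rw [(mem_filter.mp ht).2], sum_const, nsmul_eq_mul]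
    refine mul_le_mul_of_nonneg_right ?_ (sum_nonneg fun _ _ => sq_nonneg _)
    have c4 := (mem_powersetCard.mp (mem_moves.mp hq).1).2
    have : (T.filter fun t => φ t = q).card ≤ q.1.card := by
      refine card_le_card_of_injOn Prod.fst (fun t ht => ?_) ?_
      · rw [← (mem_filter.mp ht).2]; simp [hφ]
      rintro ⟨a, b, c, e⟩ ht ⟨a', b', c', e'⟩ ht' (rfl : a = a')
      have h1 := (mem_filter.mp ht).2.trans (mem_filter.mp ht').2.symm
      obtain ⟨hab, hac, had, hbc, hbd, hcd⟩ := (mem_filter.mp (mem_filter.mp ht).1).2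
      obtain ⟨hab', hac', had', hbc', hbd', hcd'⟩ := (mem_filter.mp (mem_filter.mp ht').1).2
      simp only [hφ, Prod.mk.injEq] at h1
      dsimp only at hab hac had hbc hbd hcd hab' hac' had' hbc' hbd' hcd'
      have a1 : (mt a c' b' e').Adj a c := h1.2.1 ▸ mt_adj.mpr ⟨hac, by simp⟩
      have a2 : (mt a e' b' c').Adj a e := h1.2.2 ▸ mt_adj.mpr ⟨had, by simp⟩
      have a3 : (mt a c' b' e').Adj b e := h1.2.1 ▸ mt_adj.mpr ⟨hbd, by simp⟩
      simp only [mt_adj, hab', hac', had', true_and, false_and, and_false, or_false] at a1 a2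
      obtain rfl := a1.2
      obtain rfl := a2.2
      simp only [mt_adj, hab.symm, had.symm, hbd, false_and, and_false, or_false, false_or,
        and_true] at a3
      rw [a3.2]
    rw [c4] at this
    exact_mod_cast this
  rw [← mul_sum] at this
  linarith

open Classical in
theorem switchP_eq (hn : 4 ≤ n) (d : Fin n → ℕ) (x y : Omega d) :
    switchP d x y = (if x.1 = y.1 then 1 else 0) - 1 / (4 * (moves n).card) * ∑ q ∈ moves n,
      ((if x.1 = y.1 then 1 else 0) - if tau q.2.1 q.2.2 x.1 = y.1 then 1 else 0) := by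
  have hC : (0 : ℝ) < n.choose 4 := by exact_mod_cast Nat.choose_pos hn
  have k : ∀ S : Finset (Fin n), 2 * ∑ p ∈ pmPairs S, (if step p.1 p.2 x.1 = y.1 then 1 else 0) =
      ∑ p ∈ pmPairs S, ((if x.1 = y.1 then (1 : ℝ) else 0) +
        if tau p.1 p.2 x.1 = y.1 then 1 else 0) := by
    intro S
    have := sum_invol (s := pmPairs S) (τ := Prod.swap) (fun p hp => by
      rw [mem_pmPairs] at hp ⊢
      exact ⟨hp.2.1, hp.1, hp.2.2.symm⟩) (fun _ _ => rfl)
      fun p => if step p.1 p.2 x.1 = y.1 then (1 : ℝ) else 0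
    rw [two_mul]
    nth_rewrite 2 [← this]
    rw [← sum_add_distrib]
    exact sum_congr rfl fun p _ => step_add p.1 p.2 x.1 fun z => if z = y.1 then 1 else 0
  have k2 : ∑ q ∈ moves n, ((if x.1 = y.1 then (1 : ℝ) else 0) +
      if tau q.2.1 q.2.2 x.1 = y.1 then 1 else 0) = 2 * ∑ S ∈ powersetCard 4 univ,
        ∑ p ∈ pmPairs S, (if step p.1 p.2 x.1 = y.1 then 1 else 0) := by
    rw [sum_finset_product (moves n) _ _ fun _ => mem_moves, mul_sum]
    exact sum_congr rfl fun S _ => (k S).symm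
  simp only [switchP, ← mul_sum, Subtype.ext_iff]
  rw [sum_add_distrib, sum_const, nsmul_eq_mul] at k2
  rw [sum_sub_distrib, sum_const, nsmul_eq_mul, eq_sub_of_add_eq' k2, card_moves]
  push_cast
  field_simp
  ring

open Classical in
theorem decay (hn : 4 ≤ n) (d : Fin n → ℕ) (G : Omega d) (t : ℕ) :
    ∑ y : Omega d, ((switchP d ^ t) G y - 1 / ((Omega d).card : ℝ)) = 0 ∧
    ∑ y : Omega d, ((switchP d ^ t) G y - 1 / ((Omega d).card : ℝ)) ^ 2 ≤
      (1 - 1 / (24 * n.choose 4) : ℝ) ^ t := by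
  have hC : (1 : ℝ) ≤ n.choose 4 := by exact_mod_cast Nat.choose_pos hn
  have hN : (1 : ℝ) ≤ (Omega d).card := by exact_mod_cast card_pos.mpr ⟨G.1, G.2⟩
  induction t with
  | zero =>
    simp only [pow_zero, Matrix.one_apply, sub_sq, sum_add_distrib, sum_sub_distrib, ite_pow,
      mul_ite, ite_mul, sum_ite_eq, mem_univ, if_true, sum_const, card_univ, Fintype.card_coe,
      nsmul_eq_mul]
    constructor
    · field_simp; ring
    · norm_num
      field_simp
      linarith
  | succ t ih =>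
    set g : SimpleGraph (Fin n) → ℝ := fun y =>
      if h : y ∈ Omega d then (switchP d ^ t) G ⟨y, h⟩ - 1 / ((Omega d).card : ℝ) else 0 with hg
    have hg' : ∀ y : Omega d, (switchP d ^ t) G y - 1 / ((Omega d).card : ℝ) = g y.1 :=
      fun y => by simp [hg, y.2]
    have h1 : ∀ q ∈ moves n, ∀ x ∈ Omega d, tau q.2.1 q.2.2 x ∈ Omega d := fun q hq x hx => by
      have := mem_pmPairs.mp (mem_moves.mp hq).2
      rw [Omega_eq] at hx ⊢
      exact tau_mem this.1 this.2.1 hx
    have key : ∀ y : Omega d, (switchP d ^ (t + 1)) G y - 1 / ((Omega d).card : ℝ) =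
        g y.1 - 1 / (4 * (moves n).card) * ∑ q ∈ moves n, (g y.1 - g (tau q.2.1 q.2.2 y.1)) := by
      intro y
      have a1 : ∑ z : Omega d, (switchP d ^ t) G z * (if z.1 = y.1 then 1 else 0) =
          (switchP d ^ t) G y := by simp
      have a2 : ∀ q ∈ moves n, ∑ z : Omega d, (switchP d ^ t) G z *
          ((if z.1 = y.1 then 1 else 0) - if tau q.2.1 q.2.2 z.1 = y.1 then 1 else 0) =
          g y.1 - g (tau q.2.1 q.2.2 y.1) := by
        intro q hq
        have : ∀ z : Omega d, tau q.2.1 q.2.2 z.1 = y.1 ↔ z = ⟨_, h1 q hq y.1 y.2⟩ := fun z => by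
          rw [Subtype.ext_iff]
          exact ⟨fun e => by dsimp only; rw [← e, tau_tau], fun e => by rw [e, tau_tau]⟩
        simp only [mul_sub, sum_sub_distrib, a1]
        simp only [this, mul_ite, mul_one, mul_zero, sum_ite_eq', mem_univ, if_true]
        rw [← hg' y, ← hg' ⟨_, h1 q hq y.1 y.2⟩]
        ring
      rw [pow_succ, Matrix.mul_apply, ← sum_congr rfl a2, sum_comm, ← hg' y, ← a1, mul_sum,
        sub_right_comm, ← sum_sub_distrib]
      congr 1
      exact sum_congr rfl fun z _ => by rw [switchP_eq hn, ← mul_sum]; ring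
    simp only [hg'] at ih
    simp only [key]
    rw [sum_coe_sort (Omega d) g, sum_coe_sort (Omega d) fun y => g y ^ 2] at ih
    rw [sum_coe_sort (Omega d) fun y =>
        g y - 1 / (4 * (moves n).card) * ∑ q ∈ moves n, (g y - g (tau q.2.1 q.2.2 y)),
      sum_coe_sort (Omega d) fun y =>
        (g y - 1 / (4 * (moves n).card) * ∑ q ∈ moves n, (g y - g (tau q.2.1 q.2.2 y))) ^ 2]
    have c := contract (I := moves n) (τ := fun q => tau q.2.1 q.2.2)
      (by rw [card_moves]; have := Nat.choose_pos hn; omega) h1 (fun q _ x _ => tau_tau _ _ x) g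
    refine ⟨c.1.trans ih.1, c.2.trans ?_⟩
    have e := energy_moves d g (by rw [← Omega_eq]; exact ih.1)
    rw [← Omega_eq] at e
    have p : (0 : ℝ) ≤ 1 - 1 / (24 * n.choose 4) := by
      rw [sub_nonneg, div_le_one (by positivity)]; linarith
    have e2 := mul_le_mul_of_nonneg_right ih.2 p
    have e3 := mul_le_mul_of_nonneg_left e (one_div_nonneg.mpr (mul_nonneg (by norm_num : (0 : ℝ) ≤ 8)
      (Nat.cast_nonneg (moves n).card)))
    have e4 : (1 / (8 * (moves n).card) : ℝ) * 2 = 1 / (24 * n.choose 4) := by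
      have : (n.choose 4 : ℝ) ≠ 0 := by linarith
      rw [card_moves, Nat.cast_mul]
      generalize (n.choose 4 : ℝ) = r at this
      push_cast; field_simp; norm_num
    rw [← mul_assoc, e4] at e3
    rw [pow_succ]
    linarith

theorem card_Omega (d : Fin n → ℕ) : (Omega d).card ≤ 2 ^ (n * n) := by
  classical
  refine (card_le_univ _).trans ((Fintype.card_le_of_injective _ SimpleGraph.adj_injective).trans ?_)
  simp [pow_mul]

theorem mixed_pow (hn : 4 ≤ n) (d : Fin n → ℕ) : n ^ 6 ∈ mixedTimes d := by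
  classical
  intro G
  have h := (decay hn d G (n ^ 6)).2
  have cs := sq_sum_le_card_mul_sum_sq (s := univ)
    (f := fun y : Omega d => |(switchP d ^ n ^ 6) G y - 1 / ((Omega d).card : ℝ)|)
  simp only [sq_abs, card_univ, Fintype.card_coe] at cs
  have hn' : (4 : ℝ) ≤ n := by exact_mod_cast hn
  have hC : (1 : ℝ) ≤ n.choose 4 := by exact_mod_cast Nat.choose_pos hn
  have h1 : (24 * n.choose 4 : ℝ) ≤ n ^ 4 := by
    have := Nat.choose_le_pow_div (α := ℝ) 4 n
    rw [le_div_iff₀ (by positivity)] at this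
    norm_num [Nat.factorial] at this
    linarith
  have h2 : (1 - 1 / (24 * n.choose 4) : ℝ) ^ n ^ 6 ≤ Real.exp (-(n * n)) := by
    have a : (1 - 1 / (24 * n.choose 4) : ℝ) ≤ Real.exp (-(1 / n ^ 4)) := by
      have := Real.add_one_le_exp (-(1 / n ^ 4 : ℝ))
      have := one_div_le_one_div_of_le (by positivity) h1
      linarith
    refine (pow_le_pow_left₀ (by rw [sub_nonneg, div_le_one (by positivity)]; linarith) a _).trans
      (le_of_eq ?_)
    rw [← Real.exp_nat_mul]
    congr 1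
    push_cast
    field_simp
  have h3 : ((Omega d).card : ℝ) * 4 ≤ Real.exp (n * n) := by
    have a : ((Omega d).card : ℝ) ≤ 2 ^ (n * n) := by exact_mod_cast card_Omega d
    have b : (2 : ℝ) ^ (n * n + 2) = Real.exp ((n * n + 2 : ℕ) * Real.log 2) := by
      rw [Real.exp_nat_mul, Real.exp_log two_pos]
    have c : ((n * n + 2 : ℕ) : ℝ) * Real.log 2 ≤ n * n := by
      have := Real.log_two_lt_d9
      push_cast
      nlinarith
    have := Real.exp_le_exp.mpr c
    rw [← b, pow_add] at this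
    linarith
  have h4 : Real.exp (n * n) * Real.exp (-(n * n)) = 1 := by rw [← Real.exp_add]; simp
  have h5 := mul_le_mul_of_nonneg_left (h.trans h2) (Nat.cast_nonneg (α := ℝ) (Omega d).card)
  have h6 := mul_le_mul_of_nonneg_right h3 (Real.exp_pos (-(n * n))).le
  have h7 := cs.trans h5
  have h8 : ∑ y : Omega d, |(switchP d ^ n ^ 6) G y - 1 / ((Omega d).card : ℝ)| ≤ 1 / 2 :=
    abs_le_of_sq_le_sq' (by linarith) (by norm_num) |>.2
  linarith

end Vale.Agent.P335
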