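import Mathlib.Combinatorics.SimpleGraph.Finite
import Mathlib.Data.Matrix.Mul
import Mathlib.Data.Real.Basic
import Mathlib.Order.Lattice.Nat

/-! The switch chain on labeled graphs with a given degree vector. -/

namespace Vale.Agent.P335

open Finset

/-- `F` is a perfect matching of the complete graph on the vertex set `S`. -/
def IsPM {V : Type} (S : Finset V) (F : SimpleGraph V) : Prop :=
  (∀ u v, F.Adj u v → u ∈ S) ∧ ∀ u ∈ S, ∃! v, F.Adj u v

open Classical in
/-- If all edges of `F` are present and all edges of `F'` are absent, replace `F` by `F'`;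
otherwise stay put. -/
noncomputable def step {V : Type} (F F' G : SimpleGraph V) : SimpleGraph V :=
  if F ≤ G ∧ Disjoint F' G then (G \ F) ⊔ F' else G

open Classical in
/-- The labeled simple graphs on `Fin n` with degree vector `d`. -/
noncomputable def Omega {n : ℕ} (d : Fin n → ℕ) : Finset (SimpleGraph (Fin n)) :=
  univ.filter fun G => ∀ i, G.degree i = d i

open Classical in
/-- The ordered pairs of distinct perfect matchings of the complete graph on `S`. -/
noncomputable def pmPairs {n : ℕ} (S : Finset (Fin n)) :
    Finset (SimpleGraph (Fin n) × SimpleGraph (Fin n)) :=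
  univ.filter fun p => IsPM S p.1 ∧ IsPM S p.2 ∧ p.1 ≠ p.2

open Classical in
/-- The transition matrix of the switch chain. -/
noncomputable def switchP {n : ℕ} (d : Fin n → ℕ) : Matrix (Omega d) (Omega d) ℝ := fun G G' =>
  (1 / 2) * (if G = G' then 1 else 0) +
    (1 / 2) * ∑ S ∈ powersetCard 4 (univ : Finset (Fin n)), (1 / (n.choose 4 : ℝ)) *
      ∑ p ∈ pmPairs S, (1 / 6) * (if step p.1 p.2 G.1 = G'.1 then 1 else 0)

open Classical in
/-- The times at which the chain is within total variation distance `1/4` of uniform from every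
starting graph. -/
def mixedTimes {n : ℕ} (d : Fin n → ℕ) : Set ℕ :=
  {t | ∀ G : Omega d,
    (1 / 2) * ∑ G' : Omega d, |(switchP d ^ t) G G' - 1 / ((Omega d).card : ℝ)| ≤ 1 / 4}

/-- The mixing time. -/
noncomputable def tmix {n : ℕ} (d : Fin n → ℕ) : ℕ := sInf (mixedTimes d)

end Vale.Agent.P335
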