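import Vale.Agent.P335.Slice

/-! A second-moment bound on a slice of the cube. -/

namespace Vale.Agent.P335

open Finset

variable {K : Type*} [DecidableEq K]

/-- indicator of membership -/
def sg (c : K) (X : Finset K) : ℝ := if c ∈ X then 1 else 0

/-- indicator that exactly one of `c`, `d` is in `X` -/
def zz (c d : K) (X : Finset K) : ℝ := if (c ∈ X ↔ d ∈ X) then 0 else 1

theorem zz_eq (c d : K) (X : Finset K) : zz c d X = sg c X + sg d X - 2 * (sg c X * sg d X) := by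
  unfold zz sg
  by_cases h1 : c ∈ X <;> by_cases h2 : d ∈ X <;> norm_num [h1, h2]

theorem zz_comm (c d : K) (X : Finset K) : zz c d X = zz d c X := by
  rw [zz_eq, zz_eq]; ring

theorem zz_self (c : K) (X : Finset K) : zz c c X = 0 := by simp [zz]

theorem zz_01 (c d : K) (X : Finset K) : zz c d X = 0 ∨ zz c d X = 1 := by
  unfold zz; split_ifs <;> simp

/-- number of `α`-subsets of an `M`-set containing a given `k`-set -/
def pk (M α k : ℕ) : ℝ := if k ≤ α then ((M - k).choose (α - k) : ℕ) else 0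

theorem mom {S s : Finset K} (α : ℕ) (hs : s ⊆ S) :
    ∑ X ∈ powersetCard α S, ∏ k ∈ s, sg k X = pk S.card α s.card := by
  have e : ∀ X : Finset K, ∏ k ∈ s, sg k X = if s ⊆ X then 1 else 0 := by
    intro X
    split_ifs with h
    · exact prod_eq_one fun k hk => by simp [sg, h hk]
    · obtain ⟨k, hk, hk'⟩ := not_subset.mp h
      exact prod_eq_zero hk (by simp [sg, hk'])
  simp only [e, sum_boole, pk]
  split_ifs with h
  · rw [card_filter_powersetCard_subset s S α hs h]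
  · rw [filter_eq_empty_iff.mpr]
    · simp
    · intro X hX hsX
      have := card_le_card hsX
      rw [(mem_powersetCard.mp hX).2] at this
      exact h this

theorem mom1 {S : Finset K} (α : ℕ) {c : K} (hc : c ∈ S) :
    ∑ X ∈ powersetCard α S, sg c X = pk S.card α 1 := by
  simpa using mom (s := {c}) α (by simpa using hc)

theorem mom2 {S : Finset K} (α : ℕ) {c d : K} (hc : c ∈ S) (hd : d ∈ S) (h : c ≠ d) :
    ∑ X ∈ powersetCard α S, sg c X * sg d X = pk S.card α 2 := by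
  have := mom (S := S) (s := {c, d}) α (by simp [insert_subset_iff, hc, hd])
  simpa [prod_pair h, card_pair h] using this

theorem mom3 {S : Finset K} (α : ℕ) {c d e : K} (hc : c ∈ S) (hd : d ∈ S) (he : e ∈ S)
    (h1 : c ≠ d) (h2 : c ≠ e) (h3 : d ≠ e) :
    ∑ X ∈ powersetCard α S, sg c X * (sg d X * sg e X) = pk S.card α 3 := by
  have := mom (S := S) (s := {c, d, e}) α (by simp [insert_subset_iff, hc, hd, he])
  have hc' : c ∉ ({d, e} : Finset K) := by simp [h1, h2]
  simpa [prod_insert hc', card_insert_of_notMem hc', prod_pair h3, card_pair h3] using this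

theorem mom4 {S : Finset K} (α : ℕ) {b c d e : K} (hb : b ∈ S) (hc : c ∈ S) (hd : d ∈ S)
    (he : e ∈ S) (h1 : c ≠ d) (h2 : c ≠ e) (h3 : d ≠ e) (h4 : b ≠ c) (h5 : b ≠ d) (h6 : b ≠ e) :
    ∑ X ∈ powersetCard α S, sg b X * (sg c X * (sg d X * sg e X)) = pk S.card α 4 := by
  have := mom (S := S) (s := {b, c, d, e}) α (by simp [insert_subset_iff, hb, hc, hd, he])
  have hc' : c ∉ ({d, e} : Finset K) := by simp [h1, h2]
  have hb' : b ∉ ({c, d, e} : Finset K) := by simp [h4, h5, h6]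
  simpa [prod_insert hb', card_insert_of_notMem hb', prod_insert hc', card_insert_of_notMem hc',
    prod_pair h3, card_pair h3] using this

theorem zz_sum {S : Finset K} (α : ℕ) {c d : K} (hc : c ∈ S) (hd : d ∈ S) (h : c ≠ d) :
    ∑ X ∈ powersetCard α S, zz c d X = 2 * (pk S.card α 1 - pk S.card α 2) := by
  simp only [zz_eq, sum_add_distrib, sum_sub_distrib, ← mul_sum, mom1 α hc, mom1 α hd,
    mom2 α hc hd h]
  ring

theorem zz_same {S : Finset K} (α : ℕ) {c d : K} (hc : c ∈ S) (hd : d ∈ S) (h : c ≠ d) :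
    ∑ X ∈ powersetCard α S, zz c d X * zz c d X = 2 * (pk S.card α 1 - pk S.card α 2) := by
  rw [← zz_sum α hc hd h]
  exact sum_congr rfl fun X _ => by rcases zz_01 c d X with h | h <;> simp [h]

theorem zz_one {S : Finset K} (α : ℕ) {c d e : K} (hc : c ∈ S) (hd : d ∈ S) (he : e ∈ S)
    (h1 : c ≠ d) (h2 : c ≠ e) (h3 : d ≠ e) :
    ∑ X ∈ powersetCard α S, zz c d X * zz c e X = pk S.card α 1 - pk S.card α 2 := by
  have : ∀ X : Finset K, zz c d X * zz c e X =
      sg c X - sg c X * sg e X - sg c X * sg d X + sg d X * sg e X := by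
    intro X
    unfold zz sg
    by_cases h1 : c ∈ X <;> by_cases h2 : d ∈ X <;> by_cases h3 : e ∈ X <;> norm_num [h1, h2, h3]
  simp only [this, sum_add_distrib, sum_sub_distrib, mom1 α hc, mom2 α hc hd h1,
    mom2 α hc he h2, mom2 α hd he h3]
  ring

theorem zz_two {S : Finset K} (α : ℕ) {b c d e : K} (hb : b ∈ S) (hc : c ∈ S) (hd : d ∈ S)
    (he : e ∈ S) (h1 : c ≠ d) (h2 : c ≠ e) (h3 : d ≠ e) (h4 : b ≠ c) (h5 : b ≠ d) (h6 : b ≠ e) :
    ∑ X ∈ powersetCard α S, zz b c X * zz d e X =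
      4 * pk S.card α 2 - 8 * pk S.card α 3 + 4 * pk S.card α 4 := by
  have : ∀ X : Finset K, zz b c X * zz d e X =
      sg b X * sg d X + sg b X * sg e X + sg c X * sg d X + sg c X * sg e X
        - 2 * (sg b X * (sg d X * sg e X)) - 2 * (sg c X * (sg d X * sg e X))
        - 2 * (sg b X * (sg c X * sg d X)) - 2 * (sg b X * (sg c X * sg e X))
        + 4 * (sg b X * (sg c X * (sg d X * sg e X))) := by
    intro X
    rw [zz_eq, zz_eq]; ring
  simp only [this, sum_add_distrib, sum_sub_distrib, ← mul_sum, mom2 α hb hd h5, mom2 α hb he h6,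
    mom2 α hc hd h1, mom2 α hc he h2, mom3 α hb hd he h5 h6 h3, mom3 α hc hd he h1 h2 h3,
    mom3 α hb hc hd h4 h5 h1, mom3 α hb hc he h4 h6 h2, mom4 α hb hc hd he h1 h2 h3 h4 h5 h6]
  ring

theorem gram (S : Finset K) (α : ℕ) : ∃ m q : ℝ, (2 ≤ S.card → 0 ≤ q ∧ q ≤ 2 * m) ∧
    (∀ c ∈ S, ∀ d ∈ S, c ≠ d → ∑ X ∈ powersetCard α S, zz c d X = 2 * m) ∧
    ∀ c ∈ S, ∀ d ∈ S, ∀ c' ∈ S, ∀ d' ∈ S, c ≠ d → c' ≠ d' →
      ∑ X ∈ powersetCard α S, zz c d X * zz c' d' X =
        q + (m - q) * ((if c = c' then 1 else 0) + (if c = d' then 1 else 0) +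
          (if d = c' then 1 else 0) + (if d = d' then 1 else 0)) +
        q * ((if c = c' then (if d = d' then 1 else 0) else 0) +
          (if c = d' then (if d = c' then 1 else 0) else 0)) := by
  have hq : ∃ q : ℝ, (2 ≤ S.card → 0 ≤ q ∧ q ≤ 2 * (pk S.card α 1 - pk S.card α 2)) ∧
      ∀ b ∈ S, ∀ c ∈ S, ∀ d ∈ S, ∀ e ∈ S, c ≠ d → c ≠ e → d ≠ e → b ≠ c → b ≠ d → b ≠ e →
        ∑ X ∈ powersetCard α S, zz b c X * zz d e X = q := by
    by_cases h : ∃ b ∈ S, ∃ c ∈ S, ∃ d ∈ S, ∃ e ∈ S, c ≠ d ∧ c ≠ e ∧ d ≠ e ∧ b ≠ c ∧ b ≠ d ∧ b ≠ e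
    · obtain ⟨b, hb, c, hc, d, hd, e, he, h1, h2, h3, h4, h5, h6⟩ := h
      refine ⟨_, fun _ => ?_, fun b hb c hc d hd e he h1 h2 h3 h4 h5 h6 =>
        zz_two α hb hc hd he h1 h2 h3 h4 h5 h6⟩
      rw [← zz_two α hb hc hd he h1 h2 h3 h4 h5 h6, ← zz_sum α hb hc h4]
      constructor
      · exact sum_nonneg fun X _ => by
          rcases zz_01 b c X with h | h <;> rcases zz_01 d e X with h' | h' <;> simp [h, h']
      · exact sum_le_sum fun X _ => by
          rcases zz_01 b c X with h | h <;> rcases zz_01 d e X with h' | h' <;> simp [h, h']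
    · refine ⟨0, fun h2 => ⟨le_rfl, ?_⟩, fun b hb c hc d hd e he h1 h2 h3 h4 h5 h6 =>
        (h ⟨b, hb, c, hc, d, hd, e, he, h1, h2, h3, h4, h5, h6⟩).elim⟩
      obtain ⟨c, hc, d, hd, hcd⟩ := one_lt_card.mp h2
      rw [← zz_sum α hc hd hcd]
      exact sum_nonneg fun X _ => by rcases zz_01 c d X with h | h <;> simp [h]
  obtain ⟨q, hq1, hq2⟩ := hq
  refine ⟨_, q, hq1, fun c hc d hd h => zz_sum α hc hd h, ?_⟩
  intro c hc d hd c' hc' d' hd' h h'
  by_cases e1 : c = c'
  · subst e1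
    by_cases e2 : d = d'
    · subst e2
      rw [zz_same α hc hd h]
      simp [h, h.symm]; ring
    · rw [zz_one α hc hd hd' h h' e2]
      simp [h.symm, h', e2]
  · by_cases e2 : c = d'
    · subst e2
      simp only [zz_comm c' c]
      by_cases e3 : d = c'
      · subst e3
        rw [zz_same α hc hd h]
        simp [h, h.symm]; ring
      · rw [zz_one α hc hd hc' h e1 e3]
        simp [h.symm, e1, e3]
    · by_cases e3 : d = c'
      · subst e3
        simp only [zz_comm c d]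
        rw [zz_one α hd hc hd' h.symm h' e2]
        simp [h, h', e2]
      · by_cases e4 : d = d'
        · subst e4
          simp only [zz_comm c d, zz_comm c' d]
          rw [zz_one α hd hc hc' h.symm e3 e1]
          simp [h, e1, e3]
        · rw [hq2 c hc d hd c' hc' d' hd' e3 e4 h' h e1 e2]
          simp [e1, e2, e3, e4]

theorem quad (S : Finset K) (t : K → K → ℝ) (hs : ∀ c d, t c d = t d c) (q m : ℝ) :
    ∑ c ∈ S, ∑ d ∈ S, ∑ c' ∈ S, ∑ d' ∈ S, t c d * t c' d' *
      (q + (m - q) * ((if c = c' then 1 else 0) + (if c = d' then 1 else 0) +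
          (if d = c' then 1 else 0) + (if d = d' then 1 else 0)) +
        q * ((if c = c' then (if d = d' then 1 else 0) else 0) +
          (if c = d' then (if d = c' then 1 else 0) else 0))) =
      q * (∑ c ∈ S, ∑ d ∈ S, t c d) ^ 2 + 4 * (m - q) * ∑ c ∈ S, (∑ d ∈ S, t c d) ^ 2 +
        2 * q * ∑ c ∈ S, ∑ d ∈ S, t c d ^ 2 := by
  have h1 : ∀ c ∈ S, ∀ d ∈ S, ∑ c' ∈ S, ∑ d' ∈ S, t c' d' *
      (q + (m - q) * ((if c = c' then 1 else 0) + (if c = d' then 1 else 0) +
          (if d = c' then 1 else 0) + (if d = d' then 1 else 0)) +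
        q * ((if c = c' then (if d = d' then 1 else 0) else 0) +
          (if c = d' then (if d = c' then 1 else 0) else 0))) =
      q * (∑ c ∈ S, ∑ d ∈ S, t c d) + 2 * (m - q) * (∑ e ∈ S, t c e + ∑ e ∈ S, t d e) +
        2 * q * t c d := by
    intro c hc d hd
    have a1 : ∀ c ∈ S, ∑ c' ∈ S, ∑ d' ∈ S, t c' d' * (if c = c' then 1 else 0) =
        ∑ e ∈ S, t c e := by
      intro c hc
      rw [sum_comm]
      simp [hc]
    have a2 : ∀ c ∈ S, ∑ c' ∈ S, ∑ d' ∈ S, t c' d' * (if c = d' then 1 else 0) =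
        ∑ e ∈ S, t c e := by
      intro c hc
      simp [hc, hs c]
    have a3 : ∑ c' ∈ S, ∑ d' ∈ S, t c' d' * (if c = c' then (if d = d' then 1 else 0) else 0) =
        t c d := by
      rw [sum_comm]
      simp [hc, hd]
    have a4 : ∑ c' ∈ S, ∑ d' ∈ S, t c' d' * (if c = d' then (if d = c' then 1 else 0) else 0) =
        t c d := by
      simp [hc, hd, hs d]
    have e : ∀ c' d', t c' d' *
      (q + (m - q) * ((if c = c' then 1 else 0) + (if c = d' then 1 else 0) +
          (if d = c' then 1 else 0) + (if d = d' then 1 else 0)) +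
        q * ((if c = c' then (if d = d' then 1 else 0) else 0) +
          (if c = d' then (if d = c' then 1 else 0) else 0))) =
      q * t c' d' + (m - q) * (t c' d' * (if c = c' then 1 else 0)) +
        (m - q) * (t c' d' * (if c = d' then 1 else 0)) +
        (m - q) * (t c' d' * (if d = c' then 1 else 0)) +
        (m - q) * (t c' d' * (if d = d' then 1 else 0)) +
        q * (t c' d' * (if c = c' then (if d = d' then 1 else 0) else 0)) +
        q * (t c' d' * (if c = d' then (if d = c' then 1 else 0) else 0)) := fun _ _ => by ring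
    simp only [e, sum_add_distrib, ← mul_sum]
    rw [a1 c hc, a1 d hd, a2 c hc, a2 d hd, a3, a4]
    ring
  have h2 : ∑ c ∈ S, ∑ d ∈ S, t c d * ∑ e ∈ S, t c e = ∑ c ∈ S, (∑ d ∈ S, t c d) ^ 2 :=
    sum_congr rfl fun c _ => by rw [← sum_mul, sq]
  have h3 : ∑ c ∈ S, ∑ d ∈ S, t c d * ∑ e ∈ S, t d e = ∑ c ∈ S, (∑ d ∈ S, t c d) ^ 2 := by
    rw [sum_comm, ← h2]
    exact sum_congr rfl fun c _ => sum_congr rfl fun d _ => by rw [hs]
  have h4 : ∑ c ∈ S, ∑ d ∈ S, t c d * (q * (∑ c ∈ S, ∑ d ∈ S, t c d) +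
      2 * (m - q) * (∑ e ∈ S, t c e + ∑ e ∈ S, t d e) + 2 * q * t c d) =
      ∑ c ∈ S, ∑ d ∈ S, ((q * (∑ c ∈ S, ∑ d ∈ S, t c d)) * t c d +
      2 * (m - q) * (t c d * ∑ e ∈ S, t c e) + 2 * (m - q) * (t c d * ∑ e ∈ S, t d e) +
        2 * q * t c d ^ 2) := sum_congr rfl fun c _ => sum_congr rfl fun d _ => by ring
  simp only [sum_add_distrib, ← mul_sum] at h4
  rw [h2, h3] at h4
  calc _ = _ := sum_congr rfl fun c hc => sum_congr rfl fun d hd => ?_
    _ = _ := h4
    _ = _ := by ring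
  rw [← h1 c hc d hd, mul_sum]
  refine sum_congr rfl fun c' _ => ?_
  rw [mul_sum]
  exact sum_congr rfl fun d' _ => by ring

omit [DecidableEq K] in
theorem row_bound (S : Finset K) (t : K → K → ℝ) (hs : ∀ c d, t c d = t d c)
    (h0 : ∑ c ∈ S, ∑ d ∈ S, t c d = 0) (hS : 0 < S.card) :
    2 * ∑ c ∈ S, (∑ d ∈ S, t c d) ^ 2 ≤ S.card * ∑ c ∈ S, ∑ d ∈ S, t c d ^ 2 := by
  set T : K → ℝ := fun c => ∑ d ∈ S, t c d with hT
  have h : 0 ≤ ∑ c ∈ S, ∑ d ∈ S, (S.card * t c d - T c - T d) ^ 2 :=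
    sum_nonneg fun _ _ => sum_nonneg fun _ _ => sq_nonneg _
  have h2 : ∑ c ∈ S, ∑ d ∈ S, t c d * T c = ∑ c ∈ S, T c ^ 2 :=
    sum_congr rfl fun c _ => by rw [← sum_mul, sq]
  have h3 : ∑ c ∈ S, ∑ d ∈ S, t c d * T d = ∑ c ∈ S, T c ^ 2 := by
    rw [sum_comm, ← h2]
    exact sum_congr rfl fun c _ => sum_congr rfl fun d _ => by rw [hs]
  have h4 : ∑ c ∈ S, ∑ d ∈ S, T c * T d = 0 := by
    rw [← sum_mul_sum, h0, zero_mul]
  have e : ∀ c d, (S.card * t c d - T c - T d) ^ 2 = (S.card : ℝ) ^ 2 * t c d ^ 2 -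
      2 * S.card * (t c d * T c) - 2 * S.card * (t c d * T d) + T c ^ 2 + T d ^ 2 +
        2 * (T c * T d) := fun _ _ => by ring
  simp only [← mul_sum] at h2 h3 h4
  simp only [e, sum_add_distrib, sum_sub_distrib, ← mul_sum] at h
  rw [h2, h3, h4] at h
  simp only [sum_const, nsmul_eq_mul, ← mul_sum] at h
  have : (0 : ℝ) < S.card := by exact_mod_cast hS
  nlinarith

theorem kbound (S : Finset K) (α : ℕ) (g : Finset K → ℝ)
    (hg : ∑ X ∈ powersetCard α S, g X = 0) :
    ∑ c ∈ S, ∑ d ∈ S, (∑ X ∈ powersetCard α S, zz c d X * g X) ^ 2 /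
      (∑ X ∈ powersetCard α S, zz c d X) ≤ S.card * ∑ X ∈ powersetCard α S, g X ^ 2 := by
  have hG : 0 ≤ ∑ X ∈ powersetCard α S, g X ^ 2 := sum_nonneg fun _ _ => sq_nonneg _
  by_cases hS : 2 ≤ S.card
  swap
  · rw [sum_eq_zero]
    · positivity
    · intro c hc
      refine sum_eq_zero fun d hd => ?_
      rw [card_le_one.mp (by omega) c hc d hd]
      simp [zz_self]
  obtain ⟨m, q, hq, hm, hgram⟩ := gram S α
  obtain ⟨hq1, hq2⟩ := hq hS
  set t : K → K → ℝ := fun c d => ∑ X ∈ powersetCard α S, zz c d X * g X with ht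
  have hs : ∀ c d, t c d = t d c := fun c d => by simp only [ht, zz_comm c d]
  have hd : ∀ c, t c c = 0 := fun c => by simp [ht, zz_self]
  set τ := ∑ c ∈ S, ∑ d ∈ S, t c d ^ 2 with hτ
  have hτ0 : 0 ≤ τ := sum_nonneg fun _ _ => sum_nonneg fun _ _ => sq_nonneg _
  have e1 : ∑ c ∈ S, ∑ d ∈ S, t c d ^ 2 / (∑ X ∈ powersetCard α S, zz c d X) = τ / (2 * m) := by
    rw [hτ, sum_div]
    refine sum_congr rfl fun c hc => ?_
    rw [sum_div]
    refine sum_congr rfl fun d hd' => ?_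
    by_cases h : c = d
    · subst h; simp [hd]
    · rw [hm c hc d hd' h]
  have h0 : ∑ c ∈ S, ∑ d ∈ S, t c d = 0 := by
    have : ∀ X ∈ powersetCard α S, ∑ c ∈ S, ∑ d ∈ S, zz c d X =
        2 * S.card * α - 2 * (α * α) := by
      intro X hX
      rw [mem_powersetCard] at hX
      have : ∑ c ∈ S, sg c X = α := by
        simp only [sg, sum_boole]
        rw [filter_mem_eq_inter, inter_eq_right.mpr hX.1, hX.2]
      simp only [zz_eq, sum_add_distrib, sum_sub_distrib, ← mul_sum, ← sum_mul, this, sum_const,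
        nsmul_eq_mul]
      ring
    simp only [ht]
    rw [sum_congr rfl fun c _ => sum_comm, sum_comm]
    simp only [← sum_mul]
    rw [sum_congr rfl fun X hX => by rw [this X hX], ← mul_sum, hg, mul_zero]
  set F : Finset K → ℝ := fun X => ∑ c ∈ S, ∑ d ∈ S, t c d * zz c d X with hF
  have e2 : τ = ∑ X ∈ powersetCard α S, g X * F X := by
    simp only [hF, mul_sum]
    rw [sum_comm]
    refine sum_congr rfl fun c _ => ?_
    rw [sum_comm]
    refine sum_congr rfl fun d _ => ?_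
    rw [sq]
    nth_rewrite 2 [ht]
    simp only [mul_sum]
    exact sum_congr rfl fun X _ => by ring
  have e3 : ∑ X ∈ powersetCard α S, F X ^ 2 = 4 * (m - q) * ∑ c ∈ S, (∑ d ∈ S, t c d) ^ 2 +
      2 * q * τ := by
    have := quad S t hs q m
    rw [h0] at this
    simp only [ne_eq, OfNat.ofNat_ne_zero, not_false_eq_true, zero_pow, mul_zero, zero_add] at this
    rw [← this]
    simp only [hF, sq, sum_mul, mul_sum]
    rw [sum_comm]
    refine sum_congr rfl fun c hc => ?_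
    rw [sum_comm]
    refine sum_congr rfl fun d hd' => ?_
    rw [sum_comm]
    refine sum_congr rfl fun c' hc' => ?_
    rw [sum_comm]
    refine sum_congr rfl fun d' hd'' => ?_
    by_cases h : c = d
    · subst h; simp [hd]
    by_cases h' : c' = d'
    · subst h'; simp [hd]
    rw [← hgram c hc d hd' c' hc' d' hd'' h h', mul_sum]
    exact sum_congr rfl fun X _ => by ring
  have h5 := row_bound S t hs h0 (by omega)
  have h6 : (2 : ℝ) ≤ S.card := by exact_mod_cast hS
  have h7 : 0 ≤ ∑ c ∈ S, (∑ d ∈ S, t c d) ^ 2 := sum_nonneg fun _ _ => sq_nonneg _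
  have e4 : ∑ X ∈ powersetCard α S, F X ^ 2 ≤ 2 * m * S.card * τ := by
    rw [e3]
    rcases le_total q m with h | h
    · have := mul_le_mul_of_nonneg_left h5 (sub_nonneg.mpr h)
      have := mul_nonneg (mul_nonneg hq1 hτ0) (by linarith : (0 : ℝ) ≤ S.card - 1)
      nlinarith
    · have := mul_nonneg (sub_nonneg.mpr h) h7
      have := mul_nonneg (sub_nonneg.mpr hq2) hτ0
      have := mul_nonneg (mul_nonneg (by linarith : 0 ≤ m) hτ0) (by linarith : (0 : ℝ) ≤ S.card - 2)
      nlinarith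
  have cs := sum_mul_sq_le_sq_mul_sq (powersetCard α S) g F
  rw [← e2] at cs
  rw [e1]
  rcases (show 0 ≤ m by linarith).eq_or_lt with h | h
  · rw [← h]; simp; positivity
  rw [div_le_iff₀ (by linarith)]
  rcases hτ0.eq_or_lt with h' | h'
  · rw [← h']; positivity
  · have := mul_le_mul_of_nonneg_left e4 hG
    nlinarith

end Vale.Agent.P335
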