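import Vale.Agent.P335.Sys
import Vale.Agent.P335.KB

/-! Products of two almost commuting projections. -/

namespace Vale.Agent.P335

open Finset

variable {X : Type*}

/-- refinement of an equivalence relation by a predicate -/
def ref (q : Setoid X) (Z : X → Prop) : Setoid X :=
  ⟨fun x y => q x y ∧ (Z x ↔ Z y), fun x => ⟨q.refl x, Iff.rfl⟩,
    fun h => ⟨q.symm h.1, h.2.symm⟩, fun h h' => ⟨q.trans h.1 h'.1, h.2.trans h'.2⟩⟩

theorem ref_iff {q : Setoid X} {Z : X → Prop} {x y : X} : ref q Z x y ↔ q x y ∧ (Z x ↔ Z y) :=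
  Iff.rfl

theorem ip_ref (s : Finset X) (q : Setoid X) (Z : X → Prop) (f g : X → ℝ) :
    ip s (avg s (ref q Z) f) (avg s q g) = ip s f (avg s q g) :=
  ip_avg_inv f fun _ _ _ _ h => (avg_rel g h.1).symm

theorem avg_tau {s : Finset X} {q : Setoid X} {τ : X → X} (h1 : ∀ x ∈ s, τ x ∈ s)
    (h2 : ∀ x ∈ s, τ (τ x) = x) (h3 : ∀ x ∈ s, q x (τ x)) (f : X → ℝ) :
    avg s q (fun x => f (τ x)) = avg s q f := by
  funext x
  rw [avg_apply, avg_apply, sum_invol (fun y hy => mem_cls.mpr ⟨h1 y (mem_cls.mp hy).1,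
    q.trans (mem_cls.mp hy).2 (h3 y (mem_cls.mp hy).1)⟩) (fun y hy => h2 y (mem_cls.mp hy).1) f]

open Classical in
/-- the defect term -/
noncomputable def dfc (s : Finset X) (q : Setoid X) (Z : X → Prop) (f : X → ℝ) (x : X) : ℝ :=
  if Z x then (avg s (ref q Z) f x - avg s q f x) ^ 2 else 0

theorem disj_bound {s : Finset X} {q₁ q₂ : Setoid X} {Z : X → Prop} {τ : X → X}
    (h1 : ∀ x ∈ s, τ x ∈ s) (h2 : ∀ x ∈ s, τ (τ x) = x) (h3 : ∀ x ∈ s, q₁ x (τ x))
    (h4 : ∀ x ∈ s, q₂ x (τ x)) (h5 : ∀ x ∈ s, Z x ↔ Z (τ x))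
    (c1 : ∀ f g, ip s (avg s (ref q₁ Z) f) (avg s q₂ g) = ip s (avg s q₂ f) (avg s (ref q₁ Z) g))
    (c2 : ∀ f g, ip s (avg s (ref q₁ Z) f) (avg s (ref q₂ Z) g) =
      ip s (avg s (ref q₂ Z) f) (avg s (ref q₁ Z) g))
    (c3 : ∀ f g, ip s (avg s (ref q₂ Z) f) (avg s q₁ g) = ip s (avg s q₁ f) (avg s (ref q₂ Z) g))
    (hv : ∀ x ∈ s, ¬Z x → (∀ y ∈ s, q₁ x y → ¬Z y) ∨ (∀ y ∈ s, q₂ x y → ¬Z y)) (f : X → ℝ) :
    ∑ x ∈ s, ((f x - f (τ x)) ^ 2 / 4 - dfc s q₁ Z f x / 2 - dfc s q₂ Z f x / 2) ≤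
      ip s (Qo s q₁ f) (Qo s q₂ f) := by
  classical
  set φ : X → ℝ := (1 / 2 : ℝ) • (f + fun x => f (τ x)) with hφ
  set ψ : X → ℝ := f - φ with hψ
  have hP : ∀ q : Setoid X, (∀ x ∈ s, q x (τ x)) → avg s q φ = avg s q f := by
    intro q hq
    rw [hφ, map_smul, map_add, avg_tau h1 h2 hq]
    funext x
    simp only [Pi.smul_apply, Pi.add_apply, smul_eq_mul]
    ring
  have hQ : ∀ q : Setoid X, (∀ x ∈ s, q x (τ x)) → Qo s q f = ψ + Qo s q φ := by
    intro q hq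
    rw [Qo_apply, Qo_apply, hP q hq, hψ]
    abel
  have h0 : ip s ψ φ = 0 := by
    have := sum_invol h1 h2 fun x => f x ^ 2
    have e : ip s ψ φ = ∑ x ∈ s, (1 / 4 * f x ^ 2 - 1 / 4 * f (τ x) ^ 2) :=
      sum_congr rfl fun x _ => by simp [hψ, hφ]; ring
    rw [e, sum_sub_distrib, ← mul_sum, ← mul_sum, this, sub_self]
  have hO : ∀ q : Setoid X, (∀ x ∈ s, q x (τ x)) → ip s ψ (Qo s q φ) = 0 := by
    intro q hq
    rw [Qo_apply, ip_sub_right, h0, ← avg_symm, hψ, map_sub, hP q hq, sub_self]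
    simp [ip]
  have e1 : ip s ψ ψ = ∑ x ∈ s, (f x - f (τ x)) ^ 2 / 4 :=
    sum_congr rfl fun x _ => by simp [hψ, hφ]; ring
  have r1 : ∀ x ∈ s, ref q₁ Z x (τ x) := fun x hx => ⟨h3 x hx, h5 x hx⟩
  have r2 : ∀ x ∈ s, ref q₂ Z x (τ x) := fun x hx => ⟨h4 x hx, h5 x hx⟩
  have t1 := ip_nonneg_of_comm s (Qo s (ref q₁ Z)) (Qo s q₂) (Qo_symm s q₂) (Qo_idem s _)
    (Qo_idem s _) (fun f g => by
      simp only [Qo_apply, ip_sub_left, ip_sub_right]
      rw [c1, avg_symm s q₂ f g, avg_symm s (ref q₁ Z) f g]; ring) φ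
  have t2 := ip_nonneg_of_comm s (avg s (ref q₁ Z) - avg s q₁) (Qo s (ref q₂ Z)) (Qo_symm s _)
    (fun f g => by
      simp only [LinearMap.sub_apply, ip_sub_left, ip_sub_right]
      rw [ip_ref, ip_avg_avg, ip_avg_avg, ip_comm s (avg s q₁ f), ip_ref, ip_comm s g, avg_symm]
      ring)
    (Qo_idem s _) (fun f g => by
      simp only [LinearMap.sub_apply, Qo_apply, ip_sub_left, ip_sub_right]
      rw [c2, c3, avg_symm s q₁ f g, avg_symm s (ref q₁ Z) f g]; ring) φ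
  have t3 : -∑ x ∈ s, (dfc s q₁ Z f x / 2 + dfc s q₂ Z f x / 2) ≤
      ip s (avg s (ref q₁ Z) φ - avg s q₁ φ) (avg s (ref q₂ Z) φ - avg s q₂ φ) := by
    rw [hP _ r1, hP _ r2, hP _ h3, hP _ h4, ← sum_neg_distrib]
    refine sum_le_sum fun x hx => ?_
    simp only [dfc, Pi.sub_apply]
    split_ifs with hZ
    · nlinarith [sq_nonneg (avg s (ref q₁ Z) f x - avg s q₁ f x +
        (avg s (ref q₂ Z) f x - avg s q₂ f x))]
    · have : ∀ q : Setoid X, (∀ y ∈ s, q x y → ¬Z y) → avg s (ref q Z) f x = avg s q f x := by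
        intro q hq
        have : cls s (ref q Z) x = cls s q x := by
          ext y
          simp only [mem_cls, ref_iff]
          exact and_congr_right fun hy => ⟨fun h => h.1, fun h => ⟨h, by simp [hZ, hq y hy h]⟩⟩
        rw [avg_apply, avg_apply, this]
      rcases hv x hx hZ with h | h <;> simp [this _ h]
  rw [hQ q₁ h3, hQ q₂ h4, ip_add_left, ip_add_right, ip_add_right, hO q₂ h4,
    ip_comm s (Qo s q₁ φ) ψ, hO q₁ h3, e1]
  simp only [sum_sub_distrib, sum_add_distrib] at t3 ⊢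
  simp only [LinearMap.sub_apply, Qo_apply, ip_sub_left, ip_sub_right] at t1 t2 t3 ⊢
  linarith

theorem dfc_cls {s : Finset X} {q : Setoid X} (Z : X → Prop) [DecidablePred Z] (f : X → ℝ) (x : X) :
    ∑ y ∈ cls s q x, dfc s q Z f y =
      (∑ y ∈ cls s q x, (if Z y then 1 else 0) * (f y - avg s q f x)) ^ 2 /
        ∑ y ∈ cls s q x, (if Z y then (1 : ℝ) else 0) := by
  classical
  set C := (cls s q x).filter Z with hC
  have e1 : ∑ y ∈ cls s q x, (if Z y then (1 : ℝ) else 0) = C.card := by rw [sum_boole]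
  have e2 : ∑ y ∈ cls s q x, (if Z y then 1 else 0) * (f y - avg s q f x) =
      ∑ y ∈ C, f y - C.card * avg s q f x := by
    rw [← nsmul_eq_mul, ← sum_const, ← sum_sub_distrib, hC, sum_filter]
    exact sum_congr rfl fun y _ => by split_ifs <;> simp
  have e3 : ∑ y ∈ cls s q x, dfc s q Z f y =
      ∑ _y ∈ C, ((∑ y ∈ C, f y) / C.card - avg s q f x) ^ 2 := by
    rw [hC, sum_filter]
    refine sum_congr rfl fun y hy => ?_
    unfold dfc
    split_ifs with h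
    · have : cls s (ref q Z) y = (cls s q x).filter Z := by
        ext z
        simp only [mem_filter, mem_cls, ref_iff, cls_eq (mem_cls.mp hy).2, h, true_iff, and_assoc]
      rw [avg_apply, this, avg_rel f (mem_cls.mp hy).2]
    · rfl
  rw [e1, e2, e3, sum_const, nsmul_eq_mul]
  rcases eq_or_ne (C.card : ℝ) 0 with h | h
  · simp [h]
  · field_simp

variable {K : Type*} [DecidableEq K]

theorem pair_bound {s : Finset X} {q : Setoid X} {x : X} (hx : x ∈ s) {S W : Finset K}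
    (hW : S ⊆ W) {lab : X → Finset K} {τ : K → K → X → X} {Z : K → K → X → Prop}
    (h1 : ∀ y ∈ cls s q x, lab y ∈ powersetCard (lab x).card S)
    (h2 : ∀ y ∈ cls s q x, ∀ z ∈ cls s q x, lab y = lab z → y = z)
    (h3 : ∀ c ∈ S, ∀ d ∈ S, ∀ y ∈ cls s q x, τ c d y ∈ cls s q x ∧ lab (τ c d y) = sw c d (lab y))
    (h4 : ∀ c ∈ S, ∀ d ∈ S, ∀ y ∈ cls s q x, Z c d y ↔ ¬(c ∈ lab y ↔ d ∈ lab y))
    (h5 : ∀ c ∈ W, ∀ d ∈ W, ∀ y ∈ cls s q x, Z c d y → c ∈ S ∧ d ∈ S) (f : X → ℝ) :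
    0 ≤ ∑ y ∈ cls s q x, ∑ c ∈ W, ∑ d ∈ W,
      ((f y - f (τ c d y)) ^ 2 / 4 - dfc s q (Z c d) f y) ∧
    0 ≤ ∑ y ∈ cls s q x, (∑ c ∈ W, ∑ d ∈ W, (f y - f (τ c d y)) ^ 2 / 4 - Qo s q f y ^ 2) := by
  classical
  set α := (lab x).card
  have hx' := self_mem_cls (r := q) hx
  have surj : ∀ Y ∈ powersetCard α S, ∃ y ∈ cls s q x, lab y = Y := by
    intro Y hY
    have := exch_conn (A := fun Y => Y ∈ powersetCard α S)
      (G := fun Y => if ∃ y ∈ cls s q x, lab y = Y then 1 else 0) ?_ ?_ Y (lab x) hY (h1 x hx')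
    · by_contra h
      rw [if_neg h, if_pos ⟨x, hx', rfl⟩] at this
      exact zero_ne_one this
    · intro Y Y' h h'
      rw [(mem_powersetCard.mp h).2, (mem_powersetCard.mp h').2]
    intro Y Y' h h' u hu _ v hv _
    have hu := (mem_powersetCard.mp h).1 hu
    have hv := (mem_powersetCard.mp h').1 hv
    refine ⟨sw_mem_pc hu hv h, if_congr ⟨?_, ?_⟩ rfl rfl⟩
    · rintro ⟨y, hy, e⟩
      exact ⟨_, (h3 u hu v hv y hy).1, by rw [(h3 u hu v hv y hy).2, e, sw_sw]⟩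
    · rintro ⟨y, hy, e⟩
      exact ⟨_, (h3 u hu v hv y hy).1, by rw [(h3 u hu v hv y hy).2, e]⟩
  have hs : ∀ F : Finset K → ℝ, ∑ y ∈ cls s q x, F (lab y) = ∑ Y ∈ powersetCard α S, F Y :=
    fun F => sum_bij (fun y _ => lab y) h1 (fun y hy z hz e => h2 y hy z hz e)
      (fun Y hY => by obtain ⟨y, hy, e⟩ := surj Y hY; exact ⟨y, hy, e⟩) fun _ _ => rfl
  set g := lift (cls s q x) lab fun y => f y - avg s q f x with hg
  have hl : ∀ y ∈ cls s q x, g (lab y) = f y - avg s q f x := by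
    intro y hy
    have e : ∃ z ∈ cls s q x, lab z = lab y := ⟨y, hy, rfl⟩
    rw [hg, lift, dif_pos e, h2 _ e.choose_spec.1 y hy e.choose_spec.2]
  have g0 : ∑ Y ∈ powersetCard α S, g Y = 0 := by
    rw [← hs, sum_congr rfl hl, sum_sub_distrib, sum_const, nsmul_eq_mul, avg_apply,
      mul_div_cancel₀ _ (card_cls_pos hx).ne', sub_self]
  have k1 := slice_gap S α g g0
  have k2 := kbound S α g g0
  have a1 : ∑ c ∈ S, ∑ d ∈ S, ∑ Y ∈ powersetCard α S, (g Y - g (sw c d Y)) ^ 2 ≤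
      ∑ c ∈ W, ∑ d ∈ W, ∑ y ∈ cls s q x, (f y - f (τ c d y)) ^ 2 := by
    refine le_trans (sum_le_sum fun c hc => ?_) (sum_le_sum_of_subset_of_nonneg hW fun c _ _ =>
      sum_nonneg fun d _ => sum_nonneg fun y _ => sq_nonneg _)
    refine le_trans (sum_le_sum fun d hd => ?_) (sum_le_sum_of_subset_of_nonneg hW fun d _ _ =>
      sum_nonneg fun y _ => sq_nonneg _)
    rw [← hs]
    refine (sum_congr rfl fun y hy => ?_).le
    rw [← (h3 c hc d hd y hy).2, hl y hy, hl _ (h3 c hc d hd y hy).1]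
    ring
  have a2 : ∑ c ∈ W, ∑ d ∈ W, ∑ y ∈ cls s q x, dfc s q (Z c d) f y =
      ∑ c ∈ S, ∑ d ∈ S, (∑ Y ∈ powersetCard α S, zz c d Y * g Y) ^ 2 /
        (∑ Y ∈ powersetCard α S, zz c d Y) := by
    refine (sum_subset hW fun c hc hc' => sum_eq_zero fun d hd => sum_eq_zero fun y hy =>
      if_neg fun h => hc' (h5 c hc d hd y hy h).1).symm.trans ?_
    refine sum_congr rfl fun c hc => ?_
    refine (sum_subset hW fun d hd hd' => sum_eq_zero fun y hy =>
      if_neg fun h => hd' (h5 c (hW hc) d hd y hy h).2).symm.trans ?_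
    refine sum_congr rfl fun d hd => ?_
    have z : ∀ y ∈ cls s q x, zz c d (lab y) = if Z c d y then 1 else 0 := fun y hy => by
      simp only [zz, h4 c hc d hd y hy, ite_not]
    refine (dfc_cls (Z c d) f x).trans ?_
    rw [← hs, ← hs, sum_congr rfl z]
    congr 2
    exact sum_congr rfl fun y hy => by rw [z y hy, hl y hy]
  have a3 : ∑ y ∈ cls s q x, Qo s q f y ^ 2 = ∑ Y ∈ powersetCard α S, g Y ^ 2 := by
    rw [← hs]
    exact sum_congr rfl fun y hy => by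
      rw [hl y hy, Qo_apply, Pi.sub_apply, avg_rel f (mem_cls.mp hy).2]
  have a4 : ∑ y ∈ cls s q x, ∑ c ∈ W, ∑ d ∈ W, (f y - f (τ c d y)) ^ 2 / 4 =
      (∑ c ∈ W, ∑ d ∈ W, ∑ y ∈ cls s q x, (f y - f (τ c d y)) ^ 2) / 4 := by
    simp only [sum_div]
    rw [sum_comm]
    exact sum_congr rfl fun c _ => sum_comm
  constructor
  · simp only [sum_sub_distrib]
    rw [a4, sum_comm (s := cls s q x), sum_congr rfl fun c _ => sum_comm (s := cls s q x), a2]
    linarith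
  · rw [sum_sub_distrib, a4, a3]
    have hG : 0 ≤ ∑ Y ∈ powersetCard α S, g Y ^ 2 := sum_nonneg fun _ _ => sq_nonneg _
    rcases S.eq_empty_or_nonempty with h | h
    · have h0 : ∑ Y ∈ powersetCard α S, g Y ^ 2 = 0 := by
        refine sum_eq_zero fun Y hY => ?_
        have : powersetCard α S = {Y} := by
          refine eq_singleton_iff_unique_mem.mpr ⟨hY, fun Y' hY' => ?_⟩
          rw [h, mem_powersetCard, subset_empty] at hY hY'
          rw [hY.1, hY'.1]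
        rw [this, sum_singleton] at g0
        simp [g0]
      rw [h0] at k1 ⊢
      linarith
    · have : (1 : ℝ) ≤ S.card := by exact_mod_cast card_pos.mpr h
      nlinarith

end Vale.Agent.P335
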