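import Vale.Agent.P335.Disj
import Vale.Agent.P335.Defs

/-! Graphs with fixed degrees: basic counting and switches. -/

namespace Vale.Agent.P335

open Finset

variable {V : Type}

open Classical in
/-- adjacency indicator -/
noncomputable def ed (G : SimpleGraph V) (u w : V) : ℕ := if G.Adj u w then 1 else 0

theorem ed_one {G : SimpleGraph V} {u w : V} : G.Adj u w ↔ ed G u w = 1 := by
  unfold ed; split_ifs with h <;> simp [h]

theorem ed_zero {G : SimpleGraph V} {u w : V} : ¬G.Adj u w ↔ ed G u w = 0 := by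
  unfold ed; split_ifs with h <;> simp [h]

theorem ed_le (G : SimpleGraph V) (u w : V) : ed G u w ≤ 1 := by unfold ed; split_ifs <;> simp

theorem ed_congr {G H : SimpleGraph V} {u w u' w' : V} (h : G.Adj u w ↔ H.Adj u' w') :
    ed G u w = ed H u' w' := by
  unfold ed; rw [h]

theorem ed_comm (G : SimpleGraph V) (u w : V) : ed G u w = ed G w u := ed_congr (G.adj_comm u w)

@[simp] theorem ed_self (G : SimpleGraph V) (u : V) : ed G u u = 0 := ed_zero.mp G.irrefl

theorem adj_of_ed {G H : SimpleGraph V} {u w u' w' : V} (h : ed G u w = ed H u' w') :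
    G.Adj u w ↔ H.Adj u' w' := by rw [ed_one, ed_one, h]

/-- agreement away from a vertex set -/
def Ag (T : Finset V) : Setoid (SimpleGraph V) :=
  ⟨fun x y => ∀ u ∉ T, ∀ w ∉ T, (x.Adj u w ↔ y.Adj u w), fun _ _ _ _ _ => Iff.rfl,
    fun h u hu w hw => (h u hu w hw).symm,
    fun h h' u hu w hw => (h u hu w hw).trans (h' u hu w hw)⟩

theorem Ag_iff {T : Finset V} {x y : SimpleGraph V} :
    Ag T x y ↔ ∀ u ∉ T, ∀ w ∉ T, (x.Adj u w ↔ y.Adj u w) := Iff.rfl

/-- a switch between `F` and `F'` is possible -/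
def Zp (F F' x : SimpleGraph V) : Prop :=
  (F ≤ x ∧ Disjoint F' x) ∨ (F' ≤ x ∧ Disjoint F x)

open Classical in
/-- the two-way switch -/
noncomputable def tau (F F' x : SimpleGraph V) : SimpleGraph V :=
  if Zp F F' x then symmDiff x (symmDiff F F') else x

theorem sd_adj (x y : SimpleGraph V) (u w : V) :
    (symmDiff x y).Adj u w ↔ (x.Adj u w ↔ ¬y.Adj u w) := by
  simp only [symmDiff, SimpleGraph.sup_adj, SimpleGraph.sdiff_adj]
  tauto

theorem Zp_flip {F F' x : SimpleGraph V} (h : Zp F F' x) :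
    Zp F F' (symmDiff x (symmDiff F F')) := by
  simp only [Zp, SimpleGraph.le_iff_adj, SimpleGraph.disjoint_left, sd_adj] at h ⊢
  rcases h with ⟨h1, h2⟩ | ⟨h1, h2⟩
  · right
    constructor <;> intro u w <;> have := h1 u w <;> have := h2 u w <;> tauto
  · left
    constructor <;> intro u w <;> have := h1 u w <;> have := h2 u w <;> tauto

theorem tau_tau (F F' x : SimpleGraph V) : tau F F' (tau F F' x) = x := by
  by_cases h : Zp F F' x
  · rw [tau, tau, if_pos h, if_pos (Zp_flip h), symmDiff_symmDiff_cancel_right]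
  · rw [tau, tau, if_neg h, if_neg h]

theorem Zp_tau (F F' x : SimpleGraph V) : Zp F F' x ↔ Zp F F' (tau F F' x) := by
  by_cases h : Zp F F' x
  · simp [tau, h, Zp_flip h]
  · simp [tau, h]

theorem step_add (F F' x : SimpleGraph V) (f : SimpleGraph V → ℝ) :
    f (step F F' x) + f (step F' F x) = f x + f (tau F F' x) := by
  have k : ∀ F F' : SimpleGraph V, F ≤ x ∧ Disjoint F' x →
      (x \ F) ⊔ F' = symmDiff x (symmDiff F F') := by
    intro F F' h
    simp only [SimpleGraph.le_iff_adj, SimpleGraph.disjoint_left] at h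
    ext u w
    have := h.1 u w; have := h.2 u w
    simp only [sd_adj, SimpleGraph.sup_adj, SimpleGraph.sdiff_adj]
    tauto
  unfold step tau Zp
  by_cases h1 : F ≤ x ∧ Disjoint F' x <;> by_cases h2 : F' ≤ x ∧ Disjoint F x
  · have e1 : F = ⊥ := disjoint_self.mp (h2.2.mono_right h1.1)
    have e2 : F' = ⊥ := disjoint_self.mp (h1.2.mono_right h2.1)
    simp [e1, e2]
  · rw [if_pos h1, if_neg h2, if_pos (Or.inl h1), k F F' h1, add_comm]
  · rw [if_neg h1, if_pos h2, if_pos (Or.inr h2), k F' F h2, symmDiff_comm F' F]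
  · rw [if_neg h1, if_neg h2, if_neg (by tauto)]

/-- the graph with the two edges `ac` and `bd` -/
def mt (a c b d : V) : SimpleGraph V :=
  SimpleGraph.fromRel fun u w => (u = a ∧ w = c) ∨ (u = b ∧ w = d)

theorem mt_adj {a c b d u w : V} : (mt a c b d).Adj u w ↔
    u ≠ w ∧ (((u = a ∧ w = c) ∨ (u = b ∧ w = d)) ∨ ((w = a ∧ u = c) ∨ (w = b ∧ u = d))) := Iff.rfl

theorem mt_le {a c b d : V} (h1 : a ≠ c) (h2 : b ≠ d) {x : SimpleGraph V} :
    mt a c b d ≤ x ↔ x.Adj a c ∧ x.Adj b d := by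
  constructor
  · intro h
    exact ⟨h (mt_adj.mpr ⟨h1, by simp⟩), h (mt_adj.mpr ⟨h2, by simp⟩)⟩
  · rintro ⟨h3, h4⟩ u w ⟨-, (⟨rfl, rfl⟩ | ⟨rfl, rfl⟩) | (⟨rfl, rfl⟩ | ⟨rfl, rfl⟩)⟩
    exacts [h3, h4, h3.symm, h4.symm]

theorem mt_disj {a c b d : V} (h1 : a ≠ c) (h2 : b ≠ d) {x : SimpleGraph V} :
    Disjoint (mt a c b d) x ↔ ¬x.Adj a c ∧ ¬x.Adj b d := by
  rw [SimpleGraph.disjoint_left]
  constructor
  · intro h
    exact ⟨h _ _ (mt_adj.mpr ⟨h1, by simp⟩), h _ _ (mt_adj.mpr ⟨h2, by simp⟩)⟩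
  · rintro ⟨h3, h4⟩ u w ⟨-, (⟨rfl, rfl⟩ | ⟨rfl, rfl⟩) | (⟨rfl, rfl⟩ | ⟨rfl, rfl⟩)⟩
    exacts [h3, h4, fun h => h3 h.symm, fun h => h4 h.symm]

/-- alternating block -/
def Zq (a b c d : V) (x : SimpleGraph V) : Prop := Zp (mt a c b d) (mt a d b c) x

/-- switch on a block -/
noncomputable def tq (a b c d : V) (x : SimpleGraph V) : SimpleGraph V :=
  tau (mt a c b d) (mt a d b c) x

theorem mt_sym1 (a b c d : V) : mt c a d b = mt a c b d := by
  ext u w; simp only [mt_adj]; tauto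

theorem mt_sym2 (a b c d : V) : mt c b d a = mt a d b c := by
  ext u w; simp only [mt_adj]; tauto

theorem Zq_sym (a b c d : V) : Zq c d a b = Zq a b c d := by
  funext x; rw [Zq, Zq, mt_sym1 a b c d, mt_sym2 a b c d]

theorem tq_sym (a b c d : V) : tq c d a b = tq a b c d := by
  funext x; rw [tq, tq, mt_sym1 a b c d, mt_sym2 a b c d]

theorem Zq_iff {a b c d : V} (h1 : a ≠ c) (h2 : a ≠ d) (h3 : b ≠ c) (h4 : b ≠ d)
    {x : SimpleGraph V} : Zq a b c d x ↔
      (ed x a c = 1 ∧ ed x b d = 1 ∧ ed x a d = 0 ∧ ed x b c = 0) ∨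
      (ed x a d = 1 ∧ ed x b c = 1 ∧ ed x a c = 0 ∧ ed x b d = 0) := by
  simp only [Zq, Zp, mt_le h1 h4, mt_le h2 h3, mt_disj h1 h4, mt_disj h2 h3, ← ed_one, ← ed_zero,
    and_assoc]

theorem tq_of_not {a b c d : V} {x : SimpleGraph V} (h : ¬Zq a b c d x) : tq a b c d x = x :=
  if_neg h

theorem tq_adj {a b c d : V} {x : SimpleGraph V} (h : Zq a b c d x) (u w : V) :
    (tq a b c d x).Adj u w ↔ (x.Adj u w ↔ ¬((mt a c b d).Adj u w ↔ ¬(mt a d b c).Adj u w)) := by
  rw [tq, tau, if_pos (show Zp _ _ _ from h), sd_adj, sd_adj]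

variable [DecidableEq V]

theorem tq_Ag (a b c d : V) (x : SimpleGraph V) : Ag {a, b} x (tq a b c d x) := by
  by_cases h : Zq a b c d x
  · intro u hu w hw
    simp only [mem_insert, mem_singleton, not_or] at hu hw
    simp [tq_adj h, mt_adj, hu, hw]
  · rw [tq_of_not h]

omit [DecidableEq V] in
theorem isPM_mt {a b c d : V} (hab : a ≠ b) (hac : a ≠ c) (had : a ≠ d) (hbc : b ≠ c)
    (hbd : b ≠ d) (hcd : c ≠ d) {S : Finset V} (hS : ∀ k, k ∈ S ↔ k = a ∨ k = b ∨ k = c ∨ k = d) :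
    IsPM S (mt a c b d) := by
  constructor
  · intro u v h
    rw [mt_adj] at h
    rw [hS]
    tauto
  · intro u hu
    have := hab.symm; have := hac.symm; have := had.symm; have := hbc.symm; have := hbd.symm
    have := hcd.symm
    rcases (hS u).mp hu with rfl | rfl | rfl | rfl
    · exact ⟨c, by simp [mt_adj, *], fun v => by simp +contextual [mt_adj, *]⟩
    · exact ⟨d, by simp [mt_adj, *], fun v => by simp +contextual [mt_adj, *]⟩
    · exact ⟨a, by simp [mt_adj, *], fun v => by simp +contextual [mt_adj, *]⟩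
    · exact ⟨b, by simp [mt_adj, *], fun v => by simp +contextual [mt_adj, *]⟩

variable [Fintype V]

/-- degree -/
noncomputable def dg (G : SimpleGraph V) (u : V) : ℕ := ∑ w, ed G u w

open Classical in
/-- graphs with given degrees -/
noncomputable def Om (d : V → ℕ) : Finset (SimpleGraph V) := univ.filter fun G => ∀ i, dg G i = d i

theorem mem_Om {d : V → ℕ} {G : SimpleGraph V} : G ∈ Om d ↔ ∀ i, dg G i = d i := by simp [Om]

theorem dg_split (T : Finset V) (x : SimpleGraph V) (u : V) :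
    dg x u = ∑ t ∈ T, ed x u t + ∑ t ∈ Tᶜ, ed x u t := (sum_add_sum_compl T _).symm

theorem dg_iff {T : Finset V} {x y : SimpleGraph V} (h : Ag T x y) {k : V} (hk : k ∉ T) :
    dg x k = dg y k ↔ ∑ t ∈ T, ed x k t = ∑ t ∈ T, ed y k t := by
  rw [dg_split T, dg_split T, sum_congr rfl fun t (ht : t ∈ Tᶜ) =>
    ed_congr (h k hk t (mem_compl.mp ht))]
  omega

variable {δ : V → ℕ}

theorem col_eq {T : Finset V} {x y : SimpleGraph V} (hx : x ∈ Om δ) (hy : y ∈ Om δ) (h : Ag T x y)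
    {k : V} (hk : k ∉ T) : ∑ t ∈ T, ed x k t = ∑ t ∈ T, ed y k t :=
  (dg_iff h hk).mp (by rw [mem_Om.mp hx, mem_Om.mp hy])

theorem inner_eq {T : Finset V} {x y : SimpleGraph V} (hx : x ∈ Om δ) (hy : y ∈ Om δ)
    (h : Ag T x y) : ∑ t ∈ T, ∑ t' ∈ T, ed x t t' = ∑ t ∈ T, ∑ t' ∈ T, ed y t t' := by
  have k : ∀ x ∈ Om δ, ∑ t ∈ T, δ t =
      ∑ t ∈ T, ∑ t' ∈ T, ed x t t' + ∑ k ∈ Tᶜ, ∑ t ∈ T, ed x k t := by
    intro x hx
    rw [sum_comm (s := Tᶜ), ← sum_add_distrib]
    refine sum_congr rfl fun t _ => ?_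
    rw [← mem_Om.mp hx t, dg_split T]
    simp only [ed_comm x t]
  have a := k x hx
  have b := k y hy
  rw [sum_congr rfl fun k (hk : k ∈ Tᶜ) => col_eq hx hy h (mem_compl.mp hk)] at a
  omega

theorem col2 {a b : V} (hab : a ≠ b) {x y : SimpleGraph V} (hx : x ∈ Om δ) (hy : y ∈ Om δ)
    (h : Ag {a, b} x y) {k : V} (h1 : k ≠ a) (h2 : k ≠ b) :
    ed x a k + ed x b k = ed y a k + ed y b k := by
  have := col_eq hx hy h (k := k) (by simp [h1, h2])
  rwa [sum_pair hab, sum_pair hab, ed_comm x k, ed_comm x k, ed_comm y k, ed_comm y k] at this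

theorem inner2 {a b : V} (hab : a ≠ b) {x y : SimpleGraph V} (hx : x ∈ Om δ) (hy : y ∈ Om δ)
    (h : Ag {a, b} x y) : ed x a b = ed y a b := by
  have := inner_eq hx hy h
  simp only [sum_pair hab, ed_self, ed_comm x b a, ed_comm y b a] at this
  omega

theorem dg_pm {S : Finset V} {F : SimpleGraph V} (h : IsPM S F) (u : V) :
    dg F u = if u ∈ S then 1 else 0 := by
  split_ifs with hu
  · obtain ⟨v, h1, h2⟩ := h.2 u hu
    rw [dg, sum_eq_single v (fun w _ hw => ed_zero.mp fun h => hw (h2 w h)) (by simp)]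
    exact ed_one.mp h1
  · exact sum_eq_zero fun w _ => ed_zero.mp fun h' => hu (h.1 u w h')

theorem tau_mem {S : Finset V} {F F' x : SimpleGraph V} (h : IsPM S F) (h' : IsPM S F')
    (hx : x ∈ Om δ) : tau F F' x ∈ Om δ := by
  have k : ∀ F F' : SimpleGraph V, F ≤ x ∧ Disjoint F' x → ∀ u,
      dg (symmDiff x (symmDiff F F')) u + dg F u = dg x u + dg F' u := by
    intro F F' h u
    simp only [SimpleGraph.le_iff_adj, SimpleGraph.disjoint_left] at h
    simp only [dg, ← sum_add_distrib]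
    refine sum_congr rfl fun w _ => ?_
    have := h.1 u w; have := h.2 u w
    unfold ed
    rw [sd_adj, sd_adj]
    by_cases h1 : x.Adj u w <;> by_cases h2 : F.Adj u w <;> by_cases h3 : F'.Adj u w <;> simp_all
  unfold tau
  split_ifs with hz
  · rw [mem_Om] at hx ⊢
    intro u
    rcases hz with hz | hz
    · have := k F F' hz u
      rw [dg_pm h, dg_pm h', hx] at this
      omega
    · have := k F' F hz u
      rw [dg_pm h, dg_pm h', hx, symmDiff_comm F' F] at this
      omega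
  · exact hx

theorem tq_mem {a b c d : V} (hab : a ≠ b) (hac : a ≠ c) (had : a ≠ d) (hbc : b ≠ c)
    (hbd : b ≠ d) {x : SimpleGraph V} (hx : x ∈ Om δ) : tq a b c d x ∈ Om δ := by
  by_cases hcd : c = d
  · rw [tq_of_not]
    · exact hx
    · rw [Zq_iff hac had hbc hbd, hcd]; omega
  · exact tau_mem (S := {a, b, c, d}) (isPM_mt hab hac had hbc hbd hcd (by simp))
      (isPM_mt hab had hac hbd hbc (Ne.symm hcd) (by simp; tauto)) hx

end Vale.Agent.P335
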