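import Vale.Agent.P335.Graph

/-! Triples of vertices. -/

namespace Vale.Agent.P335

open Finset

variable {V : Type} [DecidableEq V] [Fintype V] {δ : V → ℕ}

open Classical in
/-- the row of `a` in the triple `a, b, c` -/
noncomputable def row (a b c : V) (x : SimpleGraph V) : Finset (Option V) :=
  univ.filter fun k => k.elim (¬x.Adj b c) fun k => k ≠ b ∧ k ≠ c ∧ x.Adj a k

omit [DecidableEq V] in
theorem none_mem_row {a b c : V} {x : SimpleGraph V} : none ∈ row a b c x ↔ ¬x.Adj b c := by
  simp [row]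

omit [DecidableEq V] in
theorem some_mem_row {a b c k : V} {x : SimpleGraph V} :
    some k ∈ row a b c x ↔ k ≠ b ∧ k ≠ c ∧ x.Adj a k := by simp [row]

theorem ind_none (a b c : V) (x : SimpleGraph V) : ind none (row a b c x) + ed x b c = 1 := by
  by_cases h : x.Adj b c
  · rw [ind_zero.mp (by simpa [none_mem_row] using h), ed_one.mp h]
  · rw [ind_one.mp (none_mem_row.mpr h), ed_zero.mp h]

theorem ind_some {a b c k : V} (x : SimpleGraph V) (h1 : k ≠ b) (h2 : k ≠ c) :
    ind (some k) (row a b c x) = ed x a k := by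
  by_cases h : x.Adj a k
  · rw [ind_one.mp (some_mem_row.mpr ⟨h1, h2, h⟩), ed_one.mp h]
  · rw [ind_zero.mp fun h' => h (some_mem_row.mp h').2.2, ed_zero.mp h]

theorem ind_some' {a b c k : V} (x : SimpleGraph V) (h : k = a ∨ k = b ∨ k = c) :
    ind (some k) (row a b c x) = 0 := by
  rw [← ind_zero, some_mem_row]
  rcases h with rfl | rfl | rfl <;> simp

theorem card_row {a b c : V} (hbc : b ≠ c) (x : SimpleGraph V) :
    (row a b c x).card + (ed x a b + ed x c a + ed x b c) = dg x a + 1 := by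
  have e : (row a b c x).card = ∑ k, ind k (row a b c x) := by
    simp only [ind, sum_boole, filter_mem_eq_inter, univ_inter, Nat.cast_id]
  have e2 := dg_split {b, c} x a
  have e3 := sum_add_sum_compl {b, c} fun k => ind (some k) (row a b c x)
  have e4 : ∑ k ∈ ({b, c} : Finset V)ᶜ, ind (some k) (row a b c x) =
      ∑ k ∈ ({b, c} : Finset V)ᶜ, ed x a k := sum_congr rfl fun k hk => by
    simp only [mem_compl, mem_insert, mem_singleton, not_or] at hk
    exact ind_some x hk.1 hk.2
  rw [sum_pair hbc, ind_some' x (by simp), ind_some' x (by simp)] at e3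
  rw [sum_pair hbc] at e2
  have := ind_none a b c x
  rw [e, Fintype.sum_option, ed_comm x c a]
  omega

omit [Fintype V] in
theorem sum_triple {a b c : V} (hab : a ≠ b) (hac : a ≠ c) (hbc : b ≠ c) (g : V → ℕ) :
    ∑ t ∈ {a, b, c}, g t = g a + g b + g c := by
  rw [sum_insert (by simp [hab, hac]), sum_pair hbc, add_assoc]

theorem row_iff {a b c : V} (hab : a ≠ b) (hac : a ≠ c) (hbc : b ≠ c) {T : Finset V}
    (hT : ∀ k, k ∈ T ↔ k = a ∨ k = b ∨ k = c) {x y : SimpleGraph V}
    (hx : x ∈ Om δ) (hy : y ∈ Om δ) (h : Ag T x y) :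
    Ag {b, c} x y ↔ row a b c x = row a b c y := by
  constructor
  · intro h'
    ext k
    cases k with
    | none => rw [none_mem_row, none_mem_row, adj_of_ed (inner2 hbc hx hy h')]
    | some k =>
      rw [some_mem_row, some_mem_row]
      exact and_congr_right fun h1 => and_congr_right fun h2 =>
        h' a (by simp [hab, hac]) k (by simp [h1, h2])
  · intro e u hu w hw
    simp only [mem_insert, mem_singleton, not_or] at hu hw
    have r : ∀ k, k ≠ b → k ≠ c → (x.Adj a k ↔ y.Adj a k) := fun k h1 h2 => by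
      have := congrArg (some k ∈ ·) e
      simpa [some_mem_row, h1, h2] using this
    by_cases h1 : u = a
    · rw [h1]; exact r w hw.1 hw.2
    by_cases h2 : w = a
    · rw [h2, x.adj_comm, y.adj_comm]; exact r u hu.1 hu.2
    exact h u (by simp [*]) w (by simp [*])

/-- edges prescribed by one row -/
def part (T : Finset V) (a b c : V) (R : Finset (Option V)) (u w : V) : Prop :=
  (u = a ∧ w ∉ T ∧ some w ∈ R) ∨ (u = b ∧ w = c ∧ none ∉ R)

/-- the graph with prescribed rows -/
def mk3 (T : Finset V) (a b c : V) (x : SimpleGraph V) (R Y Z : Finset (Option V)) :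
    SimpleGraph V :=
  SimpleGraph.fromRel fun u w => (u ∉ T ∧ w ∉ T ∧ x.Adj u w) ∨ part T a b c R u w ∨
    part T b c a Y u w ∨ part T c a b Z u w

omit [Fintype V] [DecidableEq V] in
theorem mk3_rot (T : Finset V) (a b c : V) (x : SimpleGraph V) (R Y Z : Finset (Option V)) :
    mk3 T b c a x Y Z R = mk3 T a b c x R Y Z := by
  unfold mk3
  congr 1
  ext u w
  tauto

theorem row_mk3 {a b c : V} (hab : a ≠ b) (hac : a ≠ c) (hbc : b ≠ c) {T : Finset V}
    (hT : ∀ k, k ∈ T ↔ k = a ∨ k = b ∨ k = c) (x : SimpleGraph V)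
    {R : Finset (Option V)} (Y Z : Finset (Option V)) (h1 : some a ∉ R) (h2 : some b ∉ R)
    (h3 : some c ∉ R) : row a b c (mk3 T a b c x R Y Z) = R := by
  have := hab.symm; have := hac.symm; have := hbc.symm
  ext k
  cases k with
  | none => simp [none_mem_row, mk3, part, *]
  | some k =>
    rw [some_mem_row]
    by_cases e1 : k = a
    · simp [*]
    by_cases e2 : k = b
    · simp [*]
    by_cases e3 : k = c
    · simp [*]
    have := Ne.symm e1
    simp [mk3, part, *]

omit [Fintype V] [DecidableEq V] in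
theorem Ag_mk3 {a b c : V} {T : Finset V} (hT : ∀ k, k ∈ T ↔ k = a ∨ k = b ∨ k = c)
    (x : SimpleGraph V) (R Y Z : Finset (Option V)) : Ag T x (mk3 T a b c x R Y Z) := by
  intro u hu w hw
  have hu' := hu
  have hw' := hw
  simp only [hT, not_or] at hu' hw'
  simp only [mk3, part, SimpleGraph.fromRel_adj, ne_eq, hu, hw, hu', hw', x.adj_comm w u]
  simpa using fun h : x.Adj u w => h.ne

theorem triple_tr {a b c : V} (hab : a ≠ b) (hac : a ≠ c) (hbc : b ≠ c) {x₀ x : SimpleGraph V}
    (hx₀ : x₀ ∈ Om δ) (hx : x ∈ Om δ) (h : Ag {a, b, c} x₀ x) :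
    Tr (fun k => ind k (row a b c x₀) + ind k (row b c a x₀) + ind k (row c a b x₀))
      (row a b c x₀).card (row b c a x₀).card (row c a b x₀).card (row a b c x) (row b c a x)
      (row c a b x) := by
  have i := inner_eq hx₀ hx h
  simp only [sum_triple hab hac hbc, ed_self, ed_comm _ b a, ed_comm _ a c, ed_comm _ c b] at i
  refine ⟨?_, ?_, ?_, fun k => ?_⟩
  · have := card_row (a := a) hbc x; have := card_row (a := a) hbc x₀
    have := mem_Om.mp hx a; have := mem_Om.mp hx₀ a
    omega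
  · have := card_row (a := b) hac.symm x; have := card_row (a := b) hac.symm x₀
    have := mem_Om.mp hx b; have := mem_Om.mp hx₀ b
    omega
  · have := card_row (a := c) hab x; have := card_row (a := c) hab x₀
    have := mem_Om.mp hx c; have := mem_Om.mp hx₀ c
    omega
  · cases k with
    | none =>
      have := ind_none a b c x; have := ind_none b c a x; have := ind_none c a b x
      have := ind_none a b c x₀; have := ind_none b c a x₀; have := ind_none c a b x₀
      dsimp only
      omega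
    | some k =>
      by_cases hk : k = a ∨ k = b ∨ k = c
      · simp only [ind_some' _ hk, ind_some' _ (or_rotate.mp hk),
          ind_some' _ (or_rotate.mpr hk)]
      · have := col_eq hx₀ hx h (k := k) (by simpa using hk)
        push Not at hk
        simp only [sum_triple hab hac hbc, ed_comm _ k] at this
        simp only [ind_some _ hk.2.1 hk.2.2, ind_some _ hk.2.2 hk.1, ind_some _ hk.1 hk.2.1]
        omega

theorem triple_inj {a b c : V} (hab : a ≠ b) (hac : a ≠ c) (hbc : b ≠ c) {x y : SimpleGraph V}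
    (hx : x ∈ Om δ) (hy : y ∈ Om δ) (a1 : Ag {b, c} x y) (a2 : Ag {c, a} x y)
    (a3 : Ag {a, b} x y) : x = y := by
  have b1 := adj_of_ed (inner2 hbc hx hy a1)
  have b2 := adj_of_ed (inner2 hac.symm hx hy a2)
  have b3 := adj_of_ed (inner2 hab hx hy a3)
  have key : ∀ u w, ¬(w = a ∨ w = b ∨ w = c) → (x.Adj u w ↔ y.Adj u w) := by
    intro u w hw
    push Not at hw
    by_cases h1 : u = b
    · exact a2 u (by simp [h1, hbc, hab.symm]) w (by simp [hw])
    by_cases h2 : u = c
    · exact a3 u (by simp [h2, hbc.symm, hac.symm]) w (by simp [hw])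
    exact a1 u (by simp [h1, h2]) w (by simp [hw])
  ext u w
  by_cases h1 : w = a ∨ w = b ∨ w = c
  swap
  · exact key u w h1
  by_cases h2 : u = a ∨ u = b ∨ u = c
  swap
  · rw [x.adj_comm, y.adj_comm]; exact key w u h2
  have c1 := b1; have c2 := b2; have c3 := b3
  rw [x.adj_comm, y.adj_comm] at c1 c2 c3
  rcases h1 with rfl | rfl | rfl <;> rcases h2 with rfl | rfl | rfl <;>
    first | assumption | simp

theorem triple_surj {a b c : V} (hab : a ≠ b) (hac : a ≠ c) (hbc : b ≠ c) {x₀ : SimpleGraph V}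
    (hx₀ : x₀ ∈ Om δ) {R Y Z : Finset (Option V)}
    (t : Tr (fun k => ind k (row a b c x₀) + ind k (row b c a x₀) + ind k (row c a b x₀))
      (row a b c x₀).card (row b c a x₀).card (row c a b x₀).card R Y Z) :
    ∃ x ∈ cls (Om δ) (Ag {a, b, c}) x₀, row a b c x = R ∧ row b c a x = Y ∧ row c a b x = Z := by
  have hT : ∀ k, k ∈ ({a, b, c} : Finset V) ↔ k = a ∨ k = b ∨ k = c := by simp
  have z : ∀ k, k = a ∨ k = b ∨ k = c → some k ∉ R ∧ some k ∉ Y ∧ some k ∉ Z := by
    intro k hk
    have := t.2.2.2 (some k)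
    simp only [ind_some' _ hk, ind_some' _ (or_rotate.mp hk),
      ind_some' _ (or_rotate.mpr hk)] at this
    simp only [ind_zero]
    omega
  have za := z a (by simp); have zb := z b (by simp); have zc := z c (by simp)
  have r1 := row_mk3 hab hac hbc hT x₀ Y Z za.1 zb.1 zc.1
  have r2 := row_mk3 hbc hab.symm hac.symm (fun k => (hT k).trans or_rotate) x₀ Z R
    zb.2.1 zc.2.1 za.2.1
  have r3 := row_mk3 hac.symm hbc.symm hab (fun k => (hT k).trans or_rotate.symm) x₀ R Y
    zc.2.2 za.2.2 zb.2.2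
  rw [mk3_rot] at r2
  rw [← mk3_rot] at r3
  have h := Ag_mk3 hT x₀ R Y Z
  refine ⟨_, mem_cls.mpr ⟨mem_Om.mpr fun k => ?_, h⟩, r1, r2, r3⟩
  generalize mk3 {a, b, c} a b c x₀ R Y Z = y at r1 r2 r3 h
  subst r1 r2 r3
  rw [← mem_Om.mp hx₀ k]
  by_cases hk : k = a ∨ k = b ∨ k = c
  · have := ind_none a b c y; have := ind_none b c a y; have := ind_none c a b y
    have := ind_none a b c x₀; have := ind_none b c a x₀; have := ind_none c a b x₀
    have := card_row (a := a) hbc y; have := card_row (a := a) hbc x₀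
    have := card_row (a := b) hac.symm y; have := card_row (a := b) hac.symm x₀
    have := card_row (a := c) hab y; have := card_row (a := c) hab x₀
    obtain ⟨t1, t2, t3, t4⟩ := t
    have := t4 none
    dsimp only at this
    rcases hk with rfl | rfl | rfl <;> omega
  · refine ((dg_iff h (by simpa using hk)).mpr ?_).symm
    have := t.2.2.2 (some k)
    push Not at hk
    simp only [ind_some _ hk.2.1 hk.2.2, ind_some _ hk.2.2 hk.1, ind_some _ hk.1 hk.2.1] at this
    simp only [sum_triple hab hac hbc, ed_comm _ k]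
    omega

theorem triple_sys {a b c : V} (hab : a ≠ b) (hac : a ≠ c) (hbc : b ≠ c) {x₀ : SimpleGraph V}
    (hx₀ : x₀ ∈ Om δ) : Sys (cls (Om δ) (Ag {a, b, c}) x₀)
      (fun k => ind k (row a b c x₀) + ind k (row b c a x₀) + ind k (row c a b x₀))
      (row a b c x₀).card (row b c a x₀).card (row c a b x₀).card (row a b c) (row b c a)
      (row c a b) (Ag {b, c}) (Ag {c, a}) (Ag {a, b}) := by
  have hT : ∀ k, k ∈ ({a, b, c} : Finset V) ↔ k = a ∨ k = b ∨ k = c := by simp
  have ag : ∀ x ∈ cls (Om δ) (Ag {a, b, c}) x₀, ∀ y ∈ cls (Om δ) (Ag {a, b, c}) x₀,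
      Ag {a, b, c} x y := fun x hx y hy =>
    (Ag _).trans ((Ag _).symm (mem_cls.mp hx).2) (mem_cls.mp hy).2
  have e1 := fun x hx y hy => row_iff hab hac hbc hT (mem_cls.mp hx).1 (mem_cls.mp hy).1
    (ag x hx y hy)
  have e2 := fun x hx y hy => row_iff hbc hab.symm hac.symm (fun k => (hT k).trans or_rotate)
    (mem_cls.mp hx).1 (mem_cls.mp hy).1 (ag x hx y hy)
  have e3 := fun x hx y hy => row_iff hac.symm hbc.symm hab (fun k => (hT k).trans or_rotate.symm)
    (mem_cls.mp hx).1 (mem_cls.mp hy).1 (ag x hx y hy)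
  exact ⟨fun x hx => triple_tr hab hac hbc hx₀ (mem_cls.mp hx).1 (mem_cls.mp hx).2,
    fun x hx y hy h1 h2 h3 => triple_inj hab hac hbc (mem_cls.mp hx).1 (mem_cls.mp hy).1
      ((e1 x hx y hy).mpr h1) ((e2 x hx y hy).mpr h2) ((e3 x hx y hy).mpr h3),
    fun R Y Z t => triple_surj hab hac hbc hx₀ t, e1, e2, e3⟩

theorem triple_graph {a b c : V} (hab : a ≠ b) (hac : a ≠ c) (hbc : b ≠ c)
    (f : SimpleGraph V → ℝ) :
    0 ≤ ip (Om δ) (Qo (Om δ) (Ag {b, c}) f) (Qo (Om δ) (Ag {c, a}) f) +
      ip (Om δ) (Qo (Om δ) (Ag {b, c}) f) (Qo (Om δ) (Ag {a, b}) f) +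
      ip (Om δ) (Qo (Om δ) (Ag {c, a}) f) (Qo (Om δ) (Ag {a, b}) f) := by
  simp only [ip, ← sum_add_distrib]
  refine sum_nonneg_of_cls (Ag {a, b, c}) fun x hx => ?_
  have := (triple_sys hab hac hbc hx).nonneg f
  simp only [ip, ← sum_add_distrib] at this
  have k : ∀ T : Finset V, T ⊆ {a, b, c} → ∀ y ∈ cls (Om δ) (Ag {a, b, c}) x,
      Qo (cls (Om δ) (Ag {a, b, c}) x) (Ag T) f y = Qo (Om δ) (Ag T) f y := by
    intro T hT y hy
    have : cls (cls (Om δ) (Ag {a, b, c}) x) (Ag T) y = cls (Om δ) (Ag T) y := by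
      ext z
      simp only [mem_cls]
      exact ⟨fun h => ⟨h.1.1, h.2⟩, fun h => ⟨⟨h.1, (Ag _).trans (mem_cls.mp hy).2
        fun u hu w hw => h.2 u (fun e => hu (hT e)) w fun e => hw (hT e)⟩, h.2⟩⟩
    simp only [Qo_apply, Pi.sub_apply, avg_apply, this]
  refine this.trans_eq (sum_congr rfl fun y hy => ?_)
  rw [k _ (by simp [insert_subset_iff]) y hy, k _ (by simp [insert_subset_iff]) y hy,
    k _ (by simp [insert_subset_iff]) y hy]

end Vale.Agent.P335
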