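import Vale.Agent.P335.Pair
import Vale.Agent.P335.Triple

/-! Connectivity and the spectral gap. -/

namespace Vale.Agent.P335

open Finset

variable {V : Type} [DecidableEq V]

theorem sw_sdiff {Y Y' : Finset V} {w w' : V} (h1 : w ∈ Y) (h2 : w ∉ Y') (h3 : w' ∈ Y')
    (h4 : w' ∉ Y) : (sw w w' Y \ Y').card + 1 = (Y \ Y').card := by
  have : sw w w' Y \ Y' = (Y \ Y').erase w := by
    ext k
    simp only [mem_sdiff, mem_erase]
    by_cases e1 : k = w
    · subst e1; simp [h4]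
    · by_cases e2 : k = w'
      · subst e2; simp [h3]
      · simp [mem_sw_of_ne e1 e2, e1]
  rw [this, card_erase_add_one (mem_sdiff.mpr ⟨h1, h2⟩)]

/-- agreement on all pairs not inside `U` -/
def Out (U : Finset V) (x y : SimpleGraph V) : Prop :=
  ∀ u w, (u ∉ U ∨ w ∉ U) → (x.Adj u w ↔ y.Adj u w)

variable [Fintype V] {δ : V → ℕ}

open Classical in
/-- neighbours -/
noncomputable def nb (x : SimpleGraph V) (v : V) : Finset V := univ.filter fun k => x.Adj v k

omit [DecidableEq V] in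
theorem mem_nb {x : SimpleGraph V} {v k : V} : k ∈ nb x v ↔ x.Adj v k := by simp [nb]

omit [DecidableEq V] in
theorem card_nb (x : SimpleGraph V) (v : V) : (nb x v).card = dg x v := by
  rw [nb, card_filter]; rfl

theorem exch {U : Finset V} {x : SimpleGraph V} (hx : x ∈ Om δ) {v u w : V} (hv : v ∈ U)
    (hu : u ∈ U) (hw : w ∈ U) (h1 : x.Adj v u) (h2 : ¬x.Adj v w) (hwv : w ≠ v)
    (h : ∑ z ∈ U, ed x u z ≤ ∑ z ∈ U, ed x w z) :
    ∃ y ∈ Om δ, Ag {u, w} x y ∧ Out U x y ∧ nb y v = sw u w (nb x v) := by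
  have huw : u ≠ w := fun e => h2 (e ▸ h1)
  have : ∃ z ∈ U, x.Adj w z ∧ ¬x.Adj u z ∧ z ≠ u := by
    by_contra hc
    push Not at hc
    have := sum_lt_sum (s := U) (f := fun z => ed x w z) (g := fun z => ed x u (Equiv.swap u w z))
      (fun z hz => ?_) ⟨v, hv, ?_⟩
    · rw [sum_equiv (Equiv.swap u w) (t := U) (g := fun z => ed x u z)
        (fun k => (swap_mem hu hw).symm) fun _ _ => rfl] at this
      omega
    · rw [Equiv.swap_apply_def]
      split_ifs with e1 e2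
      · rw [e1, ed_comm]
      · simp [e2]
      · by_cases e : x.Adj w z
        · have : x.Adj u z := by_contra fun h' => e1 (hc z hz e h')
          rw [ed_one.mp e, ed_one.mp this]
        · rw [ed_zero.mp e]; exact Nat.zero_le _
    · rw [Equiv.swap_apply_of_ne_of_ne h1.ne hwv.symm, ed_one.mp h1.symm,
        ed_zero.mp fun h => h2 h.symm]
      exact zero_lt_one
  obtain ⟨z, hz, h3, h4, hzu⟩ := this
  have hvz : v ≠ z := fun e => h2 (e ▸ h3.symm)
  have hZ : Zq v z u w x := by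
    rw [Zq_iff h1.ne hwv.symm hzu h3.ne', ← ed_one, ← ed_one, ← ed_zero, ← ed_zero]
    exact Or.inl ⟨h1, h3.symm, h2, fun h => h4 h.symm⟩
  refine ⟨tq v z u w x, tq_mem hvz h1.ne hwv.symm hzu h3.ne' hx, ?_, fun p q hpq => ?_, ?_⟩
  · rw [tq_sym]; exact tq_Ag u w v z x
  · have : ∀ a ∈ U, ∀ b ∈ U, ∀ c ∈ U, ∀ d ∈ U, ¬(mt a b c d).Adj p q := by
      rintro a ha b hb c hc d hd ⟨-, (⟨rfl, rfl⟩ | ⟨rfl, rfl⟩) | (⟨rfl, rfl⟩ | ⟨rfl, rfl⟩)⟩ <;> tauto
    rw [tq_adj hZ]
    simp [this v hv u hu z hz w hw, this v hv w hw z hz u hu]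
  · ext k
    rw [mem_sw, mem_nb, mem_nb, tq_row hvz h1.ne hwv.symm hzu h3.ne' hZ]

theorem conn {f : SimpleGraph V → ℝ}
    (hf : ∀ a b, a ≠ b → ∀ x ∈ Om δ, ∀ y ∈ Om δ, Ag {a, b} x y → f x = f y) :
    ∀ x ∈ Om δ, ∀ y ∈ Om δ, f x = f y := by
  have key : ∀ U : Finset V, ∀ x ∈ Om δ, ∀ y ∈ Om δ, Out U x y → f x = f y := by
    intro U
    induction U using Finset.induction_on with
    | empty =>
      intro x _ y _ h
      congr 1
      ext u w
      exact h u w (by simp)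
    | insert v U hvU ih =>
      intro x hx y hy h
      induction hn : (nb x v \ nb y v).card generalizing x y with
      | zero =>
        have e : nb x v = nb y v := eq_of_subset_of_card_le
          (sdiff_eq_empty_iff_subset.mp (card_eq_zero.mp hn))
          (by rw [card_nb, card_nb, mem_Om.mp hx, mem_Om.mp hy])
        have e' : ∀ k, x.Adj v k ↔ y.Adj v k := fun k => by rw [← mem_nb, e, mem_nb]
        refine ih x hx y hy fun p q hpq => ?_
        by_cases h1 : p = v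
        · rw [h1]; exact e' q
        by_cases h2 : q = v
        · rw [h2, x.adj_comm, y.adj_comm]; exact e' p
        exact h p q (by simpa [h1, h2] using hpq)
      | succ n ih2 =>
        have hc : ∀ x ∈ Om δ, ∀ y ∈ Om δ, (nb x v \ nb y v).card = (nb y v \ nb x v).card :=
          fun x hx y hy => card_sdiff_comm (by rw [card_nb, card_nb, mem_Om.mp hx, mem_Om.mp hy])
        obtain ⟨u, hu⟩ := card_pos.mp (by omega : 0 < (nb x v \ nb y v).card)
        obtain ⟨w, hw⟩ := card_pos.mp (by rw [← hc x hx y hy]; omega : 0 < (nb y v \ nb x v).card)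
        rw [mem_sdiff] at hu hw
        have hu' := hu
        have hw' := hw
        simp only [mem_nb] at hu' hw'
        have huU : u ∈ insert v U := by_contra fun e => hu'.2 ((h v u (Or.inr e)).mp hu'.1)
        have hwU : w ∈ insert v U := by_contra fun e => hw'.2 ((h v w (Or.inr e)).mpr hw'.1)
        have huw : u ≠ w := fun e => hw'.2 (e ▸ hu'.1)
        have dU : ∀ k, ∑ z ∈ insert v U, ed x k z = ∑ z ∈ insert v U, ed y k z := by
          intro k
          have a := dg_split (insert v U) x k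
          have b := dg_split (insert v U) y k
          have c : ∑ t ∈ (insert v U)ᶜ, ed x k t = ∑ t ∈ (insert v U)ᶜ, ed y k t :=
            sum_congr rfl fun t ht => ed_congr (h k t (Or.inr (mem_compl.mp ht)))
          rw [mem_Om.mp hx] at a
          rw [mem_Om.mp hy] at b
          omega
        rcases le_total (∑ z ∈ insert v U, ed x u z) (∑ z ∈ insert v U, ed x w z) with e | e
        · obtain ⟨x', hx', a1, a2, a3⟩ := exch hx (mem_insert_self v U) huU hwU hu'.1 hw'.2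
            hw'.1.ne' e
          rw [hf u w huw x hx x' hx' a1]
          refine ih2 x' hx' y hy (fun p q hpq => (a2 p q hpq).symm.trans (h p q hpq)) ?_
          have := sw_sdiff hu.1 hu.2 hw.1 hw.2
          rw [a3]
          omega
        · rw [dU, dU] at e
          obtain ⟨y', hy', a1, a2, a3⟩ := exch hy (mem_insert_self v U) hwU huU hw'.1 hu'.2
            hu'.1.ne' e
          rw [hf w u huw.symm y hy y' hy' a1]
          refine ih2 x hx y' hy' (fun p q hpq => (h p q hpq).trans (a2 p q hpq)) ?_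
          have := sw_sdiff hw.1 hw.2 hu.1 hu.2
          have := hc x hx y hy
          rw [hc x hx y' hy', a3]
          omega
  exact fun x hx y hy => key univ x hx y hy fun u w h => by simp at h

/-- pair projections -/
noncomputable def Qe (δ : V → ℕ) (a b : V) : (SimpleGraph V → ℝ) →ₗ[ℝ] (SimpleGraph V → ℝ) :=
  if a = b then 0 else Qo (Om δ) (Ag {a, b})

theorem Qe_self (a : V) : Qe δ a a = 0 := if_pos rfl

theorem Qe_ne {a b : V} (h : a ≠ b) : Qe δ a b = Qo (Om δ) (Ag {a, b}) := if_neg h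

theorem Qe_comm (a b : V) : Qe δ a b = Qe δ b a := by
  simp only [Qe, eq_comm, pair_comm a b]

theorem Qe_symm (a b : V) (f g : SimpleGraph V → ℝ) :
    ip (Om δ) (Qe δ a b f) g = ip (Om δ) f (Qe δ a b g) := by
  unfold Qe
  split_ifs
  · simp [ip]
  · exact Qo_symm _ _ _ _

theorem Qe_idem (a b : V) (f : SimpleGraph V → ℝ) :
    ip (Om δ) (Qe δ a b f) (Qe δ a b f) = ip (Om δ) f (Qe δ a b f) := by
  unfold Qe
  split_ifs
  · simp [ip]
  · exact Qo_idem _ _ _ _

/-- four distinct vertices -/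
def Ok (a b c d : V) : Prop := a ≠ b ∧ a ≠ c ∧ a ≠ d ∧ b ≠ c ∧ b ≠ d ∧ c ≠ d

instance (a b c d : V) : Decidable (Ok a b c d) := by unfold Ok; infer_instance

theorem sum_ok {a b : V} (hab : a ≠ b) {T : V → V → ℝ} (h : ∀ c, c ≠ a → c ≠ b → T c c = 0) :
    ∑ c, ∑ d, (if Ok a b c d then T c d else 0) =
      ∑ c ∈ ({a, b} : Finset V)ᶜ, ∑ d ∈ ({a, b} : Finset V)ᶜ, T c d := by
  symm
  refine (sum_congr rfl fun c hc => ?_).trans (sum_subset (subset_univ _) fun c _ hc =>
    sum_eq_zero fun d _ => if_neg fun e => hc (by simp [e.2.1.symm, e.2.2.2.1.symm]))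
  refine (sum_congr rfl fun d hd => ?_).trans (sum_subset (subset_univ _) fun d _ hd =>
    if_neg fun e => hd (by simp [e.2.2.1.symm, e.2.2.2.2.1.symm]))
  simp only [mem_compl, mem_insert, mem_singleton, not_or] at hc hd
  split_ifs with e
  · rfl
  · have : c = d := by_contra fun e' =>
      e ⟨hab, Ne.symm hc.1, Ne.symm hd.1, Ne.symm hc.2, Ne.symm hd.2, e'⟩
    rw [← this, h c hc.1 hc.2]

omit [DecidableEq V] in
theorem sum4 (F : V → V → V → V → ℝ) :
    ∑ a, ∑ b, ∑ c, ∑ d, F c d a b = ∑ a, ∑ b, ∑ c, ∑ d, F a b c d := by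
  have k : ∀ F : V → V → V → V → ℝ, ∑ a, ∑ b, ∑ c, ∑ d, F a b c d =
      ∑ p : V × V, ∑ r : V × V, F p.1 p.2 r.1 r.2 := fun F => by simp only [Fintype.sum_prod_type]
  rw [k F, k fun a b c d => F c d a b, sum_comm]

omit [Fintype V] [DecidableEq V] in
theorem not_Zq {a b c : V} (h1 : c ≠ a) (h2 : c ≠ b) (x : SimpleGraph V) : ¬Zq a b c c x := by
  rw [Zq_iff h1.symm h1.symm h2.symm h2.symm]; omega

theorem disj_total (f : SimpleGraph V → ℝ) : 0 ≤ ∑ a, ∑ b, ∑ c, ∑ d,
    if Ok a b c d then ip (Om δ) (Qe δ a b f) (Qe δ c d f) else 0 := by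
  set U : V → V → V → V → ℝ := fun a b c d => if Ok a b c d then ∑ x ∈ Om δ,
    ((f x - f (tq a b c d x)) ^ 2 / 4 - dfc (Om δ) (Ag {a, b}) (Zq a b c d) f x) else 0 with hU
  have h1 : 0 ≤ ∑ a, ∑ b, ∑ c, ∑ d, U a b c d := by
    refine sum_nonneg fun a _ => sum_nonneg fun b _ => ?_
    by_cases hab : a = b
    · simp [hU, Ok, hab]
    simp only [hU]
    rw [sum_ok hab fun c h1 h2 => sum_eq_zero fun x _ => by
      simp [tq_of_not (not_Zq h1 h2 x), dfc, not_Zq h1 h2 x],
      sum_congr rfl fun c _ => sum_comm, sum_comm]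
    exact sum_nonneg_of_cls (Ag {a, b}) fun x hx => (pair_graph hab hx f).1
  have h2 := sum4 U
  have h3 : ∑ a, ∑ b, ∑ c, ∑ d, (1 / 2 * U a b c d + 1 / 2 * U c d a b) ≤ ∑ a, ∑ b, ∑ c, ∑ d,
      if Ok a b c d then ip (Om δ) (Qe δ a b f) (Qe δ c d f) else 0 := by
    refine sum_le_sum fun a _ => sum_le_sum fun b _ => sum_le_sum fun c _ =>
      sum_le_sum fun d _ => ?_
    by_cases h : Ok a b c d
    · obtain ⟨hab, hac, had, hbc, hbd, hcd⟩ := id h
      have h' : Ok c d a b := ⟨hcd, hac.symm, hbc.symm, had.symm, hbd.symm, hab⟩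
      simp only [hU, if_pos h, if_pos h', Qe_ne hab, Qe_ne hcd, tq_sym a b c d]
      refine le_trans (le_of_eq ?_) (disj_graph hab hac had hbc hbd hcd f)
      rw [mul_sum, mul_sum, ← sum_add_distrib]
      exact sum_congr rfl fun x _ => by ring
    · have h' : ¬Ok c d a b := fun ⟨hab, hac, had, hbc, hbd, hcd⟩ =>
        h ⟨hcd, hac.symm, hbc.symm, had.symm, hbd.symm, hab⟩
      simp [hU, h, h']
  simp only [sum_add_distrib, ← mul_sum] at h3
  linarith

theorem adj_total (f : SimpleGraph V → ℝ) : 0 ≤ ∑ a, ∑ b, ∑ c,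
    if b ≠ c then ip (Om δ) (Qe δ a b f) (Qe δ a c f) else 0 := by
  set A : V → V → V → ℝ := fun a b c =>
    if b ≠ c then ip (Om δ) (Qe δ a b f) (Qe δ a c f) else 0 with hA
  have z1 : ∀ a c, A a a c = 0 := fun a c => by simp [hA, Qe_self, ip]
  have z2 : ∀ a b, A a b a = 0 := fun a c => by simp [hA, Qe_self, ip]
  have z3 : ∀ a b, A a b b = 0 := fun a c => by simp [hA]
  have h : 0 ≤ ∑ a, ∑ b, ∑ c, (A c b a + A b c a + A a c b) := by
    refine sum_nonneg fun a _ => sum_nonneg fun b _ => sum_nonneg fun c _ => ?_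
    by_cases hab : a = b
    · simp [hab, z2, z3]
    by_cases hac : a = c
    · simp [hac, z1, z2, z3]
    by_cases hbc : b = c
    · simp [hbc, z1, z3]
    have := triple_graph (δ := δ) hab hac hbc f
    simp only [hA, if_pos (Ne.symm hab), if_pos (Ne.symm hac), if_pos (Ne.symm hbc), Qe_comm c b,
      Qe_comm b a, Qe_comm a c]
    rwa [Qe_ne hab, Qe_ne hbc, Qe_ne (Ne.symm hac)]
  have s1 : ∀ F : V → V → V → ℝ, ∑ a, ∑ b, ∑ c, F b a c = ∑ a, ∑ b, ∑ c, F a b c :=
    fun F => sum_comm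
  have s2 : ∀ F : V → V → V → ℝ, ∑ a, ∑ b, ∑ c, F a c b = ∑ a, ∑ b, ∑ c, F a b c :=
    fun F => sum_congr rfl fun _ _ => sum_comm
  simp only [sum_add_distrib] at h
  have a1 := s2 A
  have a2 := s1 fun a b c => A a c b
  have a3 := s2 fun a b c => A b c a
  have a4 := s1 fun a b c => A c a b
  have a5 := s2 fun a b c => A b a c
  have a6 := s1 A
  have a7 := s1 fun a b c => A c b a
  linarith

theorem knabe (f : SimpleGraph V → ℝ) : 2 * ip (Om δ) f ((∑ a, ∑ b, Qe δ a b) f) ≤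
    ip (Om δ) ((∑ a, ∑ b, Qe δ a b) f) ((∑ a, ∑ b, Qe δ a b) f) := by
  simp only [LinearMap.sum_apply, ip_sum_left, ip_sum_right]
  have h1 := disj_total (δ := δ) f
  have h2 := adj_total (δ := δ) f
  have h3 : ∑ a, ∑ b, ∑ c, (if a ≠ c then ip (Om δ) (Qe δ b a f) (Qe δ b c f) else 0) =
      ∑ a, ∑ b, ∑ c, if b ≠ c then ip (Om δ) (Qe δ a b f) (Qe δ a c f) else 0 := sum_comm
  have key : ∀ a b, ∑ c, ∑ d, ip (Om δ) (Qe δ a b f) (Qe δ c d f) =
      2 * ip (Om δ) f (Qe δ a b f) +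
      2 * ∑ c, (if b ≠ c then ip (Om δ) (Qe δ a b f) (Qe δ a c f) else 0) +
      2 * ∑ c, (if a ≠ c then ip (Om δ) (Qe δ b a f) (Qe δ b c f) else 0) +
      ∑ c, ∑ d, if Ok a b c d then ip (Om δ) (Qe δ a b f) (Qe δ c d f) else 0 := by
    intro a b
    by_cases hab : a = b
    · simp [hab, Qe_self, ip]
    have sp : ∀ g : V → ℝ, ∑ k, g k = g a + g b + ∑ k ∈ ({a, b} : Finset V)ᶜ, g k := fun g => by
      rw [← sum_add_sum_compl {a, b}, sum_pair hab]
    have z : ∀ g c, ip (Om δ) g (Qe δ c c f) = 0 := fun g c => by simp [Qe_self, ip]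
    have e1 : ∑ c, (if b ≠ c then ip (Om δ) (Qe δ a b f) (Qe δ a c f) else 0) =
        ∑ c ∈ ({a, b} : Finset V)ᶜ, ip (Om δ) (Qe δ a b f) (Qe δ a c f) := by
      rw [sp, z]
      simp only [ite_self, ne_eq, not_true, if_false, zero_add]
      exact sum_congr rfl fun c hc => if_pos (by rintro rfl; simp at hc)
    have e2 : ∑ c, (if a ≠ c then ip (Om δ) (Qe δ b a f) (Qe δ b c f) else 0) =
        ∑ c ∈ ({a, b} : Finset V)ᶜ, ip (Om δ) (Qe δ a b f) (Qe δ b c f) := by
      rw [sp, z, Qe_comm b a]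
      simp only [ite_self, ne_eq, not_true, if_false, zero_add]
      exact sum_congr rfl fun c hc => if_pos (by rintro rfl; simp at hc)
    rw [sum_ok hab fun c _ _ => z _ c, e1, e2, ← Qe_idem]
    rw [sp, sp fun d => ip (Om δ) (Qe δ a b f) (Qe δ a d f),
      sp fun d => ip (Om δ) (Qe δ a b f) (Qe δ b d f),
      sum_congr rfl fun c _ => sp fun d => ip (Om δ) (Qe δ a b f) (Qe δ c d f),
      sum_add_distrib, sum_add_distrib, z, z, Qe_comm b a,
      sum_congr (s₁ := ({a, b} : Finset V)ᶜ)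
        (f := fun c => ip (Om δ) (Qe δ a b f) (Qe δ c a f)) rfl fun c _ => by rw [Qe_comm c a],
      sum_congr (s₁ := ({a, b} : Finset V)ᶜ)
        (f := fun c => ip (Om δ) (Qe δ a b f) (Qe δ c b f)) rfl fun c _ => by rw [Qe_comm c b]]
    ring
  rw [sum4 fun a b c d => ip (Om δ) (Qe δ a b f) (Qe δ c d f)]
  simp only [key, sum_add_distrib, ← mul_sum]
  linarith

theorem energy (f : SimpleGraph V → ℝ) (hf : ∑ x ∈ Om δ, f x = 0) :
    8 * ∑ x ∈ Om δ, f x ^ 2 ≤ ∑ a, ∑ b, ∑ c, ∑ d,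
      if Ok a b c d then ∑ x ∈ Om δ, (f x - f (tq a b c d x)) ^ 2 else 0 := by
  have psd : ∀ f, ip (Om δ) f ((∑ a, ∑ b, Qe δ a b) f) =
      ∑ a, ∑ b, ip (Om δ) (Qe δ a b f) (Qe δ a b f) := fun f => by
    simp only [LinearMap.sum_apply, ip_sum_right, Qe_idem]
  have gap := gap_of_eigen (Om δ) (∑ a, ∑ b, Qe δ a b) (fun f g => by
    simp only [LinearMap.sum_apply, ip_sum_left, ip_sum_right, Qe_symm]) 2 ?_ f hf
  · rw [psd] at gap
    have : ∑ a, ∑ b, ip (Om δ) (Qe δ a b f) (Qe δ a b f) ≤ ∑ a, ∑ b, 1 / 4 * ∑ c, ∑ d,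
        if Ok a b c d then ∑ x ∈ Om δ, (f x - f (tq a b c d x)) ^ 2 else 0 := by
      refine sum_le_sum fun a _ => sum_le_sum fun b _ => ?_
      by_cases hab : a = b
      · simp [Ok, hab, Qe_self, ip]
      rw [sum_ok hab fun c h1 h2 => sum_eq_zero fun x _ => by
        simp [tq_of_not (not_Zq h1 h2 x)], sum_congr rfl fun c _ => sum_comm, sum_comm, Qe_ne hab]
      have := sum_nonneg_of_cls (Ag {a, b}) fun x hx => (pair_graph (δ := δ) hab hx f).2
      simp only [sum_sub_distrib, ← sum_div] at this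
      simp only [ip, ← sq]
      linarith
    simp only [← mul_sum] at this
    simp only [ip, ← sq] at gap this
    linarith
  rintro μ g hg ⟨x₀, hx₀, h0⟩
  have e1 : ip (Om δ) g ((∑ a, ∑ b, Qe δ a b) g) = μ * ip (Om δ) g g := by
    rw [ip, ip, mul_sum]
    exact sum_congr rfl fun x hx => by rw [hg x hx]; ring
  have e2 : ip (Om δ) ((∑ a, ∑ b, Qe δ a b) g) ((∑ a, ∑ b, Qe δ a b) g) =
      μ * μ * ip (Om δ) g g := by
    rw [ip, ip, mul_sum]
    exact sum_congr rfl fun x hx => by rw [hg x hx]; ring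
  have p : 0 < ip (Om δ) g g :=
    sum_pos' (fun _ _ => mul_self_nonneg _) ⟨x₀, hx₀, mul_self_pos.mpr h0⟩
  have k := knabe (δ := δ) g
  rw [e1, e2] at k
  by_cases h2 : 2 ≤ μ
  · exact Or.inl h2
  right
  have n : ∀ a, 0 ≤ ∑ b, ip (Om δ) (Qe δ a b g) (Qe δ a b g) :=
    fun a => sum_nonneg fun b _ => ip_self_nonneg _ _
  have h3 : ∑ a, ∑ b, ip (Om δ) (Qe δ a b g) (Qe δ a b g) = 0 := by
    refine le_antisymm ?_ (sum_nonneg fun a _ => n a)
    rw [← psd, e1]
    by_contra h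
    have : 0 < μ := by by_contra; nlinarith
    nlinarith [mul_pos this p]
  refine conn fun a b hab x hx y hy h => ?_
  have h4 := (sum_eq_zero_iff_of_nonneg fun b _ => ip_self_nonneg _ _).mp
    ((sum_eq_zero_iff_of_nonneg fun a _ => n a).mp h3 a (mem_univ _)) b (mem_univ _)
  have h5 := (sum_eq_zero_iff_of_nonneg fun x _ => mul_self_nonneg _).mp h4
  have h6 := mul_self_eq_zero.mp (h5 x hx)
  have h7 := mul_self_eq_zero.mp (h5 y hy)
  rw [Qe_ne hab, Qo_apply, Pi.sub_apply] at h6 h7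
  have := avg_rel (s := Om δ) g h
  linarith

end Vale.Agent.P335
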