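import Vale.Agent.P335.Graph

/-! Pairs of vertices: the fibres and the disjoint-pair inequality. -/

namespace Vale.Agent.P335

open Finset

theorem pi_cases {p q r s p' q' r' s' : ℕ} (h1 : p ≤ 1) (h2 : q ≤ 1) (h3 : r ≤ 1) (h4 : s ≤ 1)
    (h5 : p' ≤ 1) (h6 : q' ≤ 1) (h7 : r' ≤ 1) (h8 : s' ≤ 1) (e1 : p + r = p' + r')
    (e2 : q + s = q' + s')
    (h : (p = 1 ∧ s = 1 ∧ q = 0 ∧ r = 0) ∨ (q = 1 ∧ r = 1 ∧ p = 0 ∧ s = 0) ↔
      (p' = 1 ∧ s' = 1 ∧ q' = 0 ∧ r' = 0) ∨ (q' = 1 ∧ r' = 1 ∧ p' = 0 ∧ s' = 0)) :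
    (p' + q' = p + q ∧ r' + s' = r + s) ∨ (p' + q' = r + s ∧ r' + s' = p + q) := by
  interval_cases p <;> interval_cases q <;> interval_cases r <;> interval_cases s <;> omega

variable {V : Type} [DecidableEq V]

theorem tq_row {a b c d : V} (hab : a ≠ b) (hac : a ≠ c) (had : a ≠ d) (hbc : b ≠ c) (hbd : b ≠ d)
    {x : SimpleGraph V} (h : Zq a b c d x) (k : V) :
    (tq a b c d x).Adj a k ↔ x.Adj a (Equiv.swap c d k) := by
  rw [tq_adj h, Equiv.swap_apply_def]
  rw [Zq_iff hac had hbc hbd] at h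
  have hcd : c ≠ d := by rintro rfl; omega
  simp only [← ed_one, ← ed_zero] at h
  simp only [mt_adj]
  have := hcd.symm
  split_ifs with e1 e2
  · subst e1; simp [*]; tauto
  · subst e2; simp [*]; tauto
  · simp [*]

variable [Fintype V] {δ : V → ℕ}

theorem pair_graph {a b : V} (hab : a ≠ b) {x : SimpleGraph V} (hx : x ∈ Om δ)
    (f : SimpleGraph V → ℝ) :
    0 ≤ ∑ y ∈ cls (Om δ) (Ag {a, b}) x, ∑ c ∈ ({a, b} : Finset V)ᶜ, ∑ d ∈ ({a, b} : Finset V)ᶜ,
      ((f y - f (tq a b c d y)) ^ 2 / 4 - dfc (Om δ) (Ag {a, b}) (Zq a b c d) f y) ∧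
    0 ≤ ∑ y ∈ cls (Om δ) (Ag {a, b}) x, (∑ c ∈ ({a, b} : Finset V)ᶜ, ∑ d ∈ ({a, b} : Finset V)ᶜ,
      (f y - f (tq a b c d y)) ^ 2 / 4 - Qo (Om δ) (Ag {a, b}) f y ^ 2) := by
  set S : Finset V := ({a, b} : Finset V)ᶜ.filter fun k => ed x a k + ed x b k = 1 with hS
  have mS : ∀ k, k ∈ S ↔ (k ≠ a ∧ k ≠ b) ∧ ed x a k + ed x b k = 1 := fun k => by
    simp [hS]
  have col : ∀ y ∈ cls (Om δ) (Ag {a, b}) x, ∀ k, k ≠ a → k ≠ b →
      ed x a k + ed x b k = ed y a k + ed y b k := fun y hy k h1 h2 =>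
    col2 hab hx (mem_cls.mp hy).1 (mem_cls.mp hy).2 h1 h2
  have off : ∀ y ∈ cls (Om δ) (Ag {a, b}) x, ∀ k, k ∉ S → ed y a k = ed x a k := by
    intro y hy k hk
    by_cases h1 : k = a
    · simp [h1]
    by_cases h2 : k = b
    · rw [h2, inner2 hab hx (mem_cls.mp hy).1 (mem_cls.mp hy).2]
    have := col y hy k h1 h2
    have := ed_le x a k; have := ed_le x b k; have := ed_le y a k; have := ed_le y b k
    rw [mS] at hk
    have : ed x a k + ed x b k ≠ 1 := fun h => hk ⟨⟨h1, h2⟩, h⟩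
    omega
  have z4 : ∀ c ∈ S, ∀ d ∈ S, ∀ y ∈ cls (Om δ) (Ag {a, b}) x,
      Zq a b c d y ↔ ¬(ed y a c = 1 ↔ ed y a d = 1) := by
    intro c hc d hd y hy
    rw [mS] at hc hd
    have := col y hy c hc.1.1 hc.1.2
    have := col y hy d hd.1.1 hd.1.2
    rw [Zq_iff hc.1.1.symm hd.1.1.symm hc.1.2.symm hd.1.2.symm]
    omega
  refine pair_bound (S := S) (lab := fun y => S.filter fun k => ed y a k = 1) hx
    (filter_subset _ _) ?_ ?_ ?_ ?_ ?_ f
  · intro y hy
    refine mem_powersetCard.mpr ⟨filter_subset _ _, ?_⟩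
    have k : ∀ y : SimpleGraph V, (S.filter fun k => ed y a k = 1).card = ∑ k ∈ S, ed y a k := by
      intro y
      rw [card_filter]
      exact sum_congr rfl fun k _ => by have := ed_le y a k; split_ifs <;> omega
    have e1 := dg_split S y a
    have e2 := dg_split S x a
    have e3 : ∑ t ∈ Sᶜ, ed y a t = ∑ t ∈ Sᶜ, ed x a t :=
      sum_congr rfl fun k hk => off y hy k (mem_compl.mp hk)
    rw [mem_Om.mp (mem_cls.mp hy).1] at e1
    rw [mem_Om.mp hx] at e2
    rw [k, k]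
    omega
  · intro y hy z hz e
    have ra : ∀ k, ed y a k = ed z a k := by
      intro k
      by_cases hk : k ∈ S
      · have := congrArg (k ∈ ·) e
        simp only [mem_filter, hk, true_and, eq_iff_iff] at this
        have := ed_le y a k; have := ed_le z a k
        omega
      · rw [off y hy k hk, off z hz k hk]
    have rb : ∀ k, ed y b k = ed z b k := by
      intro k
      by_cases h1 : k = a
      · rw [h1, ed_comm, ra, ed_comm]
      by_cases h2 : k = b
      · simp [h2]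
      have := col y hy k h1 h2
      have := col z hz k h1 h2
      have := ra k
      omega
    have hyz : Ag {a, b} y z := (Ag _).trans ((Ag _).symm (mem_cls.mp hy).2) (mem_cls.mp hz).2
    ext u w
    by_cases h1 : u = a
    · rw [h1]; exact adj_of_ed (ra w)
    by_cases h2 : u = b
    · rw [h2]; exact adj_of_ed (rb w)
    by_cases h3 : w = a
    · rw [h3, y.adj_comm, z.adj_comm]; exact adj_of_ed (ra u)
    by_cases h4 : w = b
    · rw [h4, y.adj_comm, z.adj_comm]; exact adj_of_ed (rb u)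
    exact hyz u (by simp [h1, h2]) w (by simp [h3, h4])
  · intro c hc d hd y hy
    have hz := z4 c hc d hd y hy
    have hc' := (mS c).mp hc
    have hd' := (mS d).mp hd
    refine ⟨mem_cls.mpr ⟨tq_mem hab hc'.1.1.symm hd'.1.1.symm hc'.1.2.symm hd'.1.2.symm
      (mem_cls.mp hy).1, (Ag _).trans (mem_cls.mp hy).2 (tq_Ag a b c d y)⟩, ?_⟩
    by_cases h : Zq a b c d y
    · ext k
      rw [mem_sw, mem_filter (s := S), mem_filter (s := S), swap_mem hc hd, ← ed_one, ← ed_one,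
        tq_row hab hc'.1.1.symm hd'.1.1.symm hc'.1.2.symm hd'.1.2.symm h]
    · rw [tq_of_not h, sw_eq_self]
      simp only [mem_filter, hc, hd, true_and]
      by_contra h'
      exact h (hz.mpr h')
  · intro c hc d hd y hy
    simp only [mem_filter, hc, hd, true_and]
    exact z4 c hc d hd y hy
  · intro c hc d hd y hy h
    simp only [mem_compl, mem_insert, mem_singleton, not_or] at hc hd
    have := col y hy c hc.1 hc.2
    have := col y hy d hd.1 hd.2
    rw [Zq_iff (Ne.symm hc.1) (Ne.symm hd.1) (Ne.symm hc.2) (Ne.symm hd.2)] at h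
    rw [mS, mS]
    refine ⟨⟨hc, ?_⟩, ⟨hd, ?_⟩⟩ <;> omega

open Classical in
/-- recombination of two graphs -/
def recomb (T : Finset V) (π : Equiv.Perm V) (x y : SimpleGraph V) : SimpleGraph V where
  Adj u w := if u ∈ T ∨ w ∈ T then y.Adj (π u) (π w) else x.Adj u w
  symm := ⟨fun u w h => by
    by_cases e : u ∈ T ∨ w ∈ T
    · rw [if_pos e] at h
      rw [if_pos e.symm]
      exact h.symm
    · rw [if_neg e] at h
      rw [if_neg fun h => e h.symm]
      exact h.symm⟩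
  loopless := ⟨fun u h => by split_ifs at h <;> simp at h⟩

omit [Fintype V] in
theorem recomb_pos {T : Finset V} {π : Equiv.Perm V} {x y : SimpleGraph V} {u w : V}
    (h : u ∈ T ∨ w ∈ T) : (recomb T π x y).Adj u w ↔ y.Adj (π u) (π w) := by
  simp only [recomb, h, if_true]

omit [Fintype V] in
theorem recomb_neg {T : Finset V} {π : Equiv.Perm V} {x y : SimpleGraph V} {u w : V}
    (h1 : u ∉ T) (h2 : w ∉ T) : (recomb T π x y).Adj u w ↔ x.Adj u w := by
  simp [recomb, h1, h2]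

theorem beta {a b c d : V} (hab : a ≠ b) (hac : a ≠ c) (had : a ≠ d) (hbc : b ≠ c) (hbd : b ≠ d)
    (hcd : c ≠ d) {x x' : SimpleGraph V} (hx : x ∈ Om δ) (hx' : x' ∈ Om δ)
    (h : ref (Ag {a, b}) (Zq a b c d) x x') : ∃ β : SimpleGraph V → SimpleGraph V,
      (∀ y ∈ Om δ, Ag {c, d} x y → β y ∈ Om δ ∧ Ag {c, d} x' (β y) ∧ Ag {a, b} y (β y) ∧
        (Zq a b c d y ↔ Zq a b c d (β y))) ∧
      ∀ y y', Ag {c, d} x y → Ag {c, d} x y' → β y = β y' → y = y' := by
  obtain ⟨h1, h2⟩ := h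
  have hπ : ∃ π : Equiv.Perm V, (∀ k, k ≠ a → k ≠ b → π k = k) ∧
      ((π a = a ∧ π b = b) ∨ (π a = b ∧ π b = a)) ∧
      ∀ k, k ≠ c → k ≠ d → ed x' c k + ed x' d k = ed x c (π k) + ed x d (π k) := by
    have e1 := col2 hab hx hx' h1 hac.symm hbc.symm
    have e2 := col2 hab hx hx' h1 had.symm hbd.symm
    rw [Zq_iff hac had hbc hbd, Zq_iff hac had hbc hbd] at h2
    have o : ∀ k, k ≠ a → k ≠ b → ed x' c k + ed x' d k = ed x c k + ed x d k := fun k h3 h4 => by
      rw [ed_congr (h1 c (by simp [hac.symm, hbc.symm]) k (by simp [h3, h4])),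
        ed_congr (h1 d (by simp [had.symm, hbd.symm]) k (by simp [h3, h4]))]
    have e := pi_cases (ed_le _ _ _) (ed_le _ _ _) (ed_le _ _ _) (ed_le _ _ _) (ed_le _ _ _)
      (ed_le _ _ _) (ed_le _ _ _) (ed_le _ _ _) e1 e2 h2
    simp only [ed_comm _ a, ed_comm _ b] at e
    rcases e with e | e
    · refine ⟨1, fun _ _ _ => rfl, Or.inl ⟨rfl, rfl⟩, fun k _ _ => ?_⟩
      rw [Equiv.Perm.one_apply]
      by_cases h3 : k = a
      · rw [h3]; exact e.1
      by_cases h4 : k = b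
      · rw [h4]; exact e.2
      exact o k h3 h4
    · refine ⟨Equiv.swap a b, fun _ => Equiv.swap_apply_of_ne_of_ne, Or.inr (by simp),
        fun k _ _ => ?_⟩
      rw [Equiv.swap_apply_def]
      split_ifs with h3 h4
      · rw [h3]; exact e.1
      · rw [h4]; exact e.2
      exact o k h3 h4
  obtain ⟨π, p1, p2, p3⟩ := hπ
  have pc := p1 c hac.symm hbc.symm
  have pd := p1 d had.symm hbd.symm
  have pT : ∀ k, π k ∈ ({c, d} : Finset V) ↔ k ∈ ({c, d} : Finset V) := fun k => by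
    simp only [mem_insert, mem_singleton]
    nth_rewrite 1 [← pc, ← pd]
    simp
  refine ⟨recomb {c, d} π x', fun y hy hxy => ?_, fun y y' h3 h4 e => ?_⟩
  · have a1 : Ag {c, d} x' (recomb {c, d} π x' y) := fun u hu w hw => (recomb_neg hu hw).symm
    refine ⟨mem_Om.mpr fun k => ?_, a1, fun u hu w hw => ?_, ?_⟩
    · by_cases hk : k ∈ ({c, d} : Finset V)
      · have : π k = k := by
          simp only [mem_insert, mem_singleton] at hk
          rcases hk with rfl | rfl <;> assumption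
        rw [← mem_Om.mp hy k, dg, dg, ← Equiv.sum_comp π (ed y k)]
        exact sum_congr rfl fun w _ => ed_congr (by rw [recomb_pos (Or.inl hk), this])
      · rw [← mem_Om.mp hx' k]
        refine ((dg_iff a1 hk).mpr ?_).symm
        have hk2 : π k ∉ ({c, d} : Finset V) := fun h => hk ((pT k).mp h)
        simp only [mem_insert, mem_singleton, not_or] at hk hk2
        rw [sum_pair hcd, sum_pair hcd, ed_comm x' k, ed_comm x' k, p3 k hk.1 hk.2,
          col2 hcd hx hy hxy hk2.1 hk2.2, ed_comm y c, ed_comm y d,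
          ed_congr (recomb_pos (x := x') (y := y) (π := π) (u := k) (w := c) (T := {c, d})
            (by simp)),
          ed_congr (recomb_pos (x := x') (y := y) (π := π) (u := k) (w := d) (T := {c, d})
            (by simp)), pc, pd]
    · by_cases e : u ∈ ({c, d} : Finset V) ∨ w ∈ ({c, d} : Finset V)
      · simp only [mem_insert, mem_singleton, not_or] at hu hw
        rw [recomb_pos e, p1 u hu.1 hu.2, p1 w hw.1 hw.2]
      · rw [not_or] at e
        rw [recomb_neg e.1 e.2, ← h1 u hu w hw, hxy u e.1 w e.2]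
    · have r : ∀ u w, w ∈ ({c, d} : Finset V) →
          ed (recomb {c, d} π x' y) u w = ed y (π u) (π w) :=
        fun u w hw => ed_congr (recomb_pos (Or.inr hw))
      rw [Zq_iff hac had hbc hbd, Zq_iff hac had hbc hbd, r a c (by simp), r a d (by simp),
        r b c (by simp), r b d (by simp), pc, pd]
      rcases p2 with ⟨e1, e2⟩ | ⟨e1, e2⟩ <;> rw [e1, e2]
      omega
  · ext u w
    by_cases hu : u ∈ ({c, d} : Finset V) ∨ w ∈ ({c, d} : Finset V)
    · obtain ⟨u, rfl⟩ := π.surjective u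
      obtain ⟨w, rfl⟩ := π.surjective w
      rw [pT, pT] at hu
      rw [← recomb_pos (x := x') hu, e, recomb_pos hu]
    · rw [not_or] at hu
      rw [← h3 u hu.1 w hu.2, h4 u hu.1 w hu.2]

theorem disj_graph {a b c d : V} (hab : a ≠ b) (hac : a ≠ c) (had : a ≠ d) (hbc : b ≠ c)
    (hbd : b ≠ d) (hcd : c ≠ d) (f : SimpleGraph V → ℝ) :
    ∑ x ∈ Om δ, ((f x - f (tq a b c d x)) ^ 2 / 4 - dfc (Om δ) (Ag {a, b}) (Zq a b c d) f x / 2 -
      dfc (Om δ) (Ag {c, d}) (Zq c d a b) f x / 2) ≤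
      ip (Om δ) (Qo (Om δ) (Ag {a, b}) f) (Qo (Om δ) (Ag {c, d}) f) := by
  have c1 : ∀ {a b c d : V}, a ≠ b → a ≠ c → a ≠ d → b ≠ c → b ≠ d → c ≠ d → ∀ f g,
      ip (Om δ) (avg (Om δ) (ref (Ag {a, b}) (Zq a b c d)) f) (avg (Om δ) (Ag {c, d}) g) =
      ip (Om δ) (avg (Om δ) (Ag {c, d}) f) (avg (Om δ) (ref (Ag {a, b}) (Zq a b c d)) g) := by
    intro a b c d hab hac had hbc hbd hcd
    refine avg_comm fun x hx x' hx' h => ?_
    obtain ⟨β, h1, h2⟩ := beta hab hac had hbc hbd hcd hx hx' h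
    refine ⟨β, fun y hy => ?_, fun y hy y' hy' e => ?_, fun y hy => ?_⟩
    · have := h1 y (mem_cls.mp hy).1 (mem_cls.mp hy).2
      exact mem_cls.mpr ⟨this.1, this.2.1⟩
    · exact h2 y y' (mem_cls.mp hy).2 (mem_cls.mp hy').2 e
    · exact (h1 y (mem_cls.mp hy).1 (mem_cls.mp hy).2).2.2
  rw [Zq_sym a b c d]
  refine disj_bound (Z := Zq a b c d) (fun x hx => tq_mem hab hac had hbc hbd hx) (fun x _ => tau_tau _ _ x)
    (fun x _ => tq_Ag a b c d x) (fun x _ => by rw [← tq_sym]; exact tq_Ag c d a b x)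
    (fun x _ => Zp_tau _ _ x) (c1 hab hac had hbc hbd hcd) ?_ ?_ ?_ f
  · refine avg_comm fun x hx x' hx' h => ?_
    obtain ⟨β, h1, h2⟩ := beta hab hac had hbc hbd hcd hx hx' h
    refine ⟨β, fun y hy => ?_, fun y hy y' hy' e => ?_, fun y hy => ?_⟩
    · have := h1 y (mem_cls.mp hy).1 (mem_cls.mp hy).2.1
      exact mem_cls.mpr ⟨this.1, this.2.1,
        h.2.symm.trans ((mem_cls.mp hy).2.2.trans this.2.2.2)⟩
    · exact h2 y y' (mem_cls.mp hy).2.1 (mem_cls.mp hy').2.1 e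
    · exact (h1 y (mem_cls.mp hy).1 (mem_cls.mp hy).2.1).2.2
  · rw [← Zq_sym a b c d]
    exact c1 hcd hac.symm hbc.symm had.symm hbd.symm hab
  · intro x hx hz
    by_contra h
    push Not at h
    obtain ⟨⟨y, hy, h1, h2⟩, z, hz', h3, h4⟩ := h
    have := col2 hab hx hy h1 hac.symm hbc.symm
    have := col2 hab hx hy h1 had.symm hbd.symm
    have := col2 hcd hx hz' h3 hac had
    have := col2 hcd hx hz' h3 hbc hbd
    rw [Zq_iff hac had hbc hbd] at hz h2 h4
    have := ed_comm x a c; have := ed_comm x a d; have := ed_comm x b c; have := ed_comm x b d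
    have := ed_comm z a c; have := ed_comm z a d; have := ed_comm z b c; have := ed_comm z b d
    omega

end Vale.Agent.P335
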