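import Vale.Agent.P335.Spec

/-! Exchange moves on finsets and the spectral gap on a slice of the cube. -/

namespace Vale.Agent.P335

open Finset

variable {K : Type*} [DecidableEq K]

/-- apply the transposition of `u` and `v` to a finset -/
def sw (u v : K) (R : Finset K) : Finset K := R.map (Equiv.swap u v).toEmbedding

theorem mem_sw {u v k : K} {R : Finset K} : k ∈ sw u v R ↔ Equiv.swap u v k ∈ R := by
  simp [sw, mem_map_equiv]

@[simp] theorem card_sw (u v : K) (R : Finset K) : (sw u v R).card = R.card := card_map _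

@[simp] theorem sw_sw (u v : K) (R : Finset K) : sw u v (sw u v R) = R := by
  ext k; simp [mem_sw]

theorem sw_comm (u v : K) (R : Finset K) : sw u v R = sw v u R := by
  ext k; simp [mem_sw, Equiv.swap_comm u v]

theorem sw_eq_self {u v : K} {R : Finset K} (h : u ∈ R ↔ v ∈ R) : sw u v R = R := by
  ext k
  rw [mem_sw, Equiv.swap_apply_def]
  split_ifs with h1 h2
  · rw [h1, h]
  · rw [h2, h]
  · rfl

@[simp] theorem left_mem_sw {u v : K} {R : Finset K} : u ∈ sw u v R ↔ v ∈ R := by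
  simp [mem_sw]

@[simp] theorem right_mem_sw {u v : K} {R : Finset K} : v ∈ sw u v R ↔ u ∈ R := by
  simp [mem_sw]

theorem mem_sw_of_ne {u v k : K} {R : Finset K} (h1 : k ≠ u) (h2 : k ≠ v) :
    k ∈ sw u v R ↔ k ∈ R := by
  rw [mem_sw, Equiv.swap_apply_of_ne_of_ne h1 h2]

theorem swap_mem {u v k : K} {S : Finset K} (hu : u ∈ S) (hv : v ∈ S) :
    Equiv.swap u v k ∈ S ↔ k ∈ S := by
  rw [← mem_sw, sw_eq_self (by simp [hu, hv])]

theorem sw_mem_pc {u v : K} {S X : Finset K} {α : ℕ} (hu : u ∈ S) (hv : v ∈ S)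
    (h : X ∈ powersetCard α S) : sw u v X ∈ powersetCard α S := by
  rw [mem_powersetCard] at h ⊢
  exact ⟨fun k hk => (swap_mem hu hv).mp (h.1 (mem_sw.mp hk)), by simp [h.2]⟩

theorem sw_conj (u v c d : K) (X : Finset K) :
    sw u v (sw (Equiv.swap u v c) (Equiv.swap u v d) X) = sw c d (sw u v X) := by
  ext k
  simp only [mem_sw]
  have := Equiv.mul_swap_eq_swap_mul (Equiv.swap u v) c d
  have h2 := congrArg (fun e : Equiv.Perm K => e k) this
  simp only [Equiv.Perm.coe_mul, Function.comp] at h2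
  rw [h2]

theorem exch_conn {A : Finset K → Prop} {G : Finset K → ℝ}
    (hc : ∀ Y Y', A Y → A Y' → Y.card = Y'.card)
    (h : ∀ Y Y', A Y → A Y' → ∀ w ∈ Y, w ∉ Y' → ∀ w' ∈ Y', w' ∉ Y →
      A (sw w w' Y) ∧ G (sw w w' Y) = G Y) (Y Y' : Finset K) (hY : A Y) (hY' : A Y') :
    G Y = G Y' := by
  induction hn : (Y \ Y').card generalizing Y with
  | zero =>
    have : Y ⊆ Y' := sdiff_eq_empty_iff_subset.mp (card_eq_zero.mp hn)
    rw [eq_of_subset_of_card_le this (hc Y Y' hY hY').ge]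
  | succ n ih =>
    obtain ⟨w, hw⟩ := card_pos.mp (by omega : 0 < (Y \ Y').card)
    have h2 : 0 < (Y' \ Y).card := by
      have := card_sdiff_comm (hc Y Y' hY hY')
      omega
    obtain ⟨w', hw'⟩ := card_pos.mp h2
    rw [mem_sdiff] at hw hw'
    obtain ⟨h3, h4⟩ := h Y Y' hY hY' w hw.1 hw.2 w' hw'.1 hw'.2
    rw [← h4]
    refine ih _ h3 ?_
    have : sw w w' Y \ Y' = (Y \ Y').erase w := by
      ext k
      simp only [mem_sdiff, mem_erase]
      by_cases e1 : k = w
      · subst e1; simp [hw'.2]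
      · by_cases e2 : k = w'
        · subst e2; simp [hw'.1]
        · simp [mem_sw_of_ne e1 e2, e1]
    rw [this, card_erase_of_mem (mem_sdiff.mpr hw), hn]
    rfl

theorem sum_invol {X : Type*} {s : Finset X} {τ : X → X} (h1 : ∀ x ∈ s, τ x ∈ s)
    (h2 : ∀ x ∈ s, τ (τ x) = x) (F : X → ℝ) : ∑ x ∈ s, F (τ x) = ∑ x ∈ s, F x :=
  sum_nbij' τ τ h1 h1 h2 h2 fun _ _ => rfl

theorem dir_invol {X : Type*} {s : Finset X} {τ : X → X} (h1 : ∀ x ∈ s, τ x ∈ s)
    (h2 : ∀ x ∈ s, τ (τ x) = x) (f : X → ℝ) :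
    2 * ∑ x ∈ s, f x * (f x - f (τ x)) = ∑ x ∈ s, (f x - f (τ x)) ^ 2 := by
  have := sum_invol h1 h2 fun x => f x ^ 2
  have e : ∑ x ∈ s, (f x - f (τ x)) ^ 2 =
      ∑ x ∈ s, (2 * (f x * (f x - f (τ x))) + (f (τ x) ^ 2 - f x ^ 2)) :=
    sum_congr rfl fun x _ => by ring
  rw [e, sum_add_distrib, sum_sub_distrib, this, ← mul_sum]
  ring

/-- generator of the exchange walk -/
def exL (S : Finset K) : (Finset K → ℝ) →ₗ[ℝ] (Finset K → ℝ) where
  toFun g X := ∑ c ∈ S, ∑ d ∈ S, (g X - g (sw c d X))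
  map_add' f g := by
    funext X
    simp only [Pi.add_apply, ← sum_add_distrib]
    exact sum_congr rfl fun c _ => sum_congr rfl fun d _ => by ring
  map_smul' a f := by
    funext X
    simp only [Pi.smul_apply, smul_eq_mul, RingHom.id_apply, mul_sum, mul_sub]

theorem exL_apply (S : Finset K) (g : Finset K → ℝ) (X : Finset K) :
    exL S g X = ∑ c ∈ S, ∑ d ∈ S, (g X - g (sw c d X)) := rfl

theorem ip_exL (S : Finset K) (α : ℕ) (f g : Finset K → ℝ) :
    ip (powersetCard α S) f (exL S g) =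
      ∑ c ∈ S, ∑ d ∈ S, ∑ X ∈ powersetCard α S, f X * (g X - g (sw c d X)) := by
  simp only [ip, exL_apply, mul_sum]
  rw [sum_comm]
  exact sum_congr rfl fun c _ => sum_comm

theorem exL_symm (S : Finset K) (α : ℕ) (f g : Finset K → ℝ) :
    ip (powersetCard α S) (exL S f) g = ip (powersetCard α S) f (exL S g) := by
  rw [ip_comm, ip_exL, ip_exL]
  refine sum_congr rfl fun c hc => sum_congr rfl fun d hd => ?_
  have := sum_invol (s := powersetCard α S) (τ := sw c d) (fun X hX => sw_mem_pc hc hd hX)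
    (fun X _ => sw_sw c d X) fun X => g X * f (sw c d X)
  simp only [sw_sw] at this
  simp only [mul_sub, sum_sub_distrib]
  rw [← this]
  congr 1 <;> exact sum_congr rfl fun X _ => mul_comm _ _

theorem max_pt {S X : Finset K} {α : ℕ} {φ : Finset K → ℝ} {u v : K} (hu : u ∈ S) (hv : v ∈ S)
    (hX : X ∈ powersetCard α S) (huX : u ∈ X) (hvX : v ∉ X)
    (hanti : ∀ Y, φ (sw u v Y) = -φ Y) (hmax : ∀ Y ∈ powersetCard α S, φ Y ≤ φ X) :
    2 * S.card * φ X ≤ exL S φ X := by
  have huv : u ≠ v := fun e => hvX (e ▸ huX)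
  have hz : ∀ Y, (u ∈ Y ↔ v ∈ Y) → φ Y = 0 := fun Y h => by
    have := hanti Y
    rw [sw_eq_self h] at this
    linarith
  have h1 : ∀ d, d ∉ X → d ≠ v → φ (sw u d X) = 0 := fun d hd hdv =>
    hz _ (by simp [hd, mem_sw_of_ne huv.symm hdv.symm, hvX])
  have h2 : ∀ d, d ∈ X → d ≠ u → φ (sw v d X) = 0 := fun d hd hdu =>
    hz _ (by simp [hd, mem_sw_of_ne huv hdu.symm, huX])
  let w : K → K → ℝ := fun c d =>
    (if c = u then (if d ∈ X then 0 else 1) else 0) + (if c = v then (if d ∈ X then 1 else 0) else 0)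
  have hw : ∑ c ∈ S, ∑ d ∈ S, w c d = S.card := by
    rw [sum_comm, card_eq_sum_ones, Nat.cast_sum]
    refine sum_congr rfl fun d _ => ?_
    simp only [w, sum_add_distrib, sum_ite_eq', hu, hv, if_true]
    split_ifs <;> simp
  have hw2 : ∑ c ∈ S, ∑ d ∈ S, (w c d + w d c) * φ X = 2 * S.card * φ X := by
    simp only [← sum_mul, sum_add_distrib]
    rw [hw, sum_comm, hw]
    ring
  rw [← hw2, exL_apply]
  refine sum_le_sum fun c hc => sum_le_sum fun d hd => ?_
  have h0 := hmax _ (sw_mem_pc hc hd hX)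
  have h3 := hanti X
  have h4 := h1 c
  have h5 := h2 c
  have h6 := h1 d
  have h7 := h2 d
  rw [sw_comm] at h4 h5
  have h8 := hanti X
  rw [sw_comm] at h8
  simp only [w]
  by_cases e1 : c = u <;> by_cases e2 : c = v <;> by_cases e3 : d = u <;> by_cases e4 : d = v <;>
    by_cases e5 : c ∈ X <;> by_cases e6 : d ∈ X <;> simp_all <;> linarith

theorem slice_gap (S : Finset K) (α : ℕ) (g : Finset K → ℝ)
    (hg : ∑ X ∈ powersetCard α S, g X = 0) :
    4 * S.card * ∑ X ∈ powersetCard α S, g X ^ 2 ≤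
      ∑ c ∈ S, ∑ d ∈ S, ∑ X ∈ powersetCard α S, (g X - g (sw c d X)) ^ 2 := by
  have key := gap_of_eigen (powersetCard α S) (exL S) (exL_symm S α) (2 * S.card) ?_ g hg
  · rw [ip_exL] at key
    have e : ∑ c ∈ S, ∑ d ∈ S, ∑ X ∈ powersetCard α S, (g X - g (sw c d X)) ^ 2 =
        2 * ∑ c ∈ S, ∑ d ∈ S, ∑ X ∈ powersetCard α S, g X * (g X - g (sw c d X)) := by
      rw [mul_sum]
      refine sum_congr rfl fun c hc => ?_
      rw [mul_sum]
      refine sum_congr rfl fun d hd => ?_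
      exact (dir_invol (fun X hX => sw_mem_pc hc hd hX) (fun X _ => sw_sw c d X) g).symm
    rw [e]
    simp only [ip, ← sq] at key
    linarith
  intro μ f hf _
  by_contra hcon
  push Not at hcon
  obtain ⟨hμ, X, hX, Y, hY, hXY⟩ := hcon
  refine hXY (exch_conn (A := fun Y => Y ∈ powersetCard α S) ?_ ?_ X Y hX hY)
  · intro Y Y' h h'
    rw [(mem_powersetCard.mp h).2, (mem_powersetCard.mp h').2]
  intro Y Y' h h' u hu _ v hv _
  have hu := (mem_powersetCard.mp h).1 hu
  have hv := (mem_powersetCard.mp h').1 hv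
  refine ⟨sw_mem_pc hu hv h, ?_⟩
  set φ : Finset K → ℝ := fun Z => f Z - f (sw u v Z) with hφ
  have hanti : ∀ Z, φ (sw u v Z) = -φ Z := fun Z => by simp [hφ]
  have heig : ∀ Z ∈ powersetCard α S, exL S φ Z = μ * φ Z := by
    intro Z hZ
    have e : exL S φ Z = exL S f Z - exL S f (sw u v Z) := by
      have : exL S f (sw u v Z) =
          ∑ c ∈ S, ∑ d ∈ S, (f (sw u v Z) - f (sw u v (sw c d Z))) := by
        rw [exL_apply, ← sum_invol (τ := Equiv.swap u v) (fun k hk => (swap_mem hu hv).mpr hk)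
          (fun k _ => Equiv.swap_apply_self u v k)
          fun c => ∑ d ∈ S, (f (sw u v Z) - f (sw u v (sw c d Z)))]
        refine sum_congr rfl fun c _ => ?_
        rw [← sum_invol (τ := Equiv.swap u v) (fun k hk => (swap_mem hu hv).mpr hk)
          (fun k _ => Equiv.swap_apply_self u v k)
          fun d => (f (sw u v Z) - f (sw u v (sw (Equiv.swap u v c) d Z)))]
        simp only [sw_conj]
      rw [this, exL_apply, exL_apply, ← sum_sub_distrib]
      refine sum_congr rfl fun c _ => ?_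
      rw [← sum_sub_distrib]
      exact sum_congr rfl fun d _ => by simp only [hφ]; ring
    rw [e, hf Z hZ, hf _ (sw_mem_pc hu hv hZ), hφ]
    ring
  obtain ⟨Z, hZ, hmax⟩ := exists_max_image (powersetCard α S) φ ⟨Y, h⟩
  have hle : φ Z ≤ 0 := by
    by_contra hpos
    push Not at hpos
    have h2 : 2 * S.card * φ Z ≤ exL S φ Z := by
      by_cases e1 : u ∈ Z <;> by_cases e2 : v ∈ Z
      · have := hanti Z
        rw [sw_eq_self (by simp [e1, e2])] at this
        linarith
      · exact max_pt hu hv hZ e1 e2 hanti hmax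
      · exact max_pt hv hu hZ e2 e1 (fun W => by rw [sw_comm]; exact hanti W) hmax
      · have := hanti Z
        rw [sw_eq_self (by simp [e1, e2])] at this
        linarith
    rw [heig Z hZ] at h2
    nlinarith
  have h1 := hmax Y h
  have h2 := hmax _ (sw_mem_pc hu hv h)
  rw [hanti] at h2
  have : φ Y = 0 := by linarith
  simp only [hφ] at this
  linarith

end Vale.Agent.P335
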