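import Mathlib.Analysis.InnerProductSpace.Spectrum
import Mathlib.Analysis.InnerProductSpace.PiL2
import Mathlib.Tactic

/-! Finite symmetric operators and averaging operators on a finset. -/

namespace Vale.Agent.P335

open Finset

variable {X : Type*}

/-- inner product of functions on a finset -/
def ip (s : Finset X) (f g : X → ℝ) : ℝ := ∑ x ∈ s, f x * g x

theorem ip_comm (s : Finset X) (f g : X → ℝ) : ip s f g = ip s g f :=
  sum_congr rfl fun _ _ => mul_comm _ _

theorem ip_congr {s : Finset X} {f f' g g' : X → ℝ} (hf : ∀ x ∈ s, f x = f' x)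
    (hg : ∀ x ∈ s, g x = g' x) : ip s f g = ip s f' g' :=
  sum_congr rfl fun x hx => by rw [hf x hx, hg x hx]

theorem ip_self_nonneg (s : Finset X) (f : X → ℝ) : 0 ≤ ip s f f :=
  sum_nonneg fun _ _ => mul_self_nonneg _

theorem ip_add_left (s : Finset X) (f g h : X → ℝ) : ip s (f + g) h = ip s f h + ip s g h := by
  simp [ip, add_mul, sum_add_distrib]

theorem ip_add_right (s : Finset X) (f g h : X → ℝ) : ip s f (g + h) = ip s f g + ip s f h := by
  simp [ip, mul_add, sum_add_distrib]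

theorem ip_sub_left (s : Finset X) (f g h : X → ℝ) : ip s (f - g) h = ip s f h - ip s g h := by
  simp [ip, sub_mul, sum_sub_distrib]

theorem ip_sub_right (s : Finset X) (f g h : X → ℝ) : ip s f (g - h) = ip s f g - ip s f h := by
  simp [ip, mul_sub, sum_sub_distrib]

theorem ip_sum_left {ι : Type*} (s : Finset X) (t : Finset ι) (f : ι → X → ℝ) (h : X → ℝ) :
    ip s (∑ i ∈ t, f i) h = ∑ i ∈ t, ip s (f i) h := by
  simp only [ip, Finset.sum_apply, sum_mul]
  exact sum_comm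

theorem ip_sum_right {ι : Type*} (s : Finset X) (t : Finset ι) (f : ι → X → ℝ) (h : X → ℝ) :
    ip s h (∑ i ∈ t, f i) = ∑ i ∈ t, ip s h (f i) := by
  simp only [ip, Finset.sum_apply, mul_sum]
  exact sum_comm

theorem spectral (s : Finset X) (T : (X → ℝ) →ₗ[ℝ] (X → ℝ))
    (hsym : ∀ f g, ip s (T f) g = ip s f (T g)) :
    ∃ (n : ℕ) (b : Fin n → X → ℝ) (μ : Fin n → ℝ), (∀ i, ∀ x ∈ s, T (b i) x = μ i * b i x) ∧
      (∀ i, ∃ x ∈ s, b i x ≠ 0) ∧ ∀ f g, ip s f g = ∑ i, ip s (b i) f * ip s (b i) g := by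
  classical
  let ext : EuclideanSpace ℝ s →ₗ[ℝ] (X → ℝ) :=
    { toFun := fun v x => if h : x ∈ s then v ⟨x, h⟩ else 0
      map_add' := fun v w => by
        funext x; by_cases h : x ∈ s <;> simp [h]
      map_smul' := fun c v => by
        funext x; by_cases h : x ∈ s <;> simp [h] }
  let res : (X → ℝ) →ₗ[ℝ] EuclideanSpace ℝ s :=
    { toFun := fun f => WithLp.toLp 2 fun x => f x.1
      map_add' := fun v w => rfl
      map_smul' := fun c v => rfl }
  have hext : ∀ (v : EuclideanSpace ℝ s) (x : s), ext v x.1 = v x := fun v x => by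
    simp [ext, x.2]
  have hin : ∀ f g : X → ℝ, inner ℝ (res f) (res g) = ip s f g := by
    intro f g
    rw [PiLp.inner_apply, ip, ← Finset.sum_coe_sort s]
    refine sum_congr rfl fun x _ => ?_
    exact mul_comm _ _
  have hre : ∀ v : EuclideanSpace ℝ s, res (ext v) = v := by
    intro v
    ext x
    exact hext v x
  let T' : EuclideanSpace ℝ s →ₗ[ℝ] EuclideanSpace ℝ s := res ∘ₗ T ∘ₗ ext
  have hT' : T'.IsSymmetric := by
    intro v w
    have h1 : inner ℝ (T' v) w = ip s (T (ext v)) (ext w) := by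
      rw [← hin, hre]; rfl
    have h2 : inner ℝ v (T' w) = ip s (ext v) (T (ext w)) := by
      rw [← hin, hre]; rfl
    rw [h1, h2, hsym]
  let B := hT'.eigenvectorBasis rfl
  refine ⟨_, fun i => ext (B i), hT'.eigenvalues rfl, ?_, ?_, ?_⟩
  · intro i x hx
    have := congrArg (fun v : EuclideanSpace ℝ s => v ⟨x, hx⟩) (hT'.apply_eigenvectorBasis rfl i)
    simp only [PiLp.smul_apply, smul_eq_mul] at this
    have e : ext (B i) x = B i ⟨x, hx⟩ := hext (B i) ⟨x, hx⟩
    simp only [e]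
    exact this
  · intro i
    by_contra h
    push Not at h
    have : B i = 0 := by
      ext x
      rw [← hext]
      exact h x.1 x.2
    exact B.orthonormal.ne_zero i this
  · intro f g
    rw [← hin, ← B.sum_inner_mul_inner]
    refine sum_congr rfl fun i _ => ?_
    rw [← hin, ← hin, hre, real_inner_comm]

theorem gap_of_eigen (s : Finset X) (T : (X → ℝ) →ₗ[ℝ] (X → ℝ))
    (hsym : ∀ f g, ip s (T f) g = ip s f (T g)) (c : ℝ)
    (h : ∀ (μ : ℝ) (f : X → ℝ), (∀ x ∈ s, T f x = μ * f x) → (∃ x ∈ s, f x ≠ 0) →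
      c ≤ μ ∨ ∀ x ∈ s, ∀ y ∈ s, f x = f y)
    (f : X → ℝ) (hf : ∑ x ∈ s, f x = 0) : c * ip s f f ≤ ip s f (T f) := by
  obtain ⟨n, b, μ, h1, h2, h3⟩ := spectral s T hsym
  rw [h3 f f, h3 f (T f), mul_sum]
  refine sum_le_sum fun i _ => ?_
  have e : ip s (b i) (T f) = μ i * ip s (b i) f := by
    rw [← hsym, ip, ip, mul_sum]
    exact sum_congr rfl fun x hx => by rw [h1 i x hx]; ring
  rw [e]
  rcases h (μ i) (b i) (h1 i) (h2 i) with h4 | h4
  · nlinarith [mul_self_nonneg (ip s (b i) f)]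
  · obtain ⟨x0, hx0, -⟩ := h2 i
    have : ip s (b i) f = 0 := by
      rw [ip, sum_congr rfl fun x hx => by rw [h4 x hx x0 hx0], ← mul_sum, hf, mul_zero]
    rw [this]; simp

theorem sq_of_eigen (s : Finset X) (T : (X → ℝ) →ₗ[ℝ] (X → ℝ))
    (hsym : ∀ f g, ip s (T f) g = ip s f (T g))
    (h : ∀ (μ : ℝ) (f : X → ℝ), (∀ x ∈ s, T f x = μ * f x) → (∃ x ∈ s, f x ≠ 0) → μ ≤ μ * μ)
    (f : X → ℝ) : ip s f (T f) ≤ ip s (T f) (T f) := by
  obtain ⟨n, b, μ, h1, h2, h3⟩ := spectral s T hsym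
  rw [h3 f (T f), h3 (T f) (T f)]
  refine sum_le_sum fun i _ => ?_
  have e : ip s (b i) (T f) = μ i * ip s (b i) f := by
    rw [← hsym, ip, ip, mul_sum]
    exact sum_congr rfl fun x hx => by rw [h1 i x hx]; ring
  rw [e]
  have := h (μ i) (b i) (h1 i) (h2 i)
  nlinarith [mul_self_nonneg (ip s (b i) f)]

open Classical in
/-- the class of `x` in `s` -/
noncomputable def cls (s : Finset X) (r : Setoid X) (x : X) : Finset X := s.filter fun y => r x y

theorem mem_cls {s : Finset X} {r : Setoid X} {x y : X} : y ∈ cls s r x ↔ y ∈ s ∧ r x y := by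
  simp [cls]

theorem cls_eq {s : Finset X} {r : Setoid X} {x y : X} (h : r x y) : cls s r x = cls s r y := by
  ext z
  simp only [mem_cls]
  exact and_congr_right fun _ => ⟨fun h' => r.trans (r.symm h) h', fun h' => r.trans h h'⟩

theorem self_mem_cls {s : Finset X} {r : Setoid X} {x : X} (h : x ∈ s) : x ∈ cls s r x :=
  mem_cls.mpr ⟨h, r.refl x⟩

theorem card_cls_pos {s : Finset X} {r : Setoid X} {x : X} (h : x ∈ s) :
    (0 : ℝ) < (cls s r x).card := by
  exact_mod_cast card_pos.mpr ⟨x, self_mem_cls h⟩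

/-- averaging over classes -/
noncomputable def avg (s : Finset X) (r : Setoid X) : (X → ℝ) →ₗ[ℝ] (X → ℝ) where
  toFun f x := (∑ y ∈ cls s r x, f y) / (cls s r x).card
  map_add' f g := by
    funext x; simp [sum_add_distrib, add_div]
  map_smul' c f := by
    funext x; simp [← mul_sum, mul_div_assoc]

theorem avg_apply (s : Finset X) (r : Setoid X) (f : X → ℝ) (x : X) :
    avg s r f x = (∑ y ∈ cls s r x, f y) / (cls s r x).card := rfl

theorem avg_congr {s : Finset X} {r : Setoid X} {f g : X → ℝ} (h : ∀ x ∈ s, f x = g x) :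
    avg s r f = avg s r g := by
  funext x
  rw [avg_apply, avg_apply, sum_congr rfl fun y hy => h y (mem_cls.mp hy).1]

theorem avg_rel {s : Finset X} {r : Setoid X} (f : X → ℝ) {x y : X} (h : r x y) :
    avg s r f x = avg s r f y := by
  rw [avg_apply, avg_apply, cls_eq h]

theorem avg_of_inv {s : Finset X} {r : Setoid X} {g : X → ℝ} {x : X} (hx : x ∈ s)
    (h : ∀ y ∈ s, r x y → g y = g x) : avg s r g x = g x := by
  rw [avg_apply, sum_congr rfl fun y hy => h y (mem_cls.mp hy).1 (mem_cls.mp hy).2, sum_const,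
    nsmul_eq_mul, mul_div_cancel_left₀ _ (card_cls_pos hx).ne']

theorem sum_avg (s : Finset X) (r : Setoid X) (f : X → ℝ) :
    ∑ x ∈ s, avg s r f x = ∑ x ∈ s, f x := by
  classical
  have h1 : ∀ x ∈ s, avg s r f x = ∑ y ∈ s, if r x y then f y / (cls s r y).card else 0 := by
    intro x _
    rw [avg_apply, sum_div, ← sum_filter]
    refine sum_congr (by ext y; simp [mem_cls]) fun y hy => ?_
    rw [cls_eq (mem_filter.mp hy).2]
  rw [sum_congr rfl h1, sum_comm]
  refine sum_congr rfl fun y hy => ?_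
  rw [← sum_filter, sum_const, nsmul_eq_mul]
  have : s.filter (fun x => r x y) = cls s r y := by
    ext x; simp only [mem_filter, mem_cls]
    exact and_congr_right fun _ => ⟨fun h => r.symm h, fun h => r.symm h⟩
  rw [this, mul_div_cancel₀ _ (card_cls_pos hy).ne']

theorem ip_avg_inv {s : Finset X} {r : Setoid X} (f : X → ℝ) {g : X → ℝ}
    (h : ∀ x ∈ s, ∀ y ∈ s, r x y → g y = g x) : ip s (avg s r f) g = ip s f g := by
  rw [ip, ip, ← sum_avg s r (fun x => f x * g x)]
  refine sum_congr rfl fun x hx => ?_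
  rw [avg_apply, avg_apply, div_mul_eq_mul_div, sum_mul]
  congr 1
  exact sum_congr rfl fun y hy => by rw [h x hx y (mem_cls.mp hy).1 (mem_cls.mp hy).2]

theorem ip_avg_avg (s : Finset X) (r : Setoid X) (f g : X → ℝ) :
    ip s (avg s r f) (avg s r g) = ip s f (avg s r g) :=
  ip_avg_inv f fun _ _ _ _ h => (avg_rel g h).symm

theorem avg_symm (s : Finset X) (r : Setoid X) (f g : X → ℝ) :
    ip s (avg s r f) g = ip s f (avg s r g) := by
  rw [← ip_avg_avg, ip_comm s (avg s r f) (avg s r g), ip_avg_avg, ip_comm]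

theorem sum_nonneg_of_cls {s : Finset X} (r : Setoid X) {F : X → ℝ}
    (h : ∀ x ∈ s, 0 ≤ ∑ y ∈ cls s r x, F y) : 0 ≤ ∑ x ∈ s, F x := by
  rw [← sum_avg s r]
  exact sum_nonneg fun x hx => div_nonneg (h x hx) (Nat.cast_nonneg _)

/-- If `r₂`-averages of `r₁`-invariant functions are `r₁`-invariant, the averages commute. -/
theorem avg_comm {s : Finset X} {r₁ r₂ : Setoid X}
    (h : ∀ x ∈ s, ∀ x' ∈ s, r₁ x x' → ∃ β : X → X, (∀ y ∈ cls s r₂ x, β y ∈ cls s r₂ x') ∧
      Set.InjOn β (cls s r₂ x) ∧ ∀ y ∈ cls s r₂ x, r₁ y (β y)) (f g : X → ℝ) :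
    ip s (avg s r₁ f) (avg s r₂ g) = ip s (avg s r₂ f) (avg s r₁ g) := by
  have key : ∀ f : X → ℝ, ∀ x ∈ s, ∀ x' ∈ s, r₁ x x' →
      avg s r₂ (avg s r₁ f) x' = avg s r₂ (avg s r₁ f) x := by
    intro f x hx x' hx' hr
    obtain ⟨β, h1, h2, h3⟩ := h x hx x' hx' hr
    obtain ⟨β', h1', h2', -⟩ := h x' hx' x hx (r₁.symm hr)
    have c1 := card_le_card_of_injOn β (fun y hy => h1 y hy) h2
    have c2 := card_le_card_of_injOn β' (fun y hy => h1' y hy) h2'
    rw [avg_apply, avg_apply, le_antisymm c2 c1]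
    congr 1
    symm
    refine sum_bij (fun y _ => β y) h1 (fun a ha b hb e => h2 ha hb e) ?_ ?_
    · intro b hb
      obtain ⟨a, ha, e⟩ := surj_on_of_inj_on_of_card_le (fun y _ => β y) h1
        (fun a b ha hb e => h2 ha hb e) c2 b hb
      exact ⟨a, ha, e.symm⟩
    · intro y hy
      exact avg_rel f (h3 y hy)
  calc ip s (avg s r₁ f) (avg s r₂ g) = ip s (avg s r₂ (avg s r₁ f)) g := (avg_symm _ _ _ _).symm
    _ = ip s g (avg s r₂ (avg s r₁ f)) := ip_comm _ _ _
    _ = ip s (avg s r₁ g) (avg s r₂ (avg s r₁ f)) := (ip_avg_inv g (key f)).symm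
    _ = ip s (avg s r₂ (avg s r₁ g)) (avg s r₁ f) := (avg_symm _ _ _ _).symm
    _ = ip s (avg s r₁ f) (avg s r₂ (avg s r₁ g)) := ip_comm _ _ _
    _ = ip s f (avg s r₂ (avg s r₁ g)) := ip_avg_inv f (key g)
    _ = ip s (avg s r₂ f) (avg s r₁ g) := (avg_symm _ _ _ _).symm

/-- commuting symmetric idempotents have a nonnegative product -/
theorem ip_nonneg_of_comm (s : Finset X) (A B : (X → ℝ) →ₗ[ℝ] (X → ℝ))
    (hB : ∀ f g, ip s (B f) g = ip s f (B g))
    (hA2 : ∀ f g, ip s (A f) (A g) = ip s f (A g))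
    (hB2 : ∀ f g, ip s (B f) (B g) = ip s f (B g))
    (hc : ∀ f g, ip s (A f) (B g) = ip s (B f) (A g)) (f : X → ℝ) : 0 ≤ ip s (A f) (B f) := by
  have h := ip_self_nonneg s (A (B f))
  rwa [hA2, ← hc, ← hB, hB2] at h

end Vale.Agent.P335
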