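import Vale.Agent.P335.Three

/-! The three-projection inequality. -/

namespace Vale.Agent.P335

open Finset

variable {X : Type*}

/-- the complementary projection -/
noncomputable def Qo (s : Finset X) (r : Setoid X) : (X → ℝ) →ₗ[ℝ] (X → ℝ) :=
  LinearMap.id - avg s r

theorem Qo_apply (s : Finset X) (r : Setoid X) (f : X → ℝ) : Qo s r f = f - avg s r f := rfl

theorem Qo_symm (s : Finset X) (r : Setoid X) (f g : X → ℝ) :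
    ip s (Qo s r f) g = ip s f (Qo s r g) := by
  rw [Qo_apply, Qo_apply, ip_sub_left, ip_sub_right, avg_symm]

theorem Qo_idem (s : Finset X) (r : Setoid X) (f g : X → ℝ) :
    ip s (Qo s r f) (Qo s r g) = ip s f (Qo s r g) := by
  rw [Qo_apply s r f, ip_sub_left, Qo_apply, ip_sub_right s (avg s r f), ip_avg_avg, avg_symm]
  ring

variable {K : Type*} [DecidableEq K]

/-- a finite set identified with three-row matrices with given margins -/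
structure Sys (s : Finset X) (c : K → ℕ) (r₁ r₂ r₃ : ℕ) (ρ₁ ρ₂ ρ₃ : X → Finset K)
    (q₁ q₂ q₃ : Setoid X) : Prop where
  tr : ∀ x ∈ s, Tr c r₁ r₂ r₃ (ρ₁ x) (ρ₂ x) (ρ₃ x)
  inj : ∀ x ∈ s, ∀ y ∈ s, ρ₁ x = ρ₁ y → ρ₂ x = ρ₂ y → ρ₃ x = ρ₃ y → x = y
  surj : ∀ R Y Z, Tr c r₁ r₂ r₃ R Y Z → ∃ x ∈ s, ρ₁ x = R ∧ ρ₂ x = Y ∧ ρ₃ x = Z
  e₁ : ∀ x ∈ s, ∀ y ∈ s, q₁ x y ↔ ρ₁ x = ρ₁ y
  e₂ : ∀ x ∈ s, ∀ y ∈ s, q₂ x y ↔ ρ₂ x = ρ₂ y
  e₃ : ∀ x ∈ s, ∀ y ∈ s, q₃ x y ↔ ρ₃ x = ρ₃ y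

variable {s : Finset X} {c : K → ℕ} {r₁ r₂ r₃ : ℕ} {ρ₁ ρ₂ ρ₃ : X → Finset K} {q₁ q₂ q₃ : Setoid X}

theorem Sys.rot (h : Sys s c r₁ r₂ r₃ ρ₁ ρ₂ ρ₃ q₁ q₂ q₃) : Sys s c r₂ r₃ r₁ ρ₂ ρ₃ ρ₁ q₂ q₃ q₁ :=
  ⟨fun x hx => (h.tr x hx).rot, fun x hx y hy a b c => h.inj x hx y hy c a b,
    fun R Y Z t => by
      obtain ⟨x, hx, a, b, c⟩ := h.surj _ _ _ t.rot.rot
      exact ⟨x, hx, b, c, a⟩, h.e₂, h.e₃, h.e₁⟩

open Classical in
/-- a function on rows induced by a function on states -/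
noncomputable def lift (s : Finset X) (ρ : X → Finset K) (g : X → ℝ) (R : Finset K) : ℝ :=
  if h : ∃ x ∈ s, ρ x = R then g h.choose else 0

theorem lift_avg {ρ : X → Finset K} {q : Setoid X} (h : ∀ x ∈ s, ∀ y ∈ s, q x y ↔ ρ x = ρ y)
    (f : X → ℝ) {x : X} (hx : x ∈ s) : lift s ρ (avg s q f) (ρ x) = avg s q f x := by
  have e : ∃ y ∈ s, ρ y = ρ x := ⟨x, hx, rfl⟩
  rw [lift, dif_pos e]
  exact avg_rel f ((h _ e.choose_spec.1 x hx).mpr e.choose_spec.2)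

variable [Fintype K]

theorem Sys.eqn (h : Sys s c r₁ r₂ r₃ ρ₁ ρ₂ ρ₃ q₁ q₂ q₃) {f : X → ℝ} {ν : ℝ}
    (hf : ∀ x ∈ s, avg s q₁ f x + avg s q₂ f x + avg s q₃ f x = ν * f x) :
    Eqn c r₁ r₂ r₃ (ν - 1) (lift s ρ₁ (avg s q₁ f)) (lift s ρ₂ (avg s q₂ f))
      (lift s ρ₃ (avg s q₃ f)) := by
  rintro R ⟨Y, Z, t⟩
  obtain ⟨x, hx, rfl, -, -⟩ := h.surj _ _ _ t
  have hs : ∀ F : Finset K × Finset K → ℝ, ∑ y ∈ cls s q₁ x, F (ρ₂ y, ρ₃ y) =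
      ∑ p ∈ prs c r₁ r₂ r₃ (ρ₁ x), F p := by
    intro F
    refine sum_bij (fun y _ => (ρ₂ y, ρ₃ y)) ?_ ?_ ?_ fun _ _ => rfl
    · intro y hy
      rw [mem_cls] at hy
      rw [mem_prs, (h.e₁ x hx y hy.1).mp hy.2]
      exact h.tr y hy.1
    · intro y hy z hz e
      rw [mem_cls] at hy hz
      rw [Prod.mk.injEq] at e
      exact h.inj y hy.1 z hz.1 (((h.e₁ x hx y hy.1).mp hy.2).symm.trans
        ((h.e₁ x hx z hz.1).mp hz.2)) e.1 e.2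
    · intro p hp
      obtain ⟨y, hy, a, b, c⟩ := h.surj _ _ _ (mem_prs.mp hp)
      exact ⟨y, mem_cls.mpr ⟨hy, (h.e₁ x hx y hy).mpr a.symm⟩, by rw [b, c]⟩
  have hc := hs fun _ => 1
  simp only [sum_const, nsmul_eq_mul, mul_one] at hc
  rw [← hs fun p => lift s ρ₂ (avg s q₂ f) p.1 + lift s ρ₃ (avg s q₃ f) p.2, ← hc,
    lift_avg h.e₁ f hx]
  have : ∀ y ∈ cls s q₁ x, lift s ρ₂ (avg s q₂ f) (ρ₂ y) + lift s ρ₃ (avg s q₃ f) (ρ₃ y) =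
      ν * f y - avg s q₁ f x := by
    intro y hy
    rw [mem_cls] at hy
    rw [lift_avg h.e₂ f hy.1, lift_avg h.e₃ f hy.1, ← hf y hy.1, avg_rel f hy.2]
    ring
  rw [sum_congr rfl this, sum_sub_distrib, ← mul_sum, sum_const, nsmul_eq_mul, avg_apply]
  have := (card_cls_pos (r := q₁) hx).ne'
  field_simp

theorem Sys.fix (h : Sys s c r₁ r₂ r₃ ρ₁ ρ₂ ρ₃ q₁ q₂ q₃) {f : X → ℝ} {ν : ℝ} (hν : 2 < ν)
    (hf : ∀ x ∈ s, avg s q₁ f x + avg s q₂ f x + avg s q₃ f x = ν * f x) {x : X} (hx : x ∈ s) :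
    avg s q₁ f x = f x := by
  obtain ⟨-, l2, l3⟩ := three_lip (by linarith : 1 < ν - 1) (h.eqn hf)
    (h.rot.eqn fun x hx => by rw [← hf x hx]; ring)
    (h.rot.rot.eqn fun x hx => by rw [← hf x hx]; ring)
  refine avg_of_inv hx fun y hy e => ?_
  have t1 := h.tr x hx
  have t2 := h.tr y hy
  rw [← (h.e₁ x hx y hy).mp e] at t2
  have a := lip_const l2 t1 t2
  have b := lip_const (G₂ := lift s ρ₃ (avg s q₃ f)) (r₁ := r₁) (r₂ := r₃) (r₃ := r₂)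
    (fun R hR u v p hR' => l3 R (by obtain ⟨Y, Z, t⟩ := hR; exact ⟨Z, Y, t.flip⟩) u v p
      (by obtain ⟨Y, Z, t⟩ := hR'; exact ⟨Z, Y, t.flip⟩)) t1.flip t2.flip
  rw [lift_avg h.e₂ f hx, lift_avg h.e₂ f hy] at a
  rw [lift_avg h.e₃ f hx, lift_avg h.e₃ f hy] at b
  have c1 := hf x hx
  have c2 := hf y hy
  rw [← a, ← b, ← avg_rel f e, c1] at c2
  exact (mul_left_cancel₀ (by linarith) c2).symm

theorem Sys.nonneg (h : Sys s c r₁ r₂ r₃ ρ₁ ρ₂ ρ₃ q₁ q₂ q₃) (f : X → ℝ) :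
    0 ≤ ip s (Qo s q₁ f) (Qo s q₂ f) + ip s (Qo s q₁ f) (Qo s q₃ f) +
      ip s (Qo s q₂ f) (Qo s q₃ f) := by
  have := sq_of_eigen s (Qo s q₁ + Qo s q₂ + Qo s q₃) (fun f g => by
    simp only [LinearMap.add_apply, ip_add_left, ip_add_right, Qo_symm]) ?_ f
  · simp only [LinearMap.add_apply, ip_add_left, ip_add_right, Qo_idem] at this
    rw [ip_comm s (Qo s q₂ f) (Qo s q₁ f), ip_comm s (Qo s q₃ f) (Qo s q₁ f),
      ip_comm s (Qo s q₃ f) (Qo s q₂ f)] at this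
    linarith
  rintro μ g hg ⟨x, hx, h0⟩
  by_contra hc
  have h1 : 0 < μ := by by_contra; nlinarith
  have h2 : μ < 1 := by by_contra; nlinarith
  have hf : ∀ x ∈ s, avg s q₁ g x + avg s q₂ g x + avg s q₃ g x = (3 - μ) * g x := by
    intro x hx
    have := hg x hx
    simp only [LinearMap.add_apply, Qo_apply, Pi.add_apply, Pi.sub_apply] at this
    linarith
  have a := h.fix (by linarith) hf hx
  have b := h.rot.fix (ν := 3 - μ) (by linarith) (fun x hx => by rw [← hf x hx]; ring) hx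
  have c := h.rot.rot.fix (ν := 3 - μ) (by linarith) (fun x hx => by rw [← hf x hx]; ring) hx
  have d := hf x hx
  rw [a, b, c] at d
  exact h0 ((mul_eq_zero.mp (by linarith : μ * g x = 0)).resolve_left h1.ne')

end Vale.Agent.P335
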