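import Vale.Agent.P335.Slice

/-! Three-row zero-one matrices with fixed margins. -/

namespace Vale.Agent.P335

open Finset

variable {K : Type*} [DecidableEq K]

/-- natural-number indicator of membership -/
def ind (k : K) (R : Finset K) : ℕ := if k ∈ R then 1 else 0

theorem ind_sw (u v k : K) (R : Finset K) : ind k (sw u v R) = ind (Equiv.swap u v k) R := by
  simp only [ind, mem_sw]

theorem ind_le (k : K) (R : Finset K) : ind k R ≤ 1 := by unfold ind; split_ifs <;> simp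

theorem ind_one {k : K} {R : Finset K} : k ∈ R ↔ ind k R = 1 := by
  unfold ind; split_ifs with h <;> simp [h]

theorem ind_zero {k : K} {R : Finset K} : k ∉ R ↔ ind k R = 0 := by
  unfold ind; split_ifs with h <;> simp [h]

/-- three rows with given margins -/
def Tr (c : K → ℕ) (r₁ r₂ r₃ : ℕ) (R Y Z : Finset K) : Prop :=
  R.card = r₁ ∧ Y.card = r₂ ∧ Z.card = r₃ ∧ ∀ k, ind k R + ind k Y + ind k Z = c k

variable {c : K → ℕ} {r₁ r₂ r₃ : ℕ}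

theorem Tr.rot {R Y Z : Finset K} (h : Tr c r₁ r₂ r₃ R Y Z) : Tr c r₂ r₃ r₁ Y Z R :=
  ⟨h.2.1, h.2.2.1, h.1, fun k => by have := h.2.2.2 k; omega⟩

theorem Tr.flip {R Y Z : Finset K} (h : Tr c r₁ r₂ r₃ R Y Z) : Tr c r₁ r₃ r₂ R Z Y :=
  ⟨h.1, h.2.2.1, h.2.1, fun k => by have := h.2.2.2 k; omega⟩

/-- feasible first rows -/
def Feas (c : K → ℕ) (r₁ r₂ r₃ : ℕ) (R : Finset K) : Prop := ∃ Y Z, Tr c r₁ r₂ r₃ R Y Z

/-- Lipschitz bound under exchanges of type `p` -/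
def Lip (A : Finset K → Prop) (G : Finset K → ℝ) (p : K → K → Prop) (N : ℝ) : Prop :=
  ∀ R, A R → ∀ u v, p u v → A (sw u v R) → |G (sw u v R) - G R| ≤ N

theorem Lip.neg {A : Finset K → Prop} {G : Finset K → ℝ} {p : K → K → Prop} {N : ℝ}
    (h : Lip A G p N) : Lip A (fun R => -G R) p N := fun R hR u v hp h' => by
  have := h R hR u v hp h'
  rwa [← abs_neg, neg_sub', sub_neg_eq_add, ← sub_neg_eq_add] at this

theorem Tr.card_diff {R Y Z Y' Z' : Finset K} (h : Tr c r₁ r₂ r₃ R Y Z)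
    (h' : Tr c r₁ r₂ r₃ R Y' Z') : (Y \ Z).card = (Y' \ Z').card := by
  have e : Y ∩ Z = Y' ∩ Z' := by
    ext k
    have a := h.2.2.2 k
    have b := h'.2.2.2 k
    have := ind_le k Y; have := ind_le k Z; have := ind_le k Y'; have := ind_le k Z'
    rw [mem_inter, mem_inter]
    simp only [ind_one]
    omega
  have a := card_sdiff_add_card_inter Y Z
  have b := card_sdiff_add_card_inter Y' Z'
  rw [e, h.2.1] at a
  rw [h'.2.1] at b
  omega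

variable [Fintype K]

open Classical in
/-- completions of a first row -/
noncomputable def prs (c : K → ℕ) (r₁ r₂ r₃ : ℕ) (R : Finset K) : Finset (Finset K × Finset K) :=
  univ.filter fun p => Tr c r₁ r₂ r₃ R p.1 p.2

theorem mem_prs {R : Finset K} {p : Finset K × Finset K} :
    p ∈ prs c r₁ r₂ r₃ R ↔ Tr c r₁ r₂ r₃ R p.1 p.2 := by simp [prs]

theorem card_prs_pos {R : Finset K} (h : Feas c r₁ r₂ r₃ R) :
    (0 : ℝ) < (prs c r₁ r₂ r₃ R).card := by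
  obtain ⟨Y, Z, h⟩ := h
  exact_mod_cast card_pos.mpr ⟨(Y, Z), mem_prs.mpr h⟩

/-- the averaging equation for the first row -/
def Eqn (c : K → ℕ) (r₁ r₂ r₃ : ℕ) (l : ℝ) (G₁ G₂ G₃ : Finset K → ℝ) : Prop :=
  ∀ R, Feas c r₁ r₂ r₃ R →
    ∑ p ∈ prs c r₁ r₂ r₃ R, (G₂ p.1 + G₃ p.2) = (prs c r₁ r₂ r₃ R).card * (l * G₁ R)

variable {A₂ A₃ : Finset K → Prop} {G₁ G₂ G₃ : Finset K → ℝ} {l N : ℝ}

theorem step1 (hA : ∀ R Y Z, Tr c r₁ r₂ r₃ R Y Z → A₂ Y ∧ A₃ Z)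
    (h2 : Lip A₂ G₂ (fun u v => c u = c v) N) (h3 : Lip A₃ G₃ (fun u v => c u = c v) N)
    (hN : 0 ≤ N) (hl : 0 < l) (he : Eqn c r₁ r₂ r₃ l G₁ G₂ G₃) :
    Lip (Feas c r₁ r₂ r₃) G₁ (fun u v => c u = c v) (N / l) := by
  intro R hR u v huv hR'
  by_cases hsw : u ∈ R ↔ v ∈ R
  · rw [sw_eq_self hsw, sub_self, abs_zero]; positivity
  have hT : ∀ R Y Z, Tr c r₁ r₂ r₃ R Y Z → Tr c r₁ r₂ r₃ (sw u v R) (sw u v Y) (sw u v Z) := by
    intro R Y Z h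
    refine ⟨by simp [h.1], by simp [h.2.1], by simp [h.2.2.1], fun k => ?_⟩
    rw [ind_sw, ind_sw, ind_sw, h.2.2.2, Equiv.swap_apply_def]
    split_ifs with e1 e2
    · rw [e1, huv]
    · rw [e2, huv]
    · rfl
  have hs : ∀ F : Finset K × Finset K → ℝ, ∑ p ∈ prs c r₁ r₂ r₃ R, F (sw u v p.1, sw u v p.2) =
      ∑ p ∈ prs c r₁ r₂ r₃ (sw u v R), F p := fun F =>
    sum_nbij' (fun p => (sw u v p.1, sw u v p.2)) (fun p => (sw u v p.1, sw u v p.2))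
      (fun p hp => mem_prs.mpr (hT _ _ _ (mem_prs.mp hp)))
      (fun p hp => mem_prs.mpr (by simpa using hT _ _ _ (mem_prs.mp hp)))
      (fun p _ => by simp) (fun p _ => by simp) fun _ _ => rfl
  have hc := hs fun _ => 1
  simp only [sum_const, nsmul_eq_mul, mul_one] at hc
  have e1 := he R hR
  have e2 := he _ hR'
  rw [← hs fun p => G₂ p.1 + G₃ p.2, ← hc] at e2
  have hn := card_prs_pos hR
  have : |∑ p ∈ prs c r₁ r₂ r₃ R, ((G₂ (sw u v p.1) + G₃ (sw u v p.2)) - (G₂ p.1 + G₃ p.2))| ≤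
      (prs c r₁ r₂ r₃ R).card * N := by
    refine (abs_sum_le_sum_abs _ _).trans ?_
    rw [← nsmul_eq_mul]
    refine sum_le_card_nsmul _ _ _ fun p hp => ?_
    have hp := mem_prs.mp hp
    have a := h2 _ (hA _ _ _ hp).1 u v huv (hA _ _ _ (hT _ _ _ hp)).1
    have b := h3 _ (hA _ _ _ hp).2 u v huv (hA _ _ _ (hT _ _ _ hp)).2
    have hu := hp.2.2.2 u
    have hv := hp.2.2.2 v
    have : (u ∈ p.1 ↔ v ∈ p.1) ∨ (u ∈ p.2 ↔ v ∈ p.2) := by
      have := ind_le u R; have := ind_le v R; have := ind_le u p.1; have := ind_le v p.1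
      have := ind_le u p.2; have := ind_le v p.2
      simp only [ind_one] at hsw ⊢
      omega
    rcases this with h | h
    · rw [sw_eq_self h]; simpa using b
    · rw [sw_eq_self h]; simpa using a
  rw [sum_sub_distrib, e1, e2, ← mul_sub, ← mul_sub, abs_mul, abs_mul, abs_of_pos hn,
    abs_of_pos hl] at this
  rw [le_div_iff₀ hl]
  nlinarith

theorem half (hA : ∀ R Y Z, Tr c r₁ r₂ r₃ R Y Z → A₂ Y ∧ A₃ Z)
    (h2 : Lip A₂ G₂ (fun u v => c u = c v) 0) (h3 : Lip A₃ G₃ (fun u v => c u = c v) 0)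
    (h2' : Lip A₂ G₂ (fun _ _ => True) N) (h3' : Lip A₃ G₃ (fun _ _ => True) N)
    {R : Finset K} {u v : K} (hu : c u = 1) (hv : c v = 2) (huR : u ∈ R) (hvR : v ∉ R)
    (hR : Feas c r₁ r₂ r₃ R) {a : ℝ} (ha : ∑ p ∈ prs c r₁ r₂ r₃ R, (G₂ p.1 + G₃ p.2 - a) = 0) :
    ∑ p ∈ (prs c r₁ r₂ r₃ (sw u v R)).filter (fun p => u ∈ p.1),
      (G₂ p.1 + G₃ p.2 - a - N) ≤ 0 := by
  have huv : u ≠ v := fun e => hvR (e ▸ huR)
  have iu := ind_one.mp huR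
  have iv := ind_zero.mp hvR
  have f1 : ∀ Y Z, Tr c r₁ r₂ r₃ R Y Z →
      ind u Y = 0 ∧ ind u Z = 0 ∧ ind v Y = 1 ∧ ind v Z = 1 := by
    intro Y Z h
    have a := h.2.2.2 u
    have b := h.2.2.2 v
    have := ind_le v Y; have := ind_le v Z
    omega
  have f2 : ∀ Y Z, Tr c r₁ r₂ r₃ (sw u v R) Y Z →
      ind u Y + ind u Z = 1 ∧ ind v Y + ind v Z = 1 := by
    intro Y Z h
    have a := h.2.2.2 u
    have b := h.2.2.2 v
    simp only [ind_sw, Equiv.swap_apply_left, Equiv.swap_apply_right] at a b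
    omega
  -- the first bijection
  have g1 : ∀ Y Z, Tr c r₁ r₂ r₃ R Y Z → Tr c r₁ r₂ r₃ (sw u v R) (sw u v Y) Z := by
    intro Y Z h
    refine ⟨by simp [h.1], by simp [h.2.1], h.2.2.1, fun k => ?_⟩
    have := f1 Y Z h
    have := h.2.2.2 k
    rw [ind_sw, ind_sw, Equiv.swap_apply_def]
    split_ifs with e1 e2
    · subst e1; omega
    · subst e2; omega
    · omega
  have g2 : ∀ Y Z, Tr c r₁ r₂ r₃ (sw u v R) Y Z → u ∈ Y → v ∉ Y →
      Tr c r₁ r₂ r₃ R (sw u v Y) Z := by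
    intro Y Z h h1 h2
    refine ⟨by simpa using h.1, by simp [h.2.1], h.2.2.1, fun k => ?_⟩
    have := f2 Y Z h
    have b := h.2.2.2 k
    rw [ind_one] at h1
    rw [ind_zero] at h2
    rw [ind_sw] at b ⊢
    rw [Equiv.swap_apply_def] at b ⊢
    split_ifs at b ⊢ with e1 e2
    · subst e1; omega
    · subst e2; omega
    · omega
  have g3 : ∀ Y Z w, Tr c r₁ r₂ r₃ R Y Z → w ∈ Y → w ∉ Z →
      Tr c r₁ r₂ r₃ (sw u v R) (sw u w Y) (sw v w Z) ∧ w ≠ u ∧ w ≠ v := by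
    intro Y Z w h h1 h2
    have := f1 Y Z h
    rw [ind_one] at h1
    rw [ind_zero] at h2
    have hwu : w ≠ u := by rintro rfl; omega
    have hwv : w ≠ v := by rintro rfl; omega
    refine ⟨⟨by simp [h.1], by simp [h.2.1], by simp [h.2.2.1], fun k => ?_⟩, hwu, hwv⟩
    have := h.2.2.2 k
    simp only [ind_sw, Equiv.swap_apply_def]
    split_ifs <;> subst_vars <;> omega
  have g4 : ∀ Y Z w, Tr c r₁ r₂ r₃ (sw u v R) Y Z → u ∈ Y → v ∈ Y → w ∈ Z → w ∉ Y →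
      Tr c r₁ r₂ r₃ R (sw u w Y) (sw v w Z) := by
    intro Y Z w h h1 h2 h3 h4
    have := f2 Y Z h
    rw [ind_one] at h1 h2 h3
    rw [ind_zero] at h4
    have hwu : w ≠ u := by rintro rfl; omega
    have hwv : w ≠ v := by rintro rfl; omega
    refine ⟨by simpa using h.1, by simp [h.2.1], by simp [h.2.2.1], fun k => ?_⟩
    have b := h.2.2.2 k
    simp only [ind_sw, Equiv.swap_apply_def] at b ⊢
    split_ifs at b ⊢ <;> subst_vars <;> omega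
  rw [← sum_filter_add_sum_filter_not _ (fun p => v ∈ p.1), filter_filter, filter_filter]
  have p2 : ∑ p ∈ (prs c r₁ r₂ r₃ (sw u v R)).filter (fun p => u ∈ p.1 ∧ v ∉ p.1),
      (G₂ p.1 + G₃ p.2 - a - N) ≤ 0 := by
    rw [← ha, ← sum_nbij' (s := prs c r₁ r₂ r₃ R) (f := fun p => G₂ (sw u v p.1) + G₃ p.2 - a - N)
      (fun p => (sw u v p.1, p.2)) (fun p => (sw u v p.1, p.2)) ?_ ?_ (fun p _ => by simp)
      (fun p _ => by simp) fun _ _ => rfl]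
    · refine sum_le_sum fun p hp => ?_
      have hp := mem_prs.mp hp
      have := h2' _ (hA _ _ _ hp).1 u v trivial (hA _ _ _ (g1 _ _ hp)).1
      linarith [(abs_le.mp this).2]
    · intro p hp
      have hp := mem_prs.mp hp
      have := f1 _ _ hp
      simp only [mem_filter, mem_prs, left_mem_sw, right_mem_sw]
      exact ⟨g1 _ _ hp, ind_one.mpr (by omega), ind_zero.mpr (by omega)⟩
    · intro p hp
      simp only [mem_filter, mem_prs] at hp ⊢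
      exact g2 _ _ hp.1 hp.2.1 hp.2.2
  obtain ⟨Y₀, Z₀, h₀⟩ := hR
  have hm : (0 : ℝ) < (Z₀ \ sw u v Y₀).card := by
    have := f1 _ _ h₀
    exact_mod_cast card_pos.mpr ⟨v, mem_sdiff.mpr ⟨ind_one.mpr (by omega), by
      rw [right_mem_sw]; exact ind_zero.mpr (by omega)⟩⟩
  have p3 : ∑ p ∈ (prs c r₁ r₂ r₃ (sw u v R)).filter (fun p => u ∈ p.1 ∧ v ∈ p.1),
      ∑ _w ∈ p.2 \ p.1, (G₂ p.1 + G₃ p.2 - a - N) ≤
      ∑ p ∈ prs c r₁ r₂ r₃ R, ∑ _w ∈ p.1 \ p.2, (G₂ p.1 + G₃ p.2 - a) := by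
    rw [sum_sigma', sum_sigma']
    rw [← sum_nbij' (s := (prs c r₁ r₂ r₃ R).sigma fun p => p.1 \ p.2)
      (f := fun q => G₂ (sw u q.2 q.1.1) + G₃ (sw v q.2 q.1.2) - a - N)
      (fun q => ⟨(sw u q.2 q.1.1, sw v q.2 q.1.2), q.2⟩)
      (fun q => ⟨(sw u q.2 q.1.1, sw v q.2 q.1.2), q.2⟩) ?_ ?_ (fun p _ => by simp)
      (fun p _ => by simp) fun _ _ => rfl]
    · refine sum_le_sum fun q hq => ?_
      simp only [mem_sigma, mem_prs, mem_sdiff] at hq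
      obtain ⟨hp, h5, h6⟩ := hq
      have hg := (g3 _ _ _ hp h5 h6).1
      have b := hp.2.2.2 q.2
      rw [ind_one] at h5
      rw [ind_zero] at h6
      have := ind_le q.2 R
      rcases (by omega : c u = c q.2 ∨ c v = c q.2) with e | e
      · have x := h2 _ (hA _ _ _ hp).1 u q.2 e (hA _ _ _ hg).1
        have y := h3' _ (hA _ _ _ hp).2 v q.2 trivial (hA _ _ _ hg).2
        linarith [(abs_le.mp x).2, (abs_le.mp y).2]
      · have x := h2' _ (hA _ _ _ hp).1 u q.2 trivial (hA _ _ _ hg).1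
        have y := h3 _ (hA _ _ _ hp).2 v q.2 e (hA _ _ _ hg).2
        linarith [(abs_le.mp x).2, (abs_le.mp y).2]
    · intro q hq
      simp only [mem_sigma, mem_prs, mem_sdiff, mem_filter] at hq ⊢
      obtain ⟨hp, h5, h6⟩ := hq
      obtain ⟨hg, e1, e2⟩ := g3 _ _ _ hp h5 h6
      have := f1 _ _ hp
      refine ⟨⟨hg, left_mem_sw.mpr h5, (mem_sw_of_ne huv.symm e2.symm).mpr (ind_one.mpr (by omega))⟩,
        right_mem_sw.mpr (ind_one.mpr (by omega)), ?_⟩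
      rw [right_mem_sw]
      exact ind_zero.mpr (by omega)
    · intro q hq
      simp only [mem_sigma, mem_prs, mem_sdiff, mem_filter] at hq ⊢
      obtain ⟨⟨hp, h5, h6⟩, h7, h8⟩ := hq
      have := f2 _ _ hp
      refine ⟨g4 _ _ _ hp h5 h6 h7 h8, right_mem_sw.mpr h5, ?_⟩
      rw [right_mem_sw]
      rw [ind_one] at h6
      exact ind_zero.mpr (by omega)
  have p4 : ∑ p ∈ prs c r₁ r₂ r₃ R, ∑ _w ∈ p.1 \ p.2, (G₂ p.1 + G₃ p.2 - a) = 0 := by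
    rw [sum_congr rfl fun p hp => by
      rw [sum_const, nsmul_eq_mul, (mem_prs.mp hp).card_diff h₀], ← mul_sum, ha, mul_zero]
  rw [p4, sum_congr rfl fun p hp => by
    rw [sum_const, nsmul_eq_mul, (mem_prs.mp (mem_filter.mp hp).1).flip.card_diff (g1 _ _ h₀).flip],
    ← mul_sum] at p3
  have := nonpos_of_mul_nonpos_right p3 hm
  linarith

theorem sum_prs_flip (R : Finset K) (F : Finset K → Finset K → ℝ) :
    ∑ p ∈ prs c r₁ r₃ r₂ R, F p.2 p.1 = ∑ p ∈ prs c r₁ r₂ r₃ R, F p.1 p.2 :=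
  sum_nbij' Prod.swap Prod.swap (fun _ hp => mem_prs.mpr (mem_prs.mp hp).flip)
    (fun _ hp => mem_prs.mpr (mem_prs.mp hp).flip) (fun _ _ => rfl) (fun _ _ => rfl) fun _ _ => rfl

theorem mixed1 (hA : ∀ R Y Z, Tr c r₁ r₂ r₃ R Y Z → A₂ Y ∧ A₃ Z)
    (h2 : Lip A₂ G₂ (fun u v => c u = c v) 0) (h3 : Lip A₃ G₃ (fun u v => c u = c v) 0)
    (h2' : Lip A₂ G₂ (fun _ _ => True) N) (h3' : Lip A₃ G₃ (fun _ _ => True) N)
    {R : Finset K} {u v : K} (hu : c u = 1) (hv : c v = 2) (huR : u ∈ R) (hvR : v ∉ R)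
    (hR : Feas c r₁ r₂ r₃ R) {a : ℝ} (ha : ∑ p ∈ prs c r₁ r₂ r₃ R, (G₂ p.1 + G₃ p.2 - a) = 0) :
    ∑ p ∈ prs c r₁ r₂ r₃ (sw u v R), (G₂ p.1 + G₃ p.2 - a - N) ≤ 0 := by
  have x := half hA h2 h3 h2' h3' hu hv huR hvR hR ha
  have y := half (r₂ := r₃) (r₃ := r₂) (a := a) (fun R Y Z h => (hA R Z Y h.flip).symm) h3 h2 h3' h2'
    hu hv huR hvR (by obtain ⟨Y, Z, h⟩ := hR; exact ⟨Z, Y, h.flip⟩)
    (by rw [sum_prs_flip R fun Y Z => G₃ Z + G₂ Y - a, ← ha]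
        exact sum_congr rfl fun _ _ => by ring)
  rw [sum_filter] at x y
  rw [sum_prs_flip (sw u v R) fun Y Z => if u ∈ Z then G₃ Z + G₂ Y - a - N else 0] at y
  have := add_nonpos x y
  rw [← sum_add_distrib] at this
  refine le_of_eq_of_le (sum_congr rfl fun p hp => ?_) this
  have b := (mem_prs.mp hp).2.2.2 u
  rw [ind_sw, Equiv.swap_apply_left, ind_zero.mp hvR] at b
  simp only [ind_one]
  split_ifs <;> first | omega | ring

theorem mixed (hA : ∀ R Y Z, Tr c r₁ r₂ r₃ R Y Z → A₂ Y ∧ A₃ Z)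
    (h2 : Lip A₂ G₂ (fun u v => c u = c v) 0) (h3 : Lip A₃ G₃ (fun u v => c u = c v) 0)
    (h2' : Lip A₂ G₂ (fun _ _ => True) N) (h3' : Lip A₃ G₃ (fun _ _ => True) N)
    (hl : 0 < l) (he : Eqn c r₁ r₂ r₃ l G₁ G₂ G₃)
    {R : Finset K} {u v : K} (hu : c u = 1) (hv : c v = 2) (huR : u ∈ R) (hvR : v ∉ R)
    (hR : Feas c r₁ r₂ r₃ R) (hR' : Feas c r₁ r₂ r₃ (sw u v R)) :
    |G₁ (sw u v R) - G₁ R| ≤ N / l := by
  have e1 := he R hR
  have e2 := he _ hR'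
  have hn := card_prs_pos hR'
  have x := mixed1 hA h2 h3 h2' h3' hu hv huR hvR hR (a := l * G₁ R)
    (by rw [sum_sub_distrib, e1]; simp)
  have y := mixed1 hA h2.neg h3.neg h2'.neg h3'.neg hu hv huR hvR hR (a := -(l * G₁ R))
    (by simp only [← neg_add, sum_sub_distrib, sum_neg_distrib, e1]; simp)
  simp only [← neg_add, sum_sub_distrib, sum_neg_distrib, e2, sum_const, nsmul_eq_mul] at x y
  rw [le_div_iff₀ hl, ← abs_of_pos hl, ← abs_mul, abs_le]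
  constructor <;> nlinarith

theorem step2 (hA : ∀ R Y Z, Tr c r₁ r₂ r₃ R Y Z → A₂ Y ∧ A₃ Z)
    (h1 : Lip (Feas c r₁ r₂ r₃) G₁ (fun u v => c u = c v) 0)
    (h2 : Lip A₂ G₂ (fun u v => c u = c v) 0) (h3 : Lip A₃ G₃ (fun u v => c u = c v) 0)
    (h2' : Lip A₂ G₂ (fun _ _ => True) N) (h3' : Lip A₃ G₃ (fun _ _ => True) N)
    (hN : 0 ≤ N) (hl : 0 < l) (he : Eqn c r₁ r₂ r₃ l G₁ G₂ G₃) :
    Lip (Feas c r₁ r₂ r₃) G₁ (fun _ _ => True) (N / l) := by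
  have key : ∀ R u v, u ∈ R → v ∉ R → Feas c r₁ r₂ r₃ R → Feas c r₁ r₂ r₃ (sw u v R) →
      |G₁ (sw u v R) - G₁ R| ≤ N / l := by
    intro R u v huR hvR hR hR'
    by_cases e : c u = c v
    · exact (h1 R hR u v e hR').trans (by positivity)
    obtain ⟨Y, Z, h⟩ := id hR
    obtain ⟨Y', Z', h'⟩ := id hR'
    have a1 := h.2.2.2 u
    have a2 := h.2.2.2 v
    have a3 := h'.2.2.2 u
    have a4 := h'.2.2.2 v
    simp only [ind_sw, Equiv.swap_apply_left, Equiv.swap_apply_right] at a3 a4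
    have := ind_one.mp huR
    have := ind_zero.mp hvR
    have := ind_le v Y; have := ind_le v Z; have := ind_le u Y'; have := ind_le u Z'
    rcases (by omega : (c u = 1 ∧ c v = 2) ∨ (c v = 1 ∧ c u = 2)) with e | e
    · exact mixed hA h2 h3 h2' h3' hl he e.1 e.2 huR hvR hR hR'
    · have := mixed hA h2 h3 h2' h3' hl he e.1 e.2 (R := sw u v R) (by simpa) (by simpa) hR'
        (by rwa [sw_comm v u, sw_sw])
      rwa [sw_comm v u, sw_sw, abs_sub_comm] at this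
  intro R hR u v _ hR'
  by_cases e1 : u ∈ R <;> by_cases e2 : v ∈ R
  · rw [sw_eq_self (by simp [e1, e2]), sub_self, abs_zero]; positivity
  · exact key R u v e1 e2 hR hR'
  · rw [sw_comm] at hR' ⊢
    exact key R v u e2 e1 hR hR'
  · rw [sw_eq_self (by simp [e1, e2]), sub_self, abs_zero]; positivity

theorem lip_iter {A₁ : Finset K → Prop} {p : K → K → Prop} (hl : 1 < l)
    (h : ∀ N, 0 ≤ N → Lip A₁ G₁ p N → Lip A₂ G₂ p N → Lip A₃ G₃ p N →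
      Lip A₁ G₁ p (N / l) ∧ Lip A₂ G₂ p (N / l) ∧ Lip A₃ G₃ p (N / l)) :
    Lip A₁ G₁ p 0 ∧ Lip A₂ G₂ p 0 ∧ Lip A₃ G₃ p 0 := by
  have b : ∀ G : Finset K → ℝ, ∀ R R', |G R - G R'| ≤ 2 * ∑ X, |G X| := fun G R R' => by
    have h1 := single_le_sum (f := fun X => |G X|) (fun _ _ => abs_nonneg _) (mem_univ R)
    have h2 := single_le_sum (f := fun X => |G X|) (fun _ _ => abs_nonneg _) (mem_univ R')
    linarith [abs_sub (G R) (G R')]
  have n : ∀ G : Finset K → ℝ, 0 ≤ ∑ X, |G X| := fun G => sum_nonneg fun _ _ => abs_nonneg _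
  set M := 2 * ∑ X, |G₁ X| + 2 * ∑ X, |G₂ X| + 2 * ∑ X, |G₃ X| with hM
  have hM0 : 0 ≤ M := by linarith [n G₁, n G₂, n G₃]
  have it : ∀ k : ℕ, Lip A₁ G₁ p (M * (1 / l) ^ k) ∧ Lip A₂ G₂ p (M * (1 / l) ^ k) ∧
      Lip A₃ G₃ p (M * (1 / l) ^ k) := by
    intro k
    induction k with
    | zero =>
      simp only [pow_zero, mul_one]
      refine ⟨fun R _ u v _ _ => ?_, fun R _ u v _ _ => ?_, fun R _ u v _ _ => ?_⟩ <;>
        exact (b _ _ _).trans (by linarith [n G₁, n G₂, n G₃])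
    | succ k ih =>
      have := h _ (by positivity) ih.1 ih.2.1 ih.2.2
      rwa [show M * (1 / l) ^ k / l = M * (1 / l) ^ (k + 1) by ring] at this
  have lim : ∀ δ : ℝ, (∀ k : ℕ, δ ≤ M * (1 / l) ^ k) → δ ≤ 0 := fun δ hδ => by
    have t := (tendsto_pow_atTop_nhds_zero_of_lt_one (r := 1 / l) (by positivity)
      ((div_lt_one (by linarith)).mpr hl)).const_mul M
    rw [mul_zero] at t
    exact ge_of_tendsto' t hδ
  exact ⟨fun R a u v b c => lim _ fun k => (it k).1 R a u v b c,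
    fun R a u v b c => lim _ fun k => (it k).2.1 R a u v b c,
    fun R a u v b c => lim _ fun k => (it k).2.2 R a u v b c⟩

theorem three_lip (hl : 1 < l) (e1 : Eqn c r₁ r₂ r₃ l G₁ G₂ G₃) (e2 : Eqn c r₂ r₃ r₁ l G₂ G₃ G₁)
    (e3 : Eqn c r₃ r₁ r₂ l G₃ G₁ G₂) :
    Lip (Feas c r₁ r₂ r₃) G₁ (fun _ _ => True) 0 ∧ Lip (Feas c r₂ r₃ r₁) G₂ (fun _ _ => True) 0 ∧
      Lip (Feas c r₃ r₁ r₂) G₃ (fun _ _ => True) 0 := by
  have hA : ∀ {r₁ r₂ r₃ : ℕ} (R Y Z : Finset K), Tr c r₁ r₂ r₃ R Y Z →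
      Feas c r₂ r₃ r₁ Y ∧ Feas c r₃ r₁ r₂ Z := fun R Y Z h => ⟨⟨_, _, h.rot⟩, ⟨_, _, h.rot.rot⟩⟩
  have hl0 : 0 < l := by linarith
  obtain ⟨s1, s2, s3⟩ := lip_iter (p := fun u v => c u = c v) hl fun N hN h1 h2 h3 =>
    ⟨step1 hA h2 h3 hN hl0 e1, step1 hA h3 h1 hN hl0 e2, step1 hA h1 h2 hN hl0 e3⟩
  exact lip_iter hl fun N hN h1 h2 h3 =>
    ⟨step2 hA s1 s2 s3 h2 h3 hN hl0 e1, step2 hA s2 s3 s1 h3 h1 hN hl0 e2,
      step2 hA s3 s1 s2 h1 h2 hN hl0 e3⟩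

omit [Fintype K] in
theorem lip_const (h : Lip (Feas c r₂ r₃ r₁) G₂ (fun _ _ => True) 0) {R Y Z Y' Z' : Finset K}
    (h1 : Tr c r₁ r₂ r₃ R Y Z) (h2 : Tr c r₁ r₂ r₃ R Y' Z') : G₂ Y = G₂ Y' := by
  refine exch_conn (A := fun Y => ∃ Z, Tr c r₁ r₂ r₃ R Y Z) ?_ ?_ Y Y' ⟨Z, h1⟩ ⟨Z', h2⟩
  · rintro Y Y' ⟨Z, h1⟩ ⟨Z', h2⟩
    rw [h1.2.1, h2.2.1]
  rintro Y Y' ⟨Z, h1⟩ ⟨Z', h2⟩ w a1 a2 w' a3 a4
  have : Tr c r₁ r₂ r₃ R (sw w w' Y) (sw w w' Z) := by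
    refine ⟨h1.1, by simp [h1.2.1], by simp [h1.2.2.1], fun k => ?_⟩
    have b1 := h1.2.2.2 w
    have b2 := h1.2.2.2 w'
    have b3 := h2.2.2.2 w
    have b4 := h2.2.2.2 w'
    have b5 := h1.2.2.2 k
    rw [ind_one] at a1 a3
    rw [ind_zero] at a2 a4
    have := ind_le w Z'; have := ind_le w' Z
    simp only [ind_sw, Equiv.swap_apply_def]
    split_ifs <;> subst_vars <;> omega
  refine ⟨⟨_, this⟩, ?_⟩
  have := h Y ⟨_, _, h1.rot⟩ w w' trivial ⟨_, _, this.rot⟩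
  exact sub_eq_zero.mp (abs_nonpos_iff.mp this)

end Vale.Agent.P335
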